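import Mathlib

/-!
# P078: definitions

Maximal abelian self-adjoint subalgebras (MASAs) of von Neumann algebras, pinchings,
so-pavability, paving numbers and normal conditional expectations on corners.
-/

namespace Vale.Agent.P078

open scoped ComplexOrder

variable {H : Type*} [NormedAddCommGroup H] [InnerProductSpace ℂ H] [CompleteSpace H]

/-- `A` is a maximal abelian self-adjoint subalgebra (MASA) of the von Neumann algebra `M`. -/
structure IsMASA (A : StarSubalgebra ℂ (H →L[ℂ] H)) (M : VonNeumannAlgebra H) : Prop where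
  /-- `A` is contained in `M`. -/
  subset : ∀ a ∈ A, a ∈ M
  /-- `A` is abelian. -/
  comm : ∀ a ∈ A, ∀ b ∈ A, a * b = b * a
  /-- No abelian `*`-subalgebra of `M` is strictly larger than `A`. -/
  maximal : ∀ B : StarSubalgebra ℂ (H →L[ℂ] H), (∀ b ∈ B, b ∈ M) →
    (∀ b ∈ B, ∀ c ∈ B, b * c = c * b) → A ≤ B → B ≤ A

/-- `p` is a finite family of mutually orthogonal projections of `A` with sum `1`
(zeros allowed). -/
structure IsPartition (A : StarSubalgebra ℂ (H →L[ℂ] H)) {ι : Type*} [Fintype ι]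
    (p : ι → (H →L[ℂ] H)) : Prop where
  mem : ∀ i, p i ∈ A
  proj : ∀ i, IsStarProjection (p i)
  orth : ∀ i j, i ≠ j → p i * p j = 0
  sum_eq : ∑ i, p i = 1

/-- The pinching `∑ i, p i * x * p i` of `x` by the family `p`. -/
noncomputable def pinching {ι : Type*} [Fintype ι] (p : ι → (H →L[ℂ] H)) (x : H →L[ℂ] H) :
    H →L[ℂ] H :=
  ∑ i, p i * x * p i

/-- `x` is `(ε, r)` so-pavable over `A` (inside `M`). -/
def SoPavable (A : StarSubalgebra ℂ (H →L[ℂ] H)) (M : VonNeumannAlgebra H) (ε : ℝ) (r : ℕ)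
    (x : H →L[ℂ] H) : Prop :=
  ∀ (F : Finset H) (δ : ℝ), 0 < δ → ∃ (p : Fin r → (H →L[ℂ] H)) (a q : H →L[ℂ] H),
    IsPartition A p ∧ (a ∈ A ∧ IsSelfAdjoint a ∧ ‖a‖ ≤ ‖x‖) ∧ (q ∈ M ∧ IsStarProjection q) ∧
    (∀ ξ ∈ F, ‖(1 - q) ξ‖ < δ) ∧ ‖q * (pinching p x - a) * q‖ ≤ ε * ‖x‖

/-- The paving number `n_{A ⊆ M}(ε)`: the least `r ≥ 1` such that every self-adjoint `x ∈ M` is
`(ε, r)` so-pavable, and `⊤` if there is no such `r`. -/
noncomputable def pavingNumber (A : StarSubalgebra ℂ (H →L[ℂ] H)) (M : VonNeumannAlgebra H)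
    (ε : ℝ) : ℕ∞ :=
  sInf {n : ℕ∞ | ∃ r : ℕ, 1 ≤ r ∧ n = r ∧ ∀ x ∈ M, IsSelfAdjoint x → SoPavable A M ε r x}

/-- The corner `pSp` of a set of operators: the `x ∈ S` with `p * x * p = x`. -/
def corner (p : H →L[ℂ] H) (S : Set (H →L[ℂ] H)) : Set (H →L[ℂ] H) :=
  {x | x ∈ S ∧ p * x * p = x}

/-- `E` restricts to a normal conditional expectation of `pMp` onto `pAp = Ap`: a positive
`Ap`-bimodule map of `pMp` into `Ap` that fixes `Ap` and preserves suprema of bounded increasing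
nets of self-adjoint elements. (`E` is given as a linear map on all operators; only its values
on `pMp` matter.) -/
structure IsNormalCondExp (A : StarSubalgebra ℂ (H →L[ℂ] H)) (M : VonNeumannAlgebra H)
    (p : H →L[ℂ] H) (E : (H →L[ℂ] H) →ₗ[ℂ] (H →L[ℂ] H)) : Prop where
  maps_to : ∀ x ∈ corner p (M : Set (H →L[ℂ] H)), E x ∈ corner p (A : Set (H →L[ℂ] H))
  fixes : ∀ a ∈ corner p (A : Set (H →L[ℂ] H)), E a = a
  bimodule : ∀ a ∈ corner p (A : Set (H →L[ℂ] H)), ∀ b ∈ corner p (A : Set (H →L[ℂ] H)),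
    ∀ x ∈ corner p (M : Set (H →L[ℂ] H)), E (a * x * b) = a * E x * b
  nonneg : ∀ x ∈ corner p (M : Set (H →L[ℂ] H)), 0 ≤ x → 0 ≤ E x
  normal : ∀ (D : Set (H →L[ℂ] H)) (b : H →L[ℂ] H), D ⊆ corner p (M : Set (H →L[ℂ] H)) →
    (∀ x ∈ D, IsSelfAdjoint x) → D.Nonempty → DirectedOn (· ≤ ·) D →
    b ∈ corner p (M : Set (H →L[ℂ] H)) → IsLUB D b → IsLUB (E '' D) (E b)

/-- `A` is nowhere the range of a normal conditional expectation: for no nonzero projection
`p ∈ A` is there a normal conditional expectation of `pMp` onto `Ap`. -/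
def NowhereExpected (A : StarSubalgebra ℂ (H →L[ℂ] H)) (M : VonNeumannAlgebra H) : Prop :=
  ∀ p ∈ A, IsStarProjection p → p ≠ 0 →
    ¬ ∃ E : (H →L[ℂ] H) →ₗ[ℂ] (H →L[ℂ] H), IsNormalCondExp A M p E

end Vale.Agent.P078
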