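import Mathlib
import Vale.Agent.P078.Defs

/-!
# P078: operator lemmas
-/

set_option linter.unusedSectionVars false

namespace Vale.Agent.P078

open scoped ComplexOrder InnerProductSpace
open ContinuousLinearMap

variable {H : Type*} [NormedAddCommGroup H] [InnerProductSpace ℂ H] [CompleteSpace H]

/-- An operator leaving a closed subspace and its orthogonal complement invariant commutes with
the projection. -/
lemma commute_starProjection (U : Submodule ℂ H) [U.HasOrthogonalProjection] (w : H →L[ℂ] H)
    (h1 : ∀ x ∈ U, w x ∈ U) (h2 : ∀ x ∈ U, (star w) x ∈ U) : Commute w U.starProjection := by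
  refine ContinuousLinearMap.ext fun x => ?_
  simp only [mul_apply_eq_comp]
  symm
  apply Submodule.eq_starProjection_of_mem_orthogonal
  · exact h1 _ (Submodule.starProjection_apply_mem _ _)
  · rw [← map_sub, Submodule.mem_orthogonal]
    intro u hu
    have := Submodule.sub_starProjection_mem_orthogonal (K := U) x
    rw [Submodule.mem_orthogonal] at this
    have h3 := this _ (h2 u hu)
    rw [ContinuousLinearMap.star_eq_adjoint, ContinuousLinearMap.adjoint_inner_left] at h3
    exact h3

lemma commute_star_of_selfAdjoint {y w : H →L[ℂ] H} (hy : IsSelfAdjoint y) (h : Commute w y) :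
    Commute (star w) y := by
  have := h.star_star
  rw [hy.star_eq] at this
  exact this

/-- Membership in a von Neumann algebra by the double commutant property. -/
lemma mem_of_commute (M : VonNeumannAlgebra H) {x : H →L[ℂ] H}
    (h : ∀ w : H →L[ℂ] H, (∀ m ∈ M, Commute w m) → Commute w x) : x ∈ M := by
  rw [← VonNeumannAlgebra.commutant_commutant M, VonNeumannAlgebra.mem_commutant_iff]
  intro w hw
  rw [VonNeumannAlgebra.mem_commutant_iff] at hw
  exact (h w (fun m hm => (hw m hm).symm)).eq

lemma inner_sa {S : H →L[ℂ] H} (hS : IsSelfAdjoint S) (x y : H) :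
    ⟪S x, y⟫_ℂ = ⟪x, S y⟫_ℂ := by
  conv_lhs => rw [← hS.star_eq]
  rw [star_eq_adjoint, adjoint_inner_left]

lemma inner_self_re (x : H) : (⟪x, x⟫_ℂ).re = ‖x‖ ^ 2 := by
  rw [inner_self_eq_norm_sq_to_K]
  norm_cast

lemma inner_nonneg_re {T : H →L[ℂ] H} (hT : 0 ≤ T) (ξ : H) : 0 ≤ (⟪T ξ, ξ⟫_ℂ).re := by
  have := (ContinuousLinearMap.nonneg_iff_isPositive T).1 hT
  exact this.re_inner_nonneg_left ξ

lemma nonneg_of_inner {T : H →L[ℂ] H} (hT : IsSelfAdjoint T) (h : ∀ ξ, 0 ≤ (⟪T ξ, ξ⟫_ℂ).re) :
    0 ≤ T := by
  rw [ContinuousLinearMap.nonneg_iff_isPositive, ContinuousLinearMap.isPositive_iff_complex]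
  intro x
  refine ⟨?_, h x⟩
  have : (starRingEnd ℂ) ⟪T x, x⟫_ℂ = ⟪T x, x⟫_ℂ := by
    rw [inner_conj_symm]
    conv_lhs => rw [← hT.star_eq]
    rw [ContinuousLinearMap.star_eq_adjoint, ContinuousLinearMap.adjoint_inner_right]
  exact Complex.conj_eq_iff_re.1 this

lemma re_inner_mono {S T : H →L[ℂ] H} (h : S ≤ T) (ξ : H) :
    (⟪S ξ, ξ⟫_ℂ).re ≤ (⟪T ξ, ξ⟫_ℂ).re := by
  have := inner_nonneg_re (sub_nonneg.2 h) ξ
  simpa [inner_sub_left] using this

/-- For `0 ≤ T ≤ 1`: `‖T ξ‖² ≤ ⟨T ξ, ξ⟩`. -/
lemma sq_norm_le_inner {T : H →L[ℂ] H} (h0 : 0 ≤ T) (h1 : T ≤ 1) (ξ : H) :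
    ‖T ξ‖ ^ 2 ≤ (⟪T ξ, ξ⟫_ℂ).re := by
  have hsa : IsSelfAdjoint T := IsSelfAdjoint.of_nonneg h0
  have h2 : T ^ 2 ≤ T ^ 1 := CStarAlgebra.pow_antitone h0 h1 (by norm_num)
  have h3 := re_inner_mono h2 ξ
  rw [pow_one, pow_two, mul_apply_eq_comp] at h3
  rw [inner_sa hsa, inner_self_re] at h3
  simpa using h3


/-- Spectral cut: a self-adjoint operator `y` is small on the range of a projection `q`
commuting with everything that commutes with `y`, and `1 - q` is controlled by `y / η`. -/
lemma spectral_cut {y : H →L[ℂ] H} (hy : IsSelfAdjoint y) {η : ℝ} (hη : 0 < η) :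
    ∃ q z : H →L[ℂ] H, IsStarProjection q ∧ (∀ w, Commute w y → Commute w q) ∧
      (∀ ζ, q ζ = ζ → ‖y ζ‖ ≤ η * ‖ζ‖) ∧ (∀ ξ, η * ‖(1 - q) ξ‖ ≤ ‖y ξ‖) ∧
      z = cfc (fun t : ℝ => t - max (-η) (min t η)) y ∧ (∀ ζ, q ζ = ζ ↔ z ζ = 0) := by
  set h : ℝ → ℝ := fun t => t - max (-η) (min t η) with hh
  set g : ℝ → ℝ := fun t => max (-η) (min t η) with hg
  have hhc : Continuous h := by fun_prop
  have hgc : Continuous g := by fun_prop
  set z : H →L[ℂ] H := cfc h y with hz
  have hzsa : IsSelfAdjoint z := cfc_predicate h y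
  have hzy : z = y - cfc g y := by
    rw [hz, hh]
    rw [show (fun t : ℝ => t - max (-η) (min t η)) = fun t => id t - g t from rfl]
    rw [cfc_sub id g y (by fun_prop) (by fun_prop), cfc_id ℝ y]
  have hgn : ‖cfc g y‖ ≤ η := by
    apply norm_cfc_le hη.le
    intro t _
    rw [Real.norm_eq_abs, abs_le]
    constructor
    · exact le_max_left _ _
    · exact max_le (by linarith) (min_le_right _ _)
  set K := z.ker with hK
  have hKc : IsClosed (K : Set H) := z.isClosed_ker
  have : CompleteSpace K := hKc.completeSpace_coe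
  set q := K.starProjection with hq
  have hqK : ∀ ζ, q ζ = ζ ↔ z ζ = 0 := by
    intro ζ
    rw [hq, Submodule.starProjection_eq_self_iff, hK]
    exact LinearMap.mem_ker
  have hcomm : ∀ w, Commute w y → Commute w q := by
    intro w hw
    have h1 : Commute w z := (hw.symm.cfc_real h).symm
    have h2 : Commute (star w) z := commute_star_of_selfAdjoint hzsa h1
    apply commute_starProjection
    · intro x hx
      have hx' : z x = 0 := hx
      change z (w x) = 0
      have := congrArg (fun T : H →L[ℂ] H => T x) h1.eq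
      simp only [mul_apply_eq_comp] at this
      rw [← this, hx', map_zero]
    · intro x hx
      have hx' : z x = 0 := hx
      change z (star w x) = 0
      have := congrArg (fun T : H →L[ℂ] H => T x) h2.eq
      simp only [mul_apply_eq_comp] at this
      rw [← this, hx', map_zero]
  refine ⟨q, z, isStarProjection_starProjection, hcomm, ?_, ?_, rfl, hqK⟩
  · intro ζ hζ
    have hzζ := (hqK ζ).1 hζ
    have : y ζ = cfc g y ζ := by
      have := congrArg (fun T : H →L[ℂ] H => T ζ) hzy
      simp only [sub_apply] at this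
      rw [hzζ] at this
      exact (sub_eq_zero.1 this.symm)
    rw [this]
    exact (le_opNorm _ _).trans (mul_le_mul_of_nonneg_right hgn (norm_nonneg _))
  · intro ξ
    -- closure argument
    have key : ∀ v ∈ Kᗮ, η * ‖v‖ ≤ ‖y v‖ := by
      intro v hv
      have hcl : Kᗮ = (adjoint z).range.topologicalClosure := orthogonal_ker z
      rw [hcl] at hv
      have hsub : ((adjoint z).range.topologicalClosure : Set H) ⊆ {v | η * ‖v‖ ≤ ‖y v‖} := by
        rw [Submodule.topologicalClosure_coe]
        apply closure_minimal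
        · rintro _ ⟨w, rfl⟩
          rw [← star_eq_adjoint, hzsa.star_eq]
          change η * ‖z w‖ ≤ ‖y (z w)‖
          have h1 : 0 ≤ (y * z) * (y * z) - (η • z) * (η • z) := by
            have e1 : y * z = cfc (fun t => t * h t) y := by
              rw [show (fun t : ℝ => t * h t) = fun t => id t * h t from rfl]
              rw [cfc_mul id h y (by fun_prop) (by fun_prop), cfc_id ℝ y]
            have e2 : η • z = cfc (fun t => η * h t) y := by
              rw [cfc_const_mul η h y (by fun_prop)]
            rw [e1, e2, ← cfc_mul _ _ y (by fun_prop) (by fun_prop),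
              ← cfc_mul _ _ y (by fun_prop) (by fun_prop),
              ← cfc_sub _ _ y (by fun_prop) (by fun_prop)]
            apply cfc_nonneg
            intro t _
            have : h t = 0 ∨ η ^ 2 ≤ t ^ 2 := by
              by_cases ht : |t| ≤ η
              · left
                rw [abs_le] at ht
                simp only [hh]
                rw [min_eq_left ht.2, max_eq_right ht.1, sub_self]
              · right
                push Not at ht
                have := sq_abs t
                nlinarith [abs_nonneg t]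
            rcases this with h0 | h0
            · simp [h0]
            · nlinarith [mul_nonneg (sq_nonneg (h t)) (sub_nonneg.2 h0)]
          have h2 := inner_nonneg_re h1 w
          have hyzsa : IsSelfAdjoint (y * z) := by
            have : Commute y z := ((Commute.refl y).cfc_real h).symm
            exact (IsSelfAdjoint.commute_iff hy hzsa).1 this
          have hηz : IsSelfAdjoint (η • z) := by
            rw [isSelfAdjoint_iff, star_smul, hzsa.star_eq]; simp
          have aux : ∀ S : H →L[ℂ] H, IsSelfAdjoint S → (⟪(S * S) w, w⟫_ℂ).re = ‖S w‖ ^ 2 := by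
            intro S hS
            rw [mul_apply_eq_comp, inner_sa hS, inner_self_re]
          rw [sub_apply, inner_sub_left, Complex.sub_re, aux _ hyzsa, aux _ hηz] at h2
          rw [mul_apply_eq_comp, smul_apply, norm_smul, Real.norm_eq_abs, abs_of_pos hη] at h2
          have h3 : (η * ‖z w‖) ^ 2 ≤ ‖y (z w)‖ ^ 2 := by linarith
          exact le_of_sq_le_sq h3 (norm_nonneg _)
        · exact isClosed_le (by fun_prop) (by fun_prop)
      exact hsub hv
    have hv : (1 - q) ξ ∈ Kᗮ := by
      rw [sub_apply, one_apply_eq_self]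
      exact Submodule.sub_starProjection_mem_orthogonal _
    have h1 := key _ hv
    have hqy : Commute y q := hcomm y (Commute.refl y)
    have h2 : y ((1 - q) ξ) = (1 - q) (y ξ) := by
      have : Commute y (1 - q) := (Commute.one_right y).sub_right hqy
      have := congrArg (fun T : H →L[ℂ] H => T ξ) this.eq
      simpa only [mul_apply_eq_comp] using this
    rw [h2] at h1
    have h3 : ‖(1 - q) (y ξ)‖ ≤ ‖y ξ‖ := by
      have hn : ‖(1 - q : H →L[ℂ] H)‖ ≤ 1 := by
        have := isStarProjection_starProjection (U := K) |>.one_sub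
        exact this.norm_le
      calc ‖(1 - q) (y ξ)‖ ≤ ‖(1 - q : H →L[ℂ] H)‖ * ‖y ξ‖ := le_opNorm _ _
        _ ≤ 1 * ‖y ξ‖ := mul_le_mul_of_nonneg_right hn (norm_nonneg _)
        _ = ‖y ξ‖ := one_mul _
    exact h1.trans h3

end Vale.Agent.P078
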