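import Mathlib
import Vale.Agent.P078.Ops

/-!
# P078: the directed set of finite partitions in an abelian algebra, and pinchings
-/

set_option linter.unusedSectionVars false

namespace Vale.Agent.P078

open scoped ComplexOrder InnerProductSpace
open ContinuousLinearMap

variable {H : Type*} [NormedAddCommGroup H] [InnerProductSpace ℂ H] [CompleteSpace H]

/-- `A` is commutative. -/
def IsComm (A : StarSubalgebra ℂ (H →L[ℂ] H)) : Prop := ∀ a ∈ A, ∀ b ∈ A, a * b = b * a

/-- Finite partitions of the identity by projections of `A`. -/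
structure Part (A : StarSubalgebra ℂ (H →L[ℂ] H)) where
  ι : Type
  [fin : Fintype ι]
  f : ι → (H →L[ℂ] H)
  isPart : IsPartition A f

attribute [instance] Part.fin

namespace Part

variable {A : StarSubalgebra ℂ (H →L[ℂ] H)}

/-- The trivial partition. -/
def one (A : StarSubalgebra ℂ (H →L[ℂ] H)) : Part A where
  ι := Unit
  f := fun _ => 1
  isPart :=
    { mem := fun _ => one_mem A
      proj := fun _ => IsStarProjection.one _
      orth := fun i j h => absurd (Subsingleton.elim i j) h
      sum_eq := by simp }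

/-- The pinching map of a partition. -/
noncomputable def pinch (g : Part A) (x : H →L[ℂ] H) : H →L[ℂ] H := pinching g.f x

lemma pinch_def (g : Part A) (x : H →L[ℂ] H) : g.pinch x = ∑ i, g.f i * x * g.f i := rfl

/-- `g` is finer than `f`. -/
def Refines (f g : Part A) : Prop := ∀ s t, f.f s * g.f t = g.f t ∨ f.f s * g.f t = 0

lemma Refines.refl (f : Part A) : Refines f f := by
  intro s t
  by_cases h : s = t
  · left; rw [h]; exact (f.isPart.proj t).isIdempotentElem
  · right; exact f.isPart.orth s t h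

lemma exists_of_ne_zero (g : Part A) {x : H →L[ℂ] H} (hx : x ≠ 0) : ∃ t, g.f t * x ≠ 0 := by
  by_contra hcon
  push Not at hcon
  apply hx
  have : (∑ i, g.f i) * x = 0 := by
    rw [Finset.sum_mul]
    exact Finset.sum_eq_zero fun i _ => hcon i
  rw [g.isPart.sum_eq, one_mul] at this
  exact this

lemma Refines.trans {f g h : Part A} (h1 : Refines f g) (h2 : Refines g h) : Refines f h := by
  intro s u
  by_cases hu : h.f u = 0
  · left; rw [hu, mul_zero]
  · obtain ⟨t, ht⟩ := g.exists_of_ne_zero hu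
    have ht' : g.f t * h.f u = h.f u := (h2 t u).resolve_right ht
    rcases h1 s t with h3 | h3
    · left
      rw [← ht', ← mul_assoc, h3]
    · right
      rw [← ht', ← mul_assoc, h3, zero_mul]

instance : Preorder (Part A) where
  le := Refines
  le_refl := Refines.refl
  le_trans := fun _ _ _ => Refines.trans

lemma le_iff (f g : Part A) : f ≤ g ↔ ∀ s t, f.f s * g.f t = g.f t ∨ f.f s * g.f t = 0 := Iff.rfl

lemma comm_star (hA : IsComm A) {a b : H →L[ℂ] H} (ha : a ∈ A) (hb : b ∈ A) : Commute a b :=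
  hA a ha b hb

/-- Common refinement of a partition `f` and partitions `g s` inside each piece. -/
def sigma (hA : IsComm A) (f : Part A) (g : f.ι → Part A) : Part A where
  ι := Σ s : f.ι, (g s).ι
  f := fun st => f.f st.1 * (g st.1).f st.2
  isPart :=
    { mem := fun st => mul_mem (f.isPart.mem _) ((g st.1).isPart.mem _)
      proj := fun st => (f.isPart.proj _).mul ((g st.1).isPart.proj _)
        (hA _ (f.isPart.mem _) _ ((g st.1).isPart.mem _))
      orth := by
        rintro ⟨s, t⟩ ⟨s', t'⟩ hne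
        by_cases h : s = s'
        · subst h
          have ht : t ≠ t' := fun h => hne (by rw [h])
          have : f.f s * (g s).f t * (f.f s * (g s).f t')
              = f.f s * f.f s * ((g s).f t * (g s).f t') := by
            have := hA _ (f.isPart.mem s) _ ((g s).isPart.mem t)
            calc f.f s * (g s).f t * (f.f s * (g s).f t')
                = f.f s * ((g s).f t * f.f s) * (g s).f t' := by simp only [mul_assoc]
              _ = f.f s * (f.f s * (g s).f t) * (g s).f t' := by rw [this]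
              _ = _ := by simp only [mul_assoc]
          change f.f s * (g s).f t * (f.f s * (g s).f t') = 0
          rw [this, (g s).isPart.orth t t' ht, mul_zero]
        · change f.f s * (g s).f t * (f.f s' * (g s').f t') = 0
          have h1 := hA _ (f.isPart.mem s) _ ((g s).isPart.mem t)
          calc f.f s * (g s).f t * (f.f s' * (g s').f t')
              = (f.f s * (g s).f t) * f.f s' * (g s').f t' := by simp only [mul_assoc]
            _ = (g s).f t * (f.f s * f.f s') * (g s').f t' := by rw [h1]; simp only [mul_assoc]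
            _ = 0 := by rw [f.isPart.orth s s' h]; simp
      sum_eq := by
        rw [Fintype.sum_sigma]
        simp only [← Finset.mul_sum]
        simp only [(g _).isPart.sum_eq, mul_one, f.isPart.sum_eq] }

lemma le_sigma (hA : IsComm A) (f : Part A) (g : f.ι → Part A) : f ≤ sigma hA f g := by
  rintro s ⟨s', t⟩
  by_cases h : s = s'
  · left
    subst h
    change f.f s * (f.f s * (g s).f t) = f.f s * (g s).f t
    rw [← mul_assoc, (f.isPart.proj s).isIdempotentElem]
  · right
    change f.f s * (f.f s' * (g s').f t) = 0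
    rw [← mul_assoc, f.isPart.orth s s' h, zero_mul]

lemma sigma_const_le (hA : IsComm A) (f g : Part A) : g ≤ sigma hA f (fun _ => g) := by
  rintro s ⟨s', t⟩
  change g.f s * (f.f s' * g.f t) = f.f s' * g.f t ∨ g.f s * (f.f s' * g.f t) = 0
  have h1 := hA _ (g.isPart.mem s) _ (f.isPart.mem s')
  by_cases h : s = t
  · left
    subst h
    rw [← mul_assoc, h1, mul_assoc, (g.isPart.proj s).isIdempotentElem]
  · right
    rw [← mul_assoc, h1, mul_assoc, g.isPart.orth s t h, mul_zero]

lemma exists_le_le (hA : IsComm A) (f g : Part A) : ∃ h : Part A, f ≤ h ∧ g ≤ h :=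
  ⟨sigma hA f fun _ => g, le_sigma hA f _, sigma_const_le hA f g⟩

lemma isDirected (hA : IsComm A) : IsDirected (Part A) (· ≤ ·) := ⟨exists_le_le hA⟩

lemma exists_le_finset (hA : IsComm A) {κ : Type*} (s : Finset κ) (g : κ → Part A) :
    ∃ h : Part A, ∀ k ∈ s, g k ≤ h := by
  classical
  induction s using Finset.induction_on with
  | empty => exact ⟨one A, by simp⟩
  | insert a s _ ih =>
    obtain ⟨h, hh⟩ := ih
    obtain ⟨h', h1, h2⟩ := exists_le_le hA h (g a)
    refine ⟨h', fun k hk => ?_⟩
    rcases Finset.mem_insert.1 hk with rfl | hk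
    · exact h2
    · exact (hh k hk).trans h1

lemma mul_f_comm (hA : IsComm A) (f g : Part A) (s : f.ι) (t : g.ι) :
    f.f s * g.f t = g.f t * f.f s := hA _ (f.isPart.mem s) _ (g.isPart.mem t)

lemma f_sa (g : Part A) (s : g.ι) : IsSelfAdjoint (g.f s) := (g.isPart.proj s).isSelfAdjoint

lemma f_idem (g : Part A) (s : g.ι) : g.f s * g.f s = g.f s := (g.isPart.proj s).isIdempotentElem

lemma pinch_add (g : Part A) (x y : H →L[ℂ] H) : g.pinch (x + y) = g.pinch x + g.pinch y := by
  simp [pinch_def, mul_add, add_mul, Finset.sum_add_distrib]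

lemma pinch_sub (g : Part A) (x y : H →L[ℂ] H) : g.pinch (x - y) = g.pinch x - g.pinch y := by
  simp [pinch_def, mul_sub, sub_mul, Finset.sum_sub_distrib]

lemma pinch_smul (g : Part A) (c : ℂ) (x : H →L[ℂ] H) : g.pinch (c • x) = c • g.pinch x := by
  simp [pinch_def, Finset.smul_sum]

lemma pinch_smul_real (g : Part A) (c : ℝ) (x : H →L[ℂ] H) : g.pinch (c • x) = c • g.pinch x := by
  simp [pinch_def, Finset.smul_sum]

lemma pinch_zero (g : Part A) : g.pinch 0 = 0 := by simp [pinch_def]

lemma pinch_sum (g : Part A) {κ : Type*} (s : Finset κ) (x : κ → (H →L[ℂ] H)) :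
    g.pinch (∑ k ∈ s, x k) = ∑ k ∈ s, g.pinch (x k) := by
  classical
  induction s using Finset.induction_on with
  | empty => simp [pinch_zero]
  | insert a s ha ih => rw [Finset.sum_insert ha, Finset.sum_insert ha, pinch_add, ih]

lemma pinch_one (g : Part A) : g.pinch 1 = 1 := by
  simp only [pinch_def, mul_one, f_idem, g.isPart.sum_eq]

lemma pinch_nonneg (g : Part A) {x : H →L[ℂ] H} (hx : 0 ≤ x) : 0 ≤ g.pinch x := by
  rw [pinch_def]
  apply Finset.sum_nonneg
  intro i _
  exact IsSelfAdjoint.conjugate_nonneg hx (g.f_sa i)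

lemma pinch_mono (g : Part A) {x y : H →L[ℂ] H} (h : x ≤ y) : g.pinch x ≤ g.pinch y := by
  have := g.pinch_nonneg (sub_nonneg.2 h)
  rw [pinch_sub] at this
  exact sub_nonneg.1 this

lemma pinch_star (g : Part A) (x : H →L[ℂ] H) : star (g.pinch x) = g.pinch (star x) := by
  simp only [pinch_def, star_sum, star_mul, (g.f_sa _).star_eq, mul_assoc]

lemma pinch_sa (g : Part A) {x : H →L[ℂ] H} (hx : IsSelfAdjoint x) : IsSelfAdjoint (g.pinch x) := by
  rw [isSelfAdjoint_iff, pinch_star, hx.star_eq]

/-- Elements commuting with all pieces are fixed. -/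
lemma pinch_of_commute (g : Part A) {a : H →L[ℂ] H} (ha : ∀ s, Commute a (g.f s)) :
    g.pinch a = a := by
  rw [pinch_def]
  have : ∀ i, g.f i * a * g.f i = a * g.f i := by
    intro i
    rw [← (ha i).eq, mul_assoc, f_idem]
  simp only [this, ← Finset.mul_sum, g.isPart.sum_eq, mul_one]

lemma pinch_of_mem (hA : IsComm A) (g : Part A) {a : H →L[ℂ] H} (ha : a ∈ A) : g.pinch a = a :=
  g.pinch_of_commute fun s => hA a ha _ (g.isPart.mem s)

lemma pinch_mul_left (hA : IsComm A) (g : Part A) {a : H →L[ℂ] H} (ha : a ∈ A) (x : H →L[ℂ] H) :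
    g.pinch (a * x) = a * g.pinch x := by
  simp only [pinch_def, Finset.mul_sum]
  refine Finset.sum_congr rfl fun i _ => ?_
  have := hA a ha _ (g.isPart.mem i)
  calc g.f i * (a * x) * g.f i = (g.f i * a) * x * g.f i := by simp only [mul_assoc]
    _ = a * (g.f i * x * g.f i) := by rw [← this]; simp only [mul_assoc]

lemma pinch_mul_right (hA : IsComm A) (g : Part A) {a : H →L[ℂ] H} (ha : a ∈ A) (x : H →L[ℂ] H) :
    g.pinch (x * a) = g.pinch x * a := by
  simp only [pinch_def, Finset.sum_mul]
  refine Finset.sum_congr rfl fun i _ => ?_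
  have := hA a ha _ (g.isPart.mem i)
  calc g.f i * (x * a) * g.f i = g.f i * x * (a * g.f i) := by simp only [mul_assoc]
    _ = g.f i * x * g.f i * a := by rw [this]; simp only [mul_assoc]

lemma pinch_pinch (hA : IsComm A) {f g : Part A} (h : f ≤ g) (x : H →L[ℂ] H) :
    g.pinch (f.pinch x) = g.pinch x := by
  rw [pinch_def f, pinch_sum]
  simp only [pinch_def g]
  rw [Finset.sum_comm]
  refine Finset.sum_congr rfl fun t _ => ?_
  have key : ∀ s, g.f t * (f.f s * x * f.f s) * g.f t = f.f s * (g.f t * x * g.f t) := by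
    intro s
    have hc := mul_f_comm hA f g s t
    rcases h s t with h1 | h1
    · calc g.f t * (f.f s * x * f.f s) * g.f t = (g.f t * f.f s) * x * (f.f s * g.f t) := by
            simp only [mul_assoc]
        _ = g.f t * x * g.f t := by rw [← hc, h1]
        _ = f.f s * g.f t * x * g.f t := by rw [h1]
        _ = _ := by simp only [mul_assoc]
    · calc g.f t * (f.f s * x * f.f s) * g.f t = (g.f t * f.f s) * x * (f.f s * g.f t) := by
            simp only [mul_assoc]
        _ = 0 := by rw [h1, mul_zero]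
        _ = f.f s * g.f t * x * g.f t := by rw [h1]; simp
        _ = _ := by simp only [mul_assoc]
  simp only [key]
  rw [← Finset.sum_mul, f.isPart.sum_eq, one_mul]

lemma commute_pinch (hA : IsComm A) {f g : Part A} (h : f ≤ g) (x : H →L[ℂ] H) (s : f.ι) :
    Commute (f.f s) (g.pinch x) := by
  rw [commute_iff_eq, pinch_def, Finset.mul_sum, Finset.sum_mul]
  refine Finset.sum_congr rfl fun t _ => ?_
  have hc := mul_f_comm hA f g s t
  rcases h s t with h1 | h1
  · calc f.f s * (g.f t * x * g.f t) = f.f s * g.f t * x * g.f t := by simp only [mul_assoc]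
      _ = g.f t * x * (f.f s * g.f t) := by rw [h1]
      _ = _ := by rw [hc]; simp only [mul_assoc]
  · calc f.f s * (g.f t * x * g.f t) = f.f s * g.f t * x * g.f t := by simp only [mul_assoc]
      _ = g.f t * x * (f.f s * g.f t) := by rw [h1]; simp
      _ = _ := by rw [hc]; simp only [mul_assoc]

/-- Pythagoras for a partition. -/
lemma sum_norm_sq (g : Part A) (ξ : H) : ∑ s, ‖g.f s ξ‖ ^ 2 = ‖ξ‖ ^ 2 := by
  have h1 : ∀ s, ‖g.f s ξ‖ ^ 2 = (⟪g.f s ξ, ξ⟫_ℂ).re := by
    intro s
    rw [← inner_self_re, inner_sa (g.f_sa s), ← mul_apply_eq_comp, f_idem, ← inner_sa (g.f_sa s)]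
  simp only [h1]
  rw [← Complex.re_sum, ← sum_inner, ← _root_.sum_apply, g.isPart.sum_eq, one_apply_eq_self,
    inner_self_re]

lemma f_apply_orth (g : Part A) {s t : g.ι} (h : s ≠ t) (x y : H) :
    ⟪g.f s x, g.f t y⟫_ℂ = 0 := by
  rw [inner_sa (g.f_sa s), ← mul_apply_eq_comp, g.isPart.orth s t h, zero_apply, inner_zero_right]

/-- Orthogonal sums of vectors in the ranges. -/
lemma norm_sq_sum (g : Part A) (v : g.ι → H) :
    ‖∑ s, g.f s (v s)‖ ^ 2 = ∑ s, ‖g.f s (v s)‖ ^ 2 := by
  classical
  rw [← inner_self_re, sum_inner, Complex.re_sum]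
  refine Finset.sum_congr rfl fun s _ => ?_
  rw [inner_sum, Finset.sum_eq_single s]
  · exact inner_self_re _
  · intro t _ hts
    exact g.f_apply_orth (Ne.symm hts) _ _
  · simp

/-- Norm of a block diagonal operator. -/
lemma norm_blockdiag_le (g : Part A) (T : g.ι → (H →L[ℂ] H)) {C : ℝ} (hC : 0 ≤ C)
    (hT : ∀ s, ‖g.f s * T s * g.f s‖ ≤ C) : ‖∑ s, g.f s * T s * g.f s‖ ≤ C := by
  apply opNorm_le_bound _ hC
  intro ξ
  have h1 : (∑ s, g.f s * T s * g.f s) ξ = ∑ s, g.f s ((T s * g.f s) ξ) := by
    rw [_root_.sum_apply]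
    refine Finset.sum_congr rfl fun s _ => ?_
    simp only [mul_apply_eq_comp]
  have h2 : ‖(∑ s, g.f s * T s * g.f s) ξ‖ ^ 2 ≤ (C * ‖ξ‖) ^ 2 := by
    rw [h1, norm_sq_sum]
    calc ∑ s, ‖g.f s ((T s * g.f s) ξ)‖ ^ 2 ≤ ∑ s, (C * ‖g.f s ξ‖) ^ 2 := by
          apply Finset.sum_le_sum
          intro s _
          apply pow_le_pow_left₀ (norm_nonneg _)
          have : g.f s ((T s * g.f s) ξ) = (g.f s * T s * g.f s) (g.f s ξ) := by
            simp only [← mul_apply_eq_comp, mul_assoc, f_idem]
          rw [this]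
          exact (le_opNorm _ _).trans (mul_le_mul_of_nonneg_right (hT s) (norm_nonneg _))
      _ = C ^ 2 * ∑ s, ‖g.f s ξ‖ ^ 2 := by
          rw [Finset.mul_sum]
          exact Finset.sum_congr rfl fun s _ => by ring
      _ = (C * ‖ξ‖) ^ 2 := by rw [sum_norm_sq]; ring
  exact le_of_sq_le_sq h2 (by positivity)

lemma norm_pinch_le (g : Part A) (x : H →L[ℂ] H) : ‖g.pinch x‖ ≤ ‖x‖ := by
  rw [pinch_def]
  apply g.norm_blockdiag_le _ (norm_nonneg _)
  intro s
  have h1 := (g.isPart.proj s).norm_le
  calc ‖g.f s * x * g.f s‖ ≤ ‖g.f s * x‖ * ‖g.f s‖ := norm_mul_le _ _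
    _ ≤ (‖g.f s‖ * ‖x‖) * ‖g.f s‖ := by gcongr; exact norm_mul_le _ _
    _ ≤ (1 * ‖x‖) * 1 := by gcongr
    _ = ‖x‖ := by ring

lemma pinch_mem (M : VonNeumannAlgebra H) (hAM : ∀ a ∈ A, a ∈ M) (g : Part A) {x : H →L[ℂ] H}
    (hx : x ∈ M) : g.pinch x ∈ M := by
  rw [pinch_def]
  exact sum_mem fun i _ => mul_mem (mul_mem (hAM _ (g.isPart.mem i)) hx) (hAM _ (g.isPart.mem i))

end Part

end Vale.Agent.P078
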