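import Mathlib
import Vale.Agent.P078.Part

/-!
# P078: MASAs are bicommutant closed; finite spectral approximation inside `A`
-/

set_option linter.unusedSectionVars false

namespace Vale.Agent.P078

open scoped ComplexOrder InnerProductSpace
open ContinuousLinearMap

variable {H : Type*} [NormedAddCommGroup H] [InnerProductSpace ℂ H] [CompleteSpace H]
variable {A : StarSubalgebra ℂ (H →L[ℂ] H)} {M : VonNeumannAlgebra H}

lemma IsMASA.isComm (hA : IsMASA A M) : IsComm A := hA.comm

lemma IsMASA.mem_of_sa (hA : IsMASA A M) {y : H →L[ℂ] H} (hy : y ∈ M) (hsa : IsSelfAdjoint y)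
    (hc : ∀ a ∈ A, Commute a y) : y ∈ A := by
  set s : Set (H →L[ℂ] H) := (A : Set (H →L[ℂ] H)) ∪ {y} with hs
  have h1 : ∀ a ∈ s, ∀ b ∈ s, a * b = b * a := by
    intro a ha b hb
    rcases ha with ha | ha <;> rcases hb with hb | hb
    · exact hA.comm a ha b hb
    · rw [Set.mem_singleton_iff] at hb; subst hb; exact (hc a ha).eq
    · rw [Set.mem_singleton_iff] at ha; subst ha; exact (hc b hb).eq.symm
    · rw [Set.mem_singleton_iff] at ha hb; rw [ha, hb]
  have hstar : ∀ b ∈ s, star b ∈ s := by
    intro b hb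
    rcases hb with hb | hb
    · left; exact star_mem (s := A) hb
    · right
      rw [Set.mem_singleton_iff] at hb ⊢
      rw [hb, hsa.star_eq]
  have h2 := StarAlgebra.isMulCommutative_adjoin ℂ h1 (fun a ha b hb => h1 a ha _ (hstar b hb))
  set B := StarAlgebra.adjoin ℂ s with hB
  have hBM : ∀ b ∈ B, b ∈ M := by
    intro b hb
    have : B ≤ M.toStarSubalgebra := by
      apply StarAlgebra.adjoin_le
      rintro x (hx | hx)
      · exact hA.subset x hx
      · rw [Set.mem_singleton_iff] at hx; subst hx; exact hy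
    exact this hb
  have hBc : ∀ b ∈ B, ∀ c ∈ B, b * c = c * b := fun b hb c hc' => setLike_mul_comm hb hc'
  have hAB : A ≤ B := fun a ha => StarAlgebra.subset_adjoin ℂ s (Or.inl ha)
  exact hA.maximal B hBM hBc hAB (StarAlgebra.subset_adjoin ℂ s (Or.inr rfl))

lemma IsMASA.mem_of_commute (hA : IsMASA A M) {y : H →L[ℂ] H} (hy : y ∈ M)
    (hc : ∀ a ∈ A, Commute a y) : y ∈ A := by
  have hcs : ∀ a ∈ A, Commute a (star y) := by
    intro a ha
    have := (hc (star a) (star_mem ha)).star_star
    rwa [_root_.star_star] at this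
  have hsy : star y ∈ M := star_mem hy
  have h1 : y + star y ∈ A := by
    apply hA.mem_of_sa (add_mem hy hsy)
    · rw [isSelfAdjoint_iff, star_add, _root_.star_star, add_comm]
    · intro a ha; exact (hc a ha).add_right (hcs a ha)
  have h2 : (Complex.I : ℂ) • (y - star y) ∈ A := by
    apply hA.mem_of_sa
    · exact M.toStarSubalgebra.smul_mem (sub_mem hy hsy) _
    · rw [isSelfAdjoint_iff, star_smul, star_sub, _root_.star_star]
      simp [smul_sub]
      abel
    · intro a ha
      exact ((hc a ha).sub_right (hcs a ha)).smul_right _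
  have h3 : y = (1 / 2 : ℂ) • ((y + star y) + (-Complex.I) • ((Complex.I : ℂ) • (y - star y))) := by
    rw [smul_smul]
    simp only [neg_mul, Complex.I_mul_I, neg_neg, one_smul]
    rw [show y + star y + (y - star y) = (2 : ℂ) • y by rw [two_smul]; abel, smul_smul]
    norm_num
  rw [h3]
  exact A.smul_mem (add_mem h1 (A.smul_mem h2 _)) _

/-- `A'' = A`. -/
lemma IsMASA.mem_of_bicommute (hA : IsMASA A M) {y : H →L[ℂ] H}
    (h : ∀ w : H →L[ℂ] H, (∀ a ∈ A, Commute w a) → Commute w y) : y ∈ A := by
  apply hA.mem_of_commute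
  · apply Vale.Agent.P078.mem_of_commute
    intro w hw
    exact h w fun a ha => hw a (hA.subset a ha)
  · intro a ha
    exact h a fun b hb => hA.comm a ha b hb

/-- The two piece partition given by a projection. -/
noncomputable def Part.two (q : H →L[ℂ] H) (hq : q ∈ A) (hp : IsStarProjection q) : Part A where
  ι := Bool
  f := fun b => if b then q else 1 - q
  isPart :=
    { mem := fun b => by
        cases b
        · simpa using sub_mem (one_mem A) hq
        · simpa using hq
      proj := fun b => by
        cases b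
        · simpa using hp.one_sub
        · simpa using hp
      orth := by
        intro i j hij
        cases i <;> cases j <;> simp_all [mul_sub, sub_mul, hp.isIdempotentElem.eq]
      sum_eq := by simp }

lemma Part.two_true (q : H →L[ℂ] H) (hq : q ∈ A) (hp : IsStarProjection q) :
    (Part.two q hq hp).f true = q := rfl

/-- Finite spectral approximation of self-adjoint elements of `A` inside `A`. -/
lemma IsMASA.exists_spectral_part (hA : IsMASA A M) {b : H →L[ℂ] H} (hb : b ∈ A)
    (hbsa : IsSelfAdjoint b) {η : ℝ} (hη : 0 < η) :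
    ∃ (f : Part A) (c : f.ι → ℝ), ‖b - ∑ s, c s • f.f s‖ ≤ η := by
  classical
  -- the spectral cuts
  have hcut : ∀ t : ℝ, ∃ q : H →L[ℂ] H, IsStarProjection q ∧
      (∀ w, Commute w b → Commute w q) ∧
      (∀ ζ, q ζ = ζ → ‖(b - t • (1 : H →L[ℂ] H)) ζ‖ ≤ η * ‖ζ‖) ∧
      (∀ ζ, q ζ = ζ ↔
        (cfc (fun u : ℝ => (u - t) - max (-η) (min (u - t) η)) b : H →L[ℂ] H) ζ = 0) := by
    intro t
    have hsa : IsSelfAdjoint (b - t • (1 : H →L[ℂ] H)) := by
      apply hbsa.sub
      rw [isSelfAdjoint_iff, star_smul]; simp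
    obtain ⟨q, z, h1, h2, h3, -, h5, h6⟩ := spectral_cut hsa hη
    refine ⟨q, h1, ?_, h3, ?_⟩
    · intro w hw
      apply h2
      exact hw.sub_right ((Commute.one_right w).smul_right t)
    · have hz : z = cfc (fun u : ℝ => (u - t) - max (-η) (min (u - t) η)) b := by
        rw [h5]
        have e : b - t • (1 : H →L[ℂ] H) = cfc (fun u : ℝ => u - t) b := by
          rw [show (fun u : ℝ => u - t) = fun u => id u - (fun _ => t) u from rfl,
            cfc_sub id (fun _ => t) b (by fun_prop) (by fun_prop), cfc_id ℝ b, cfc_const t b,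
            Algebra.algebraMap_eq_smul_one]
        rw [e, ← cfc_comp' (fun t : ℝ => t - max (-η) (min t η)) (fun u => u - t) b
          (by fun_prop) (by fun_prop)]
      rw [← hz]
      exact h6
  choose q hq1 hq2 hq3 hq4 using hcut
  have hqA : ∀ t, q t ∈ A := by
    intro t
    apply hA.mem_of_bicommute
    intro w hw
    exact hq2 t w (hw b hb)
  have hprod : ∀ (L : List ℝ) (g : ℝ → ℝ), Continuous g →
      (∀ u ∈ spectrum ℝ b, g u * (L.map fun t => (u - t) - max (-η) (min (u - t) η)).prod = 0) →
      cfc g b * (L.map fun t => 1 - q t).prod = 0 := by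
    intro L
    induction L with
    | nil =>
      intro g hg h
      simp only [List.map_nil, List.prod_nil, mul_one] at h ⊢
      rw [cfc_congr (g := fun _ => (0 : ℝ)) (fun u hu => h u hu)]
      simp
    | cons t L ih =>
      intro g hg h
      set k : ℝ → ℝ := fun u => (u - t) - max (-η) (min (u - t) η) with hk
      have hkc : Continuous k := by fun_prop
      have h1 := ih (fun u => k u * g u) (by fun_prop) (by
        intro u hu
        have := h u hu
        simp only [List.map_cons, List.prod_cons] at this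
        rw [← this]
        simp only [hk]
        ring)
      rw [cfc_mul k g b (by fun_prop) (by fun_prop), mul_assoc] at h1
      set W := (L.map fun t => 1 - q t).prod with hW
      have h2 : q t * (cfc g b * W) = cfc g b * W := by
        refine ContinuousLinearMap.ext fun ξ => ?_
        rw [mul_apply_eq_comp, hq4 t]
        have := congrArg (fun T : H →L[ℂ] H => T ξ) h1
        simpa only [mul_apply_eq_comp, zero_apply] using this
      have h3 : Commute (cfc g b) (q t) := hq2 t _ (((Commute.refl b).cfc_real g))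
      simp only [List.map_cons, List.prod_cons]
      calc cfc g b * ((1 - q t) * W) = (1 - q t) * (cfc g b * W) := by
            rw [← mul_assoc, ← mul_assoc, ((Commute.one_right _).sub_right h3).eq]
        _ = 0 := by rw [sub_mul, one_mul, h2, sub_self]
  -- cover the spectrum
  have hcomp : IsCompact (spectrum ℝ b) := ContinuousFunctionalCalculus.isCompact_spectrum b
  obtain ⟨T, -, hTfin, hT⟩ := hcomp.finite_cover_balls hη
  set L := hTfin.toFinset.toList with hL
  have hzero : (L.map fun t => 1 - q t).prod = 0 := by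
    have := hprod L (fun _ => 1) continuous_const (by
      intro u hu
      rw [one_mul]
      apply List.prod_eq_zero
      obtain ⟨t, htT, htu⟩ : ∃ t ∈ T, u ∈ Metric.ball t η := by
        simpa using hT hu
      rw [List.mem_map]
      refine ⟨t, by simp [hL, htT], ?_⟩
      rw [Metric.mem_ball, Real.dist_eq, abs_lt] at htu
      rw [min_eq_left htu.2.le, max_eq_right htu.1.le, sub_self])
    rwa [cfc_const_one ℝ b, one_mul] at this
  obtain ⟨f, hf⟩ := Part.exists_le_finset hA.isComm (Finset.univ : Finset (hTfin.toFinset))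
    (fun t => Part.two (q t) (hqA t) (hq1 t))
  -- each nonzero piece lies under some `q t`
  have hpiece : ∀ s : f.ι, ∃ t : ℝ, q t * f.f s = f.f s ∨ f.f s = 0 := by
    intro s
    by_contra hcon
    push Not at hcon
    have h1 : ∀ t ∈ L, (1 - q t) * f.f s = f.f s := by
      intro t ht
      have htT : t ∈ hTfin.toFinset := by simpa [hL] using ht
      have h2 := hf ⟨t, htT⟩ (Finset.mem_univ _) true s
      rw [Part.two_true] at h2
      rcases h2 with h2 | h2
      · exact absurd h2 (hcon t).1
      · rw [sub_mul, one_mul, h2, sub_zero]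
    have h2 : ∀ L' : List ℝ, (∀ t ∈ L', (1 - q t) * f.f s = f.f s) →
        (L'.map fun t => 1 - q t).prod * f.f s = f.f s := by
      intro L'
      induction L' with
      | nil => intro _; simp
      | cons t L' ih =>
        intro h
        simp only [List.map_cons, List.prod_cons]
        rw [mul_assoc, ih (fun t ht => h t (List.mem_cons_of_mem _ ht)), h t List.mem_cons_self]
    have h3 := h2 L h1
    rw [hzero, zero_mul] at h3
    exact (hcon 0).2 h3.symm
  choose c hc using hpiece
  refine ⟨f, c, ?_⟩
  have e : b - ∑ s, c s • f.f s = ∑ s, f.f s * (b - c s • (1 : H →L[ℂ] H)) * f.f s := by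
    have e1 := f.pinch_of_mem hA.isComm hb
    rw [Part.pinch_def] at e1
    conv_lhs => rw [← e1]
    rw [← Finset.sum_sub_distrib]
    refine Finset.sum_congr rfl fun s _ => ?_
    rw [mul_sub, sub_mul]
    congr 1
    rw [mul_smul_comm, mul_one, smul_mul_assoc, f.f_idem]
  rw [e]
  apply f.norm_blockdiag_le _ hη.le
  intro s
  apply opNorm_le_bound _ hη.le
  intro ξ
  have hn : ∀ ζ, ‖f.f s ζ‖ ≤ ‖ζ‖ := by
    intro ζ
    calc ‖f.f s ζ‖ ≤ ‖f.f s‖ * ‖ζ‖ := le_opNorm _ _
      _ ≤ 1 * ‖ζ‖ := by gcongr; exact (f.isPart.proj s).norm_le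
      _ = ‖ζ‖ := one_mul _
  rcases hc s with h | h
  · have h1 : q (c s) (f.f s ξ) = f.f s ξ := by
      have := congrArg (fun T : H →L[ℂ] H => T ξ) h
      simpa only [mul_apply_eq_comp] using this
    have h2 := hq3 (c s) _ h1
    calc ‖(f.f s * (b - c s • (1 : H →L[ℂ] H)) * f.f s) ξ‖
        = ‖f.f s ((b - c s • (1 : H →L[ℂ] H)) (f.f s ξ))‖ := by simp only [mul_apply_eq_comp]
      _ ≤ ‖(b - c s • (1 : H →L[ℂ] H)) (f.f s ξ)‖ := hn _
      _ ≤ η * ‖f.f s ξ‖ := h2
      _ ≤ η * ‖ξ‖ := by gcongr; exact hn _
  · rw [h]; simp; positivity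

/-- An operator commuting with all projections occurring in partitions of `A` commutes with
`A`. -/
lemma IsMASA.commute_of_part (hA : IsMASA A M) {T : H →L[ℂ] H}
    (hT : ∀ (f : Part A) (s : f.ι), Commute (f.f s) T) : ∀ a ∈ A, Commute a T := by
  have hsa : ∀ b ∈ A, IsSelfAdjoint b → Commute b T := by
    intro b hb hbsa
    rw [commute_iff_eq, ← sub_eq_zero, ← norm_le_zero_iff]
    apply le_of_forall_pos_le_add
    intro ε hε
    obtain ⟨f, c, hfc⟩ := hA.exists_spectral_part hb hbsa
      (η := ε / (2 * (‖T‖ + 1))) (by positivity)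
    set b' := ∑ s, c s • f.f s with hb'
    have hcomm : Commute b' T := by
      rw [hb']
      exact Commute.sum_left _ _ _ fun s _ => (hT f s).smul_left _
    have e : b * T - T * b = (b - b') * T - T * (b - b') := by
      rw [sub_mul, mul_sub, hcomm.eq]; abel
    rw [e, zero_add]
    have hTn : (0 : ℝ) < ‖T‖ + 1 := by positivity
    calc ‖(b - b') * T - T * (b - b')‖ ≤ ‖(b - b') * T‖ + ‖T * (b - b')‖ := norm_sub_le _ _
      _ ≤ ‖b - b'‖ * ‖T‖ + ‖T‖ * ‖b - b'‖ := add_le_add (norm_mul_le _ _) (norm_mul_le _ _)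
      _ = 2 * ‖T‖ * ‖b - b'‖ := by ring
      _ ≤ 2 * (‖T‖ + 1) * (ε / (2 * (‖T‖ + 1))) := by
          gcongr
          linarith
      _ = ε := by field_simp
  intro a ha
  have h1 := hsa (a + star a) (add_mem ha (star_mem ha)) (by
    rw [isSelfAdjoint_iff, star_add, _root_.star_star, add_comm])
  have h2 := hsa ((Complex.I : ℂ) • (a - star a)) (A.smul_mem (sub_mem ha (star_mem ha)) _) (by
    rw [isSelfAdjoint_iff, star_smul, star_sub, _root_.star_star]
    simp [smul_sub]
    abel)
  have h3 : a = (1 / 2 : ℂ) • ((a + star a) + (-Complex.I) • ((Complex.I : ℂ) • (a - star a))) := by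
    rw [smul_smul]
    simp only [neg_mul, Complex.I_mul_I, neg_neg, one_smul]
    rw [show a + star a + (a - star a) = (2 : ℂ) • a by rw [two_smul]; abel, smul_smul]
    norm_num
  rw [h3]
  exact (h1.add_left (h2.smul_left _)).smul_left _

end Vale.Agent.P078
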