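import Mathlib
import Vale.Agent.P078.Masa

/-!
# P078: weak operator limits along ultrafilters, and the limit of the pinchings
-/

set_option linter.unusedSectionVars false

namespace Vale.Agent.P078

open scoped ComplexOrder InnerProductSpace
open ContinuousLinearMap Filter Topology

variable {H : Type*} [NormedAddCommGroup H] [InnerProductSpace ℂ H] [CompleteSpace H]

/-- Weak operator compactness of balls, in terms of ultrafilters. -/
lemma exists_wot_limit {I : Type*} (U : Ultrafilter I) (T : I → (H →L[ℂ] H)) {C : ℝ}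
    (hC : 0 ≤ C) (hT : ∀ i, ‖T i‖ ≤ C) :
    ∃ S : H →L[ℂ] H, (∀ ξ η : H, Tendsto (fun i => ⟪T i ξ, η⟫_ℂ) U (𝓝 ⟪S ξ, η⟫_ℂ)) ∧ ‖S‖ ≤ C := by
  have hb : ∀ i (ξ η : H), ‖⟪T i ξ, η⟫_ℂ‖ ≤ C * ‖ξ‖ * ‖η‖ := by
    intro i ξ η
    calc ‖⟪T i ξ, η⟫_ℂ‖ ≤ ‖T i ξ‖ * ‖η‖ := norm_inner_le_norm _ _
      _ ≤ (‖T i‖ * ‖ξ‖) * ‖η‖ := by gcongr; exact le_opNorm _ _
      _ ≤ (C * ‖ξ‖) * ‖η‖ := by gcongr; exact hT i
  have hlim : ∀ ξ η : H, ∃ z : ℂ, ‖z‖ ≤ C * ‖ξ‖ * ‖η‖ ∧
      Tendsto (fun i => ⟪T i ξ, η⟫_ℂ) U (𝓝 z) := by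
    intro ξ η
    have hK : IsCompact (Metric.closedBall (0 : ℂ) (C * ‖ξ‖ * ‖η‖)) := isCompact_closedBall _ _
    obtain ⟨z, hz, hz'⟩ := hK.ultrafilter_le_nhds (U.map fun i => ⟪T i ξ, η⟫_ℂ) (by
      rw [le_principal_iff, Ultrafilter.coe_map, mem_map]
      filter_upwards with i
      simpa using hb i ξ η)
    exact ⟨z, by simpa using hz, hz'⟩
  choose L hL1 hL2 using hlim
  have hadd_r : ∀ ξ η η', L ξ (η + η') = L ξ η + L ξ η' := by
    intro ξ η η'
    refine tendsto_nhds_unique (hL2 ξ (η + η')) ?_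
    have := (hL2 ξ η).add (hL2 ξ η')
    refine this.congr fun i => ?_
    rw [inner_add_right]
  have hsmul_r : ∀ (c : ℂ) ξ η, L ξ (c • η) = c * L ξ η := by
    intro c ξ η
    refine tendsto_nhds_unique (hL2 ξ (c • η)) ?_
    have := (hL2 ξ η).const_mul c
    refine this.congr fun i => ?_
    rw [inner_smul_right]
  have hadd_l : ∀ ξ ξ' η, L (ξ + ξ') η = L ξ η + L ξ' η := by
    intro ξ ξ' η
    refine tendsto_nhds_unique (hL2 (ξ + ξ') η) ?_
    have := (hL2 ξ η).add (hL2 ξ' η)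
    refine this.congr fun i => ?_
    rw [map_add, inner_add_left]
  have hsmul_l : ∀ (c : ℂ) ξ η, L (c • ξ) η = (starRingEnd ℂ) c * L ξ η := by
    intro c ξ η
    refine tendsto_nhds_unique (hL2 (c • ξ) η) ?_
    have := (hL2 ξ η).const_mul ((starRingEnd ℂ) c)
    refine this.congr fun i => ?_
    rw [map_smul, inner_smul_left]
  -- the functional `η ↦ L ξ η`
  let φ : H → StrongDual ℂ H := fun ξ =>
    LinearMap.mkContinuous
      { toFun := L ξ
        map_add' := hadd_r ξ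
        map_smul' := fun c η => by simpa using hsmul_r c ξ η } (C * ‖ξ‖) (fun η => hL1 ξ η)
  have hφ : ∀ ξ η, φ ξ η = L ξ η := fun ξ η => rfl
  let S0 : H → H := fun ξ => (InnerProductSpace.toDual ℂ H).symm (φ ξ)
  have hS0 : ∀ ξ η, ⟪S0 ξ, η⟫_ℂ = L ξ η := by
    intro ξ η
    simp only [S0]
    rw [InnerProductSpace.toDual_symm_apply, hφ]
  have hS0n : ∀ ξ, ‖S0 ξ‖ ≤ C * ‖ξ‖ := by
    intro ξ
    simp only [S0, LinearIsometryEquiv.norm_map]
    exact LinearMap.mkContinuous_norm_le _ (by positivity) _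
  let S : H →L[ℂ] H := LinearMap.mkContinuous
      { toFun := S0
        map_add' := fun ξ ξ' => by
          apply ext_inner_right ℂ
          intro v
          rw [inner_add_left, hS0, hS0, hS0, hadd_l]
        map_smul' := fun c ξ => by
          apply ext_inner_right ℂ
          intro v
          rw [RingHom.id_apply, inner_smul_left, hS0, hS0, hsmul_l] } C hS0n
  have hS : ∀ ξ, S ξ = S0 ξ := fun ξ => rfl
  refine ⟨S, ?_, LinearMap.mkContinuous_norm_le _ hC _⟩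
  intro ξ η
  rw [hS, hS0]
  exact hL2 ξ η

variable {A : StarSubalgebra ℂ (H →L[ℂ] H)} {M : VonNeumannAlgebra H}

lemma ext_inner2 {S T : H →L[ℂ] H} (h : ∀ ξ η : H, ⟪S ξ, η⟫_ℂ = ⟪T ξ, η⟫_ℂ) : S = T := by
  refine ContinuousLinearMap.ext fun ξ => ext_inner_right ℂ fun η => h ξ η

/-- An ultrafilter on the directed set of partitions. -/
structure Cofinal (A : StarSubalgebra ℂ (H →L[ℂ] H)) (U : Ultrafilter (Part A)) : Prop where
  le : ∀ f : Part A, ∀ᶠ g in (U : Filter (Part A)), f ≤ g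

lemma exists_cofinal (hA : IsComm A) : ∃ U : Ultrafilter (Part A), Cofinal A U := by
  have : IsDirected (Part A) (· ≤ ·) := Part.isDirected hA
  have : Nonempty (Part A) := ⟨Part.one A⟩
  have : IsDirectedOrder (Part A) := Part.isDirected hA
  have hne : (atTop : Filter (Part A)).NeBot := atTop_neBot
  refine ⟨Ultrafilter.of atTop, ⟨fun f => ?_⟩⟩
  exact (Ultrafilter.of_le atTop) (mem_atTop f)

/-- The limit of the pinchings along `U`. -/
noncomputable def limFun (U : Ultrafilter (Part A)) (x : H →L[ℂ] H) : H →L[ℂ] H :=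
  (exists_wot_limit U (fun g => g.pinch x) (norm_nonneg x) (fun g => g.norm_pinch_le x)).choose

lemma limFun_tendsto (U : Ultrafilter (Part A)) (x : H →L[ℂ] H) (ξ η : H) :
    Tendsto (fun g : Part A => ⟪g.pinch x ξ, η⟫_ℂ) U (𝓝 ⟪limFun U x ξ, η⟫_ℂ) :=
  (exists_wot_limit U (fun g => g.pinch x) (norm_nonneg x)
    (fun g => g.norm_pinch_le x)).choose_spec.1 ξ η

lemma norm_limFun_le (U : Ultrafilter (Part A)) (x : H →L[ℂ] H) : ‖limFun U x‖ ≤ ‖x‖ :=
  (exists_wot_limit U (fun g => g.pinch x) (norm_nonneg x)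
    (fun g => g.norm_pinch_le x)).choose_spec.2

lemma limFun_eq (U : Ultrafilter (Part A)) (x y : H →L[ℂ] H)
    (h : ∀ ξ η : H, Tendsto (fun g : Part A => ⟪g.pinch x ξ, η⟫_ℂ) U (𝓝 ⟪y ξ, η⟫_ℂ)) :
    limFun U x = y :=
  ext_inner2 fun ξ η => tendsto_nhds_unique (limFun_tendsto U x ξ η) (h ξ η)

lemma limFun_add (U : Ultrafilter (Part A)) (x y : H →L[ℂ] H) :
    limFun U (x + y) = limFun U x + limFun U y := by
  apply limFun_eq
  intro ξ η
  have := (limFun_tendsto U x ξ η).add (limFun_tendsto U y ξ η)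
  simp only [Part.pinch_add, add_apply, inner_add_left]
  exact this

lemma limFun_smul (U : Ultrafilter (Part A)) (c : ℂ) (x : H →L[ℂ] H) :
    limFun U (c • x) = c • limFun U x := by
  apply limFun_eq
  intro ξ η
  have := (limFun_tendsto U x ξ η).const_mul ((starRingEnd ℂ) c)
  simp only [Part.pinch_smul, smul_apply, inner_smul_left]
  exact this

/-- The limit of the pinchings, as a linear map. -/
noncomputable def Phi (U : Ultrafilter (Part A)) : (H →L[ℂ] H) →ₗ[ℂ] (H →L[ℂ] H) where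
  toFun := limFun U
  map_add' := limFun_add U
  map_smul' := limFun_smul U

lemma Phi_tendsto (U : Ultrafilter (Part A)) (x : H →L[ℂ] H) (ξ η : H) :
    Tendsto (fun g : Part A => ⟪g.pinch x ξ, η⟫_ℂ) U (𝓝 ⟪Phi U x ξ, η⟫_ℂ) :=
  limFun_tendsto U x ξ η

lemma Phi_tendsto_re (U : Ultrafilter (Part A)) (x : H →L[ℂ] H) (ξ η : H) :
    Tendsto (fun g : Part A => (⟪g.pinch x ξ, η⟫_ℂ).re) U (𝓝 (⟪Phi U x ξ, η⟫_ℂ).re) :=
  (Complex.continuous_re.tendsto _).comp (Phi_tendsto U x ξ η)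

lemma norm_Phi_le (U : Ultrafilter (Part A)) (x : H →L[ℂ] H) : ‖Phi U x‖ ≤ ‖x‖ :=
  norm_limFun_le U x

lemma Phi_eq (U : Ultrafilter (Part A)) (x y : H →L[ℂ] H)
    (h : ∀ ξ η : H, Tendsto (fun g : Part A => ⟪g.pinch x ξ, η⟫_ℂ) U (𝓝 ⟪y ξ, η⟫_ℂ)) :
    Phi U x = y := limFun_eq U x y h

lemma Phi_sa (U : Ultrafilter (Part A)) {x : H →L[ℂ] H} (hx : IsSelfAdjoint x) :
    IsSelfAdjoint (Phi U x) := by
  rw [isSelfAdjoint_iff]
  symm
  apply Phi_eq
  intro ξ η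
  rw [star_eq_adjoint, adjoint_inner_left, ← inner_conj_symm ξ]
  have h1 := ((Complex.continuous_conj.tendsto _).comp (Phi_tendsto U x η ξ))
  refine h1.congr fun g => ?_
  simp only [Function.comp]
  rw [inner_conj_symm, ← inner_sa (g.pinch_sa hx)]

lemma Phi_nonneg (U : Ultrafilter (Part A)) {x : H →L[ℂ] H} (hx : 0 ≤ x) : 0 ≤ Phi U x := by
  apply nonneg_of_inner (Phi_sa U (IsSelfAdjoint.of_nonneg hx))
  intro ξ
  exact ge_of_tendsto (Phi_tendsto_re U x ξ ξ)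
    (Eventually.of_forall fun g => inner_nonneg_re (g.pinch_nonneg hx) ξ)

lemma Phi_mono (U : Ultrafilter (Part A)) {x y : H →L[ℂ] H} (h : x ≤ y) :
    Phi U x ≤ Phi U y := by
  have := Phi_nonneg U (sub_nonneg.2 h)
  rw [map_sub] at this
  exact sub_nonneg.1 this

lemma Phi_of_mem (hA : IsComm A) (U : Ultrafilter (Part A)) {a : H →L[ℂ] H} (ha : a ∈ A) :
    Phi U a = a := by
  apply Phi_eq
  intro ξ η
  have : (fun g : Part A => ⟪g.pinch a ξ, η⟫_ℂ) = fun _ => ⟪a ξ, η⟫_ℂ := by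
    funext g; rw [g.pinch_of_mem hA ha]
  rw [this]
  exact tendsto_const_nhds

lemma Phi_mul_left (hA : IsComm A) (U : Ultrafilter (Part A)) {a : H →L[ℂ] H} (ha : a ∈ A)
    (x : H →L[ℂ] H) : Phi U (a * x) = a * Phi U x := by
  apply Phi_eq
  intro ξ η
  have h1 := Phi_tendsto U x ξ (star a η)
  simp only [star_eq_adjoint, adjoint_inner_right] at h1
  simp only [mul_apply_eq_comp]
  refine h1.congr fun g => ?_
  rw [g.pinch_mul_left hA ha, mul_apply_eq_comp]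

lemma Phi_mul_right (hA : IsComm A) (U : Ultrafilter (Part A)) {a : H →L[ℂ] H} (ha : a ∈ A)
    (x : H →L[ℂ] H) : Phi U (x * a) = Phi U x * a := by
  apply Phi_eq
  intro ξ η
  have h1 := Phi_tendsto U x (a ξ) η
  simp only [mul_apply_eq_comp]
  refine h1.congr fun g => ?_
  rw [g.pinch_mul_right hA ha, mul_apply_eq_comp]

lemma Phi_commute_f (hA : IsComm A) {U : Ultrafilter (Part A)} (hU : Cofinal A U)
    (x : H →L[ℂ] H) (f : Part A) (s : f.ι) : Commute (f.f s) (Phi U x) := by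
  rw [commute_iff_eq]
  apply ext_inner2
  intro ξ η
  have h1 : Tendsto (fun g : Part A => ⟪g.pinch x (f.f s ξ), η⟫_ℂ) U
      (𝓝 ⟪(Phi U x * f.f s) ξ, η⟫_ℂ) := Phi_tendsto U x (f.f s ξ) η
  have h2 : Tendsto (fun g : Part A => ⟪g.pinch x (f.f s ξ), η⟫_ℂ) U
      (𝓝 ⟪(f.f s * Phi U x) ξ, η⟫_ℂ) := by
    have h3 := Phi_tendsto U x ξ (f.f s η)
    have e : ⟪(f.f s * Phi U x) ξ, η⟫_ℂ = ⟪Phi U x ξ, f.f s η⟫_ℂ := by
      rw [mul_apply_eq_comp, inner_sa (f.f_sa s)]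
    rw [e]
    refine h3.congr' ?_
    filter_upwards [hU.le f] with g hg
    rw [← inner_sa (f.f_sa s), ← mul_apply_eq_comp, (Part.commute_pinch hA hg x s).eq,
      mul_apply_eq_comp]
  exact tendsto_nhds_unique h2 h1

lemma Phi_mem_M (hAM : ∀ a ∈ A, a ∈ M) (U : Ultrafilter (Part A)) {x : H →L[ℂ] H} (hx : x ∈ M) :
    Phi U x ∈ M := by
  apply mem_of_commute
  intro w hw
  rw [commute_iff_eq]
  apply ext_inner2
  intro ξ η
  have h1 : Tendsto (fun g : Part A => ⟪g.pinch x (w ξ), η⟫_ℂ) U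
      (𝓝 ⟪(Phi U x * w) ξ, η⟫_ℂ) := Phi_tendsto U x (w ξ) η
  have h2 : Tendsto (fun g : Part A => ⟪g.pinch x (w ξ), η⟫_ℂ) U
      (𝓝 ⟪(w * Phi U x) ξ, η⟫_ℂ) := by
    have h3 := Phi_tendsto U x ξ (star w η)
    simp only [star_eq_adjoint, adjoint_inner_right] at h3
    rw [mul_apply_eq_comp]
    refine h3.congr fun g => ?_
    have := (hw _ (g.pinch_mem M hAM hx)).eq
    rw [← mul_apply_eq_comp, this, mul_apply_eq_comp]
  exact tendsto_nhds_unique h2 h1

lemma IsMASA.Phi_mem (hA : IsMASA A M) {U : Ultrafilter (Part A)} (hU : Cofinal A U)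
    {x : H →L[ℂ] H} (hx : x ∈ M) : Phi U x ∈ A := by
  apply hA.mem_of_commute (Phi_mem_M hA.subset U hx)
  exact hA.commute_of_part fun f s => Phi_commute_f hA.isComm hU x f s

end Vale.Agent.P078
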