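import Mathlib
import Vale.Agent.P078.Limit

/-!
# P078: the resolvent `(1 + Y)⁻¹` of a positive operator
-/

set_option linter.unusedSectionVars false

namespace Vale.Agent.P078

open scoped ComplexOrder InnerProductSpace
open ContinuousLinearMap Filter Topology

variable {H : Type*} [NormedAddCommGroup H] [InnerProductSpace ℂ H] [CompleteSpace H]

/-- `(1 + Y)⁻¹`. -/
noncomputable def Res (Y : H →L[ℂ] H) : H →L[ℂ] H := Ring.inverse (1 + Y)

lemma spos {Y : H →L[ℂ] H} (hY : 0 ≤ Y) : IsStrictlyPositive (1 + Y) :=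
  isStrictlyPositive_one.add_nonneg hY

lemma mul_Res {Y : H →L[ℂ] H} (hY : 0 ≤ Y) : (1 + Y) * Res Y = 1 :=
  Ring.mul_inverse_cancel _ (spos hY).isUnit

lemma Res_mul {Y : H →L[ℂ] H} (hY : 0 ≤ Y) : Res Y * (1 + Y) = 1 :=
  Ring.inverse_mul_cancel _ (spos hY).isUnit

lemma Res_anti {Y Y' : H →L[ℂ] H} (hY : 0 ≤ Y) (h : Y ≤ Y') : Res Y' ≤ Res Y :=
  CStarAlgebra.ringInverse_le_ringInverse (by gcongr) (spos hY)

lemma Res_zero : Res (0 : H →L[ℂ] H) = 1 := by simp [Res]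

lemma Res_le_one {Y : H →L[ℂ] H} (hY : 0 ≤ Y) : Res Y ≤ 1 := by
  have := Res_anti le_rfl hY
  rwa [Res_zero] at this

lemma Res_sa {Y : H →L[ℂ] H} (hY : 0 ≤ Y) : IsSelfAdjoint (Res Y) := by
  have hsa : IsSelfAdjoint (1 + Y) := (IsSelfAdjoint.one _).add (IsSelfAdjoint.of_nonneg hY)
  rw [isSelfAdjoint_iff]
  have h1 : star (Res Y) * (1 + Y) = 1 := by
    have := congrArg star (mul_Res hY)
    rwa [star_mul, hsa.star_eq, star_one] at this
  calc star (Res Y) = star (Res Y) * ((1 + Y) * Res Y) := by rw [mul_Res hY, mul_one]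
    _ = Res Y := by rw [← mul_assoc, h1, one_mul]

lemma Res_nonneg {Y : H →L[ℂ] H} (hY : 0 ≤ Y) : 0 ≤ Res Y := by
  have h1 : Res Y = Res Y * (1 + Y) * Res Y := by rw [Res_mul hY, one_mul]
  rw [h1]
  exact IsSelfAdjoint.conjugate_nonneg (spos hY).nonneg (Res_sa hY)

lemma one_sub_Res {Y : H →L[ℂ] H} (hY : 0 ≤ Y) : 1 - Res Y ≤ Y := by
  have h0 : 0 ≤ Y * Res Y * Y :=
    IsSelfAdjoint.conjugate_nonneg (Res_nonneg hY) (IsSelfAdjoint.of_nonneg hY)
  have h1 : Y * Res Y = 1 - Res Y := by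
    have := mul_Res hY
    rw [add_mul, one_mul] at this
    exact eq_sub_of_add_eq' this
  have h2 : Res Y * Y = 1 - Res Y := by
    have := Res_mul hY
    rw [mul_add, mul_one] at this
    exact eq_sub_of_add_eq' this
  have h3 : Y * Res Y * Y = Y - (1 - Res Y) := by
    rw [h1, sub_mul, one_mul, h2]
  rw [h3] at h0
  exact sub_nonneg.1 h0

lemma Res_mem {M : VonNeumannAlgebra H} {Y : H →L[ℂ] H} (hY : 0 ≤ Y) (hM : Y ∈ M) :
    Res Y ∈ M := by
  apply mem_of_commute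
  intro w hw
  have h1 : Commute w (1 + Y) := (Commute.one_right w).add_right (hw Y hM)
  rw [commute_iff_eq]
  calc w * Res Y = (Res Y * (1 + Y)) * (w * Res Y) := by rw [Res_mul hY, one_mul]
    _ = Res Y * ((1 + Y) * w) * Res Y := by simp only [mul_assoc]
    _ = Res Y * (w * (1 + Y)) * Res Y := by rw [h1.eq]
    _ = Res Y * w * ((1 + Y) * Res Y) := by simp only [mul_assoc]
    _ = Res Y * w := by rw [mul_Res hY, mul_one]

/-- Resolvent identity. -/
lemma Res_sub {Y W : H →L[ℂ] H} (hY : 0 ≤ Y) (hW : 0 ≤ W) :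
    Res Y - Res (Y + W) = Res Y * W * Res (Y + W) := by
  have hYW : 0 ≤ Y + W := add_nonneg hY hW
  have h1 : W = (1 + (Y + W)) - (1 + Y) := by abel
  calc Res Y - Res (Y + W) = Res Y * ((1 + (Y + W)) * Res (Y + W))
        - (Res Y * (1 + Y)) * Res (Y + W) := by rw [mul_Res hYW, Res_mul hY, mul_one, one_mul]
    _ = Res Y * ((1 + (Y + W)) - (1 + Y)) * Res (Y + W) := by
        simp only [mul_sub, sub_mul, mul_assoc]
    _ = Res Y * W * Res (Y + W) := by rw [← h1]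

lemma Res_sub' {Y W : H →L[ℂ] H} (hY : 0 ≤ Y) (hW : 0 ≤ W) :
    Res Y - Res (Y + W) = Res (Y + W) * W * Res Y := by
  have h := congrArg star (Res_sub hY hW)
  rw [star_sub, star_mul, star_mul, (Res_sa hY).star_eq, (Res_sa (add_nonneg hY hW)).star_eq,
    (IsSelfAdjoint.of_nonneg hW).star_eq, ← mul_assoc] at h
  exact h

lemma Res_decrease {Y Z : H →L[ℂ] H} (hY : 0 ≤ Y) (hZ : 0 ≤ Z) (hZ1 : Z ≤ 1) :
    (1 / 4 : ℝ) • (Res Y * Z * Res Y) ≤ Res Y - Res (Y + Z) := by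
  set W : H →L[ℂ] H := (1 / 2 : ℝ) • Z with hW
  have hW0 : 0 ≤ W := smul_nonneg (by norm_num) hZ
  have hWZ : W ≤ Z := by
    have h1 : Z - W = (1 / 2 : ℝ) • Z := by
      rw [hW]; module
    have : 0 ≤ Z - W := by rw [h1]; exact smul_nonneg (by norm_num) hZ
    exact sub_nonneg.1 this
  have hR := Res_sa hY
  have h1 : Res Y - Res (Y + W) = Res Y * (W - W * Res (Y + W) * W) * Res Y := by
    rw [Res_sub' hY hW0]
    have h2 : Res (Y + W) = Res Y - Res Y * W * Res (Y + W) := by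
      rw [← Res_sub hY hW0]; abel
    calc Res (Y + W) * W * Res Y
        = (Res Y - Res Y * W * Res (Y + W)) * W * Res Y := by rw [← h2]
      _ = Res Y * (W - W * Res (Y + W) * W) * Res Y := by
          simp only [mul_sub, sub_mul, mul_assoc]
  have h3 : W * Res (Y + W) * W ≤ (1 / 4 : ℝ) • Z := by
    have hWsa := IsSelfAdjoint.of_nonneg hW0
    calc W * Res (Y + W) * W ≤ W * 1 * W :=
          IsSelfAdjoint.conjugate_le_conjugate (Res_le_one (add_nonneg hY hW0)) hWsa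
      _ = (1 / 4 : ℝ) • (Z ^ 2) := by
          rw [mul_one, hW, smul_mul_smul_comm, pow_two]; norm_num
      _ ≤ (1 / 4 : ℝ) • Z := by
          have h4 : Z ^ 2 ≤ Z ^ 1 := CStarAlgebra.pow_antitone hZ hZ1 (by norm_num)
          rw [pow_one] at h4
          exact smul_le_smul_of_nonneg_left h4 (by norm_num)
  have h5 : (1 / 4 : ℝ) • Z ≤ W - W * Res (Y + W) * W := by
    calc (1 / 4 : ℝ) • Z = W - (1 / 4 : ℝ) • Z := by rw [hW]; module
      _ ≤ W - W * Res (Y + W) * W := by gcongr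
  calc (1 / 4 : ℝ) • (Res Y * Z * Res Y) = Res Y * ((1 / 4 : ℝ) • Z) * Res Y := by
        rw [mul_smul_comm, smul_mul_assoc]
    _ ≤ Res Y * (W - W * Res (Y + W) * W) * Res Y := IsSelfAdjoint.conjugate_le_conjugate h5 hR
    _ = Res Y - Res (Y + W) := h1.symm
    _ ≤ Res Y - Res (Y + Z) := by
        gcongr
        exact Res_anti (add_nonneg hY hW0) (by gcongr)

end Vale.Agent.P078
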