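import Mathlib
import Vale.Agent.P078.Resolvent

/-!
# P078: a minimisation argument producing a vector on which small pinchings are small
-/

set_option linter.unusedSectionVars false

namespace Vale.Agent.P078

open scoped ComplexOrder InnerProductSpace
open ContinuousLinearMap Filter Topology

variable {H : Type*} [NormedAddCommGroup H] [InnerProductSpace ℂ H] [CompleteSpace H]
variable {A : StarSubalgebra ℂ (H →L[ℂ] H)} {M : VonNeumannAlgebra H}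

/-- Positive elements of `M` some pinching of which is at most `κ`. -/
def DK (A : StarSubalgebra ℂ (H →L[ℂ] H)) (M : VonNeumannAlgebra H) (κ : ℝ) :
    Set (H →L[ℂ] H) :=
  {Y | Y ∈ M ∧ 0 ≤ Y ∧ ∃ f : Part A, f.pinch Y ≤ κ • (1 : H →L[ℂ] H)}

/-- The objective function. -/
noncomputable def JF (F : Finset H) (Y : H →L[ℂ] H) : ℝ := ∑ ξ ∈ F, (⟪Res Y ξ, ξ⟫_ℂ).re

/-- The infimum of the objective over `DK κ`. -/
noncomputable def jInf (A : StarSubalgebra ℂ (H →L[ℂ] H)) (M : VonNeumannAlgebra H)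
    (F : Finset H) (κ : ℝ) : ℝ := sInf (JF F '' DK A M κ)

/-- Vectors on which elements with small pinching are small. -/
def Tame (A : StarSubalgebra ℂ (H →L[ℂ] H)) (M : VonNeumannAlgebra H) (η : H) : Prop :=
  ∀ c : ℝ, 0 < c → ∃ κ : ℝ, 0 < κ ∧ ∀ Z ∈ DK A M κ, Z ≤ 1 → (⟪Z η, η⟫_ℂ).re ≤ c

lemma smul_one_mono {a b : ℝ} (h : a ≤ b) : a • (1 : H →L[ℂ] H) ≤ b • (1 : H →L[ℂ] H) := by
  have h1 : b • (1 : H →L[ℂ] H) - a • (1 : H →L[ℂ] H) = (b - a) • (1 : H →L[ℂ] H) := by module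
  have h2 : (0 : H →L[ℂ] H) ≤ (b - a) • (1 : H →L[ℂ] H) :=
    smul_nonneg (sub_nonneg.2 h) zero_le_one
  rw [← h1] at h2
  exact sub_nonneg.1 h2

lemma DK_mono {κ κ' : ℝ} (h : κ ≤ κ') : DK A M κ ⊆ DK A M κ' := by
  rintro Y ⟨h1, h2, f, h3⟩
  exact ⟨h1, h2, f, h3.trans (smul_one_mono h)⟩

lemma Part.pinch_smul_one (g : Part A) (κ : ℝ) :
    g.pinch (κ • (1 : H →L[ℂ] H)) = κ • (1 : H →L[ℂ] H) := by
  rw [g.pinch_smul_real, g.pinch_one]

lemma Part.pinch_le_of_le (hA : IsComm A) {f g : Part A} (h : f ≤ g) {Y : H →L[ℂ] H} {κ : ℝ}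
    (hY : f.pinch Y ≤ κ • (1 : H →L[ℂ] H)) : g.pinch Y ≤ κ • (1 : H →L[ℂ] H) := by
  have := g.pinch_mono hY
  rwa [Part.pinch_pinch hA h, Part.pinch_smul_one] at this

lemma DK_add (hA : IsComm A) {κ κ' : ℝ} {Y Z : H →L[ℂ] H} (hY : Y ∈ DK A M κ)
    (hZ : Z ∈ DK A M κ') : Y + Z ∈ DK A M (κ + κ') := by
  obtain ⟨h1, h2, f, h3⟩ := hY
  obtain ⟨h1', h2', g, h3'⟩ := hZ
  obtain ⟨h, hf, hg⟩ := Part.exists_le_le hA f g
  refine ⟨add_mem h1 h1', add_nonneg h2 h2', h, ?_⟩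
  rw [Part.pinch_add, add_smul]
  exact add_le_add (Part.pinch_le_of_le hA hf h3) (Part.pinch_le_of_le hA hg h3')

lemma zero_mem_DK {κ : ℝ} (hκ : 0 ≤ κ) : (0 : H →L[ℂ] H) ∈ DK A M κ := by
  refine ⟨zero_mem _, le_rfl, Part.one A, ?_⟩
  rw [Part.pinch_zero]
  exact smul_nonneg hκ zero_le_one

lemma JF_nonneg (F : Finset H) {Y : H →L[ℂ] H} (hY : 0 ≤ Y) : 0 ≤ JF F Y :=
  Finset.sum_nonneg fun ξ _ => inner_nonneg_re (Res_nonneg hY) ξ

lemma jInf_bddBelow (F : Finset H) (κ : ℝ) : BddBelow (JF F '' DK A M κ) := by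
  refine ⟨0, ?_⟩
  rintro _ ⟨Y, hY, rfl⟩
  exact JF_nonneg F hY.2.1

lemma jInf_le {F : Finset H} {κ : ℝ} {Y : H →L[ℂ] H} (hY : Y ∈ DK A M κ) :
    jInf A M F κ ≤ JF F Y := csInf_le (jInf_bddBelow F κ) ⟨Y, hY, rfl⟩

lemma jInf_anti (F : Finset H) {κ κ' : ℝ} (hκ : 0 ≤ κ) (h : κ ≤ κ') :
    jInf A M F κ' ≤ jInf A M F κ := by
  apply csInf_le_csInf (jInf_bddBelow F κ')
  · exact ⟨_, 0, zero_mem_DK hκ, rfl⟩
  · exact Set.image_mono (DK_mono h)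

lemma jInf_le_sum (F : Finset H) {κ : ℝ} (hκ : 0 ≤ κ) :
    jInf A M F κ ≤ ∑ ξ ∈ F, ‖ξ‖ ^ 2 := by
  refine (jInf_le (zero_mem_DK hκ)).trans (le_of_eq ?_)
  simp only [JF, Res_zero, one_apply_eq_self, inner_self_re]

/-- If the objective stays bounded below then there is a nonzero tame vector. -/
lemma exists_tame (hA : IsComm A) (F : Finset H) {δ κ0 : ℝ} (hδ : 0 < δ) (hκ0 : 0 < κ0)
    (h : ∀ Y ∈ DK A M κ0, δ ≤ JF F Y) : ∃ η : H, η ≠ 0 ∧ Tame A M η := by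
  classical
  -- the sequence `κ n = 1 / (n + 1)`
  set κ : ℕ → ℝ := fun n => 1 / ((n : ℝ) + 1) with hκ
  have hκpos : ∀ n, 0 < κ n := fun n => by positivity
  have hκanti : ∀ m n, m ≤ n → κ n ≤ κ m := by
    intro m n hmn
    simp only [hκ]
    gcongr
  have hκlim : Tendsto κ atTop (𝓝 0) := tendsto_one_div_add_atTop_nhds_zero_nat
  have hκadd : ∀ N m n, 2 * N + 1 ≤ m → 2 * N + 1 ≤ n → κ m + κ n ≤ κ N := by
    intro N m n hm hn
    have h1 : κ m ≤ κ (2 * N + 1) := hκanti _ _ hm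
    have h2 : κ n ≤ κ (2 * N + 1) := hκanti _ _ hn
    have h3 : κ (2 * N + 1) + κ (2 * N + 1) = κ N := by
      simp only [hκ]; push_cast; field_simp; ring
    linarith
  set a : ℕ → ℝ := fun n => jInf A M F (κ n) with ha
  have hamono : Monotone a := fun m n hmn => jInf_anti F (hκpos n).le (hκanti m n hmn)
  have habdd : BddAbove (Set.range a) := by
    refine ⟨∑ ξ ∈ F, ‖ξ‖ ^ 2, ?_⟩
    rintro _ ⟨n, rfl⟩
    exact jInf_le_sum F (hκpos n).le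
  set J0 : ℝ := ⨆ n, a n with hJ0
  have halim : Tendsto a atTop (𝓝 J0) := tendsto_atTop_ciSup hamono habdd
  have haJ0 : ∀ n, a n ≤ J0 := fun n => le_ciSup habdd n
  have hJ0pos : δ ≤ J0 := by
    obtain ⟨n, hn⟩ := (hκlim.eventually (gt_mem_nhds hκ0)).exists
    refine le_trans ?_ (haJ0 n)
    apply le_csInf
    · exact ⟨_, 0, zero_mem_DK (hκpos n).le, rfl⟩
    · rintro _ ⟨Y, hY, rfl⟩
      exact h Y (DK_mono hn.le hY)
  -- near optimal elements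
  have hex : ∀ n, ∃ Y ∈ DK A M (κ n), JF F Y < a n + κ n := by
    intro n
    have hne : (JF F '' DK A M (κ n)).Nonempty := ⟨_, 0, zero_mem_DK (hκpos n).le, rfl⟩
    obtain ⟨_, ⟨Y, hY, rfl⟩, hlt⟩ := exists_lt_of_csInf_lt hne
      (show sInf (JF F '' DK A M (κ n)) < a n + κ n from lt_add_of_pos_right _ (hκpos n))
    exact ⟨Y, hY, hlt⟩
  choose Y hYD hYJ using hex
  have hY0 : ∀ n, 0 ≤ Y n := fun n => (hYD n).2.1
  -- differences of resolvents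
  have hdiff : ∀ N n m, 2 * N + 1 ≤ n → 2 * N + 1 ≤ m → ∀ ξ ∈ F,
      ‖(Res (Y n) - Res (Y n + Y m)) ξ‖ ^ 2 ≤ J0 + κ n - a N := by
    intro N n m hn hm ξ hξ
    have hnm : 0 ≤ Y n + Y m := add_nonneg (hY0 n) (hY0 m)
    have hle : Res (Y n + Y m) ≤ Res (Y n) := by
      apply Res_anti (hY0 n)
      exact le_add_of_nonneg_right (hY0 m)
    have h0 : 0 ≤ Res (Y n) - Res (Y n + Y m) := sub_nonneg.2 hle
    have h1 : Res (Y n) - Res (Y n + Y m) ≤ 1 := by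
      calc Res (Y n) - Res (Y n + Y m) ≤ Res (Y n) - 0 := by gcongr; exact Res_nonneg hnm
        _ ≤ 1 := by rw [sub_zero]; exact Res_le_one (hY0 n)
    have h2 := sq_norm_le_inner h0 h1 ξ
    have h3 : (⟪(Res (Y n) - Res (Y n + Y m)) ξ, ξ⟫_ℂ).re ≤
        ∑ ζ ∈ F, (⟪(Res (Y n) - Res (Y n + Y m)) ζ, ζ⟫_ℂ).re :=
      Finset.single_le_sum (f := fun ζ => (⟪(Res (Y n) - Res (Y n + Y m)) ζ, ζ⟫_ℂ).re)
        (fun ζ _ => inner_nonneg_re h0 ζ) hξ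
    have h4 : ∑ ζ ∈ F, (⟪(Res (Y n) - Res (Y n + Y m)) ζ, ζ⟫_ℂ).re
        = JF F (Y n) - JF F (Y n + Y m) := by
      simp only [JF, sub_apply, inner_sub_left, Complex.sub_re, Finset.sum_sub_distrib]
    have h5 : a N ≤ JF F (Y n + Y m) := by
      have hD : Y n + Y m ∈ DK A M (κ n + κ m) := DK_add hA (hYD n) (hYD m)
      exact jInf_le (DK_mono (hκadd N n m hn hm) hD)
    have h6 := hYJ n
    have h7 := haJ0 n
    linarith
  have hlimN : Tendsto (fun N => J0 + κ N - a N) atTop (𝓝 0) := by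
    have := (tendsto_const_nhds (x := J0)).add hκlim |>.sub halim
    simpa using this
  -- Cauchy
  have hcauchy : ∀ ξ ∈ F, CauchySeq fun n => Res (Y n) ξ := by
    intro ξ hξ
    rw [Metric.cauchySeq_iff]
    intro ε hε
    have hε2 : 0 < (ε / 2) ^ 2 := by positivity
    obtain ⟨N, hN⟩ := (hlimN.eventually (gt_mem_nhds hε2)).exists
    refine ⟨2 * N + 1, fun n hn m hm => ?_⟩
    have hκn : κ n ≤ κ N := hκanti _ _ (by omega)
    have hκm : κ m ≤ κ N := hκanti _ _ (by omega)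
    have h1 := hdiff N n m hn hm ξ hξ
    have h2 := hdiff N m n hm hn ξ hξ
    have h1' : ‖(Res (Y n) - Res (Y n + Y m)) ξ‖ < ε / 2 := by
      apply lt_of_pow_lt_pow_left₀ 2 (by positivity)
      linarith
    have h2' : ‖(Res (Y m) - Res (Y m + Y n)) ξ‖ < ε / 2 := by
      apply lt_of_pow_lt_pow_left₀ 2 (by positivity)
      linarith
    rw [dist_eq_norm]
    have e : Res (Y n) ξ - Res (Y m) ξ = (Res (Y n) - Res (Y n + Y m)) ξ
        - (Res (Y m) - Res (Y m + Y n)) ξ := by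
      simp only [sub_apply]
      rw [add_comm (Y m) (Y n)]
      abel
    rw [e]
    calc _ ≤ ‖(Res (Y n) - Res (Y n + Y m)) ξ‖ + ‖(Res (Y m) - Res (Y m + Y n)) ξ‖ :=
          norm_sub_le _ _
      _ < ε := by linarith
  have hlim : ∀ ξ : H, ∃ η : H, ξ ∈ F → Tendsto (fun n => Res (Y n) ξ) atTop (𝓝 η) := by
    intro ξ
    by_cases hξ : ξ ∈ F
    · obtain ⟨η, hη⟩ := cauchySeq_tendsto_of_complete (hcauchy ξ hξ)
      exact ⟨η, fun _ => hη⟩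
    · exact ⟨0, fun h => absurd h hξ⟩
  choose η hη using hlim
  -- some `η ξ` is nonzero
  have hsum : J0 ≤ ∑ ξ ∈ F, (⟪η ξ, ξ⟫_ℂ).re := by
    have h1 : Tendsto (fun n => JF F (Y n)) atTop (𝓝 (∑ ξ ∈ F, (⟪η ξ, ξ⟫_ℂ).re)) := by
      apply tendsto_finsetSum
      intro ξ hξ
      exact (Complex.continuous_re.tendsto _).comp ((hη ξ hξ).inner tendsto_const_nhds)
    exact le_of_tendsto_of_tendsto' halim h1 fun n => jInf_le (hYD n)
  obtain ⟨ξ, hξF, hξ0⟩ : ∃ ξ ∈ F, η ξ ≠ 0 := by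
    by_contra hcon
    push Not at hcon
    have : ∑ ξ ∈ F, (⟪η ξ, ξ⟫_ℂ).re = 0 :=
      Finset.sum_eq_zero fun ξ hξ => by rw [hcon ξ hξ]; simp
    linarith
  refine ⟨η ξ, hξ0, ?_⟩
  intro c hc
  have hlimN' : Tendsto (fun N => J0 - a N) atTop (𝓝 0) := by
    have := (tendsto_const_nhds (x := J0)).sub halim
    simpa using this
  obtain ⟨N, hN⟩ := (hlimN'.eventually (gt_mem_nhds (show (0 : ℝ) < c / 4 by positivity))).exists
  refine ⟨κ (2 * N + 1), hκpos _, ?_⟩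
  intro Z hZ hZ1
  have hZ0 : 0 ≤ Z := hZ.2.1
  have hbound : ∀ n, 2 * N + 1 ≤ n →
      (1 / 4 : ℝ) * (⟪Z (Res (Y n) ξ), Res (Y n) ξ⟫_ℂ).re ≤ J0 + κ n - a N := by
    intro n hn
    have h0 := Res_decrease (hY0 n) hZ0 hZ1
    have hsa := Res_sa (hY0 n)
    have h1 : ∀ ζ : H, (1 / 4 : ℝ) * (⟪Z (Res (Y n) ζ), Res (Y n) ζ⟫_ℂ).re ≤
        (⟪Res (Y n) ζ, ζ⟫_ℂ).re - (⟪Res (Y n + Z) ζ, ζ⟫_ℂ).re := by
      intro ζ
      have h2 := re_inner_mono h0 ζ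
      rw [sub_apply, inner_sub_left, Complex.sub_re] at h2
      refine le_trans (le_of_eq ?_) h2
      rw [smul_apply, mul_apply_eq_comp, mul_apply_eq_comp]
      rw [show ((1 / 4 : ℝ) • (Res (Y n)) (Z ((Res (Y n)) ζ)) : H)
        = ((1 / 4 : ℝ) : ℂ) • (Res (Y n)) (Z ((Res (Y n)) ζ)) from (Complex.coe_smul _ _).symm]
      rw [inner_smul_left, inner_sa hsa, Complex.conj_ofReal, Complex.re_ofReal_mul]
    have h3 : (1 / 4 : ℝ) * (⟪Z (Res (Y n) ξ), Res (Y n) ξ⟫_ℂ).re ≤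
        JF F (Y n) - JF F (Y n + Z) := by
      calc (1 / 4 : ℝ) * (⟪Z (Res (Y n) ξ), Res (Y n) ξ⟫_ℂ).re
          ≤ ∑ ζ ∈ F, (1 / 4 : ℝ) * (⟪Z (Res (Y n) ζ), Res (Y n) ζ⟫_ℂ).re :=
            Finset.single_le_sum
              (f := fun ζ => (1 / 4 : ℝ) * (⟪Z (Res (Y n) ζ), Res (Y n) ζ⟫_ℂ).re)
              (fun ζ _ => mul_nonneg (by norm_num) (inner_nonneg_re hZ0 _)) hξF
        _ ≤ ∑ ζ ∈ F, ((⟪Res (Y n) ζ, ζ⟫_ℂ).re - (⟪Res (Y n + Z) ζ, ζ⟫_ℂ).re) :=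
            Finset.sum_le_sum fun ζ _ => h1 ζ
        _ = JF F (Y n) - JF F (Y n + Z) := by
            simp only [JF, Finset.sum_sub_distrib]
    have h5 : a N ≤ JF F (Y n + Z) := by
      have hD : Y n + Z ∈ DK A M (κ n + κ (2 * N + 1)) := DK_add hA (hYD n) hZ
      exact jInf_le (DK_mono (hκadd N n _ hn le_rfl) hD)
    have h6 := hYJ n
    have h7 := haJ0 n
    linarith
  have hl1 : Tendsto (fun n => (1 / 4 : ℝ) * (⟪Z (Res (Y n) ξ), Res (Y n) ξ⟫_ℂ).re) atTop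
      (𝓝 ((1 / 4 : ℝ) * (⟪Z (η ξ), η ξ⟫_ℂ).re)) := by
    apply Tendsto.const_mul
    refine (Complex.continuous_re.tendsto _).comp ?_
    exact (((Z.continuous.tendsto _).comp (hη ξ hξF))).inner (hη ξ hξF)
  have hl2 : Tendsto (fun n => J0 + κ n - a N) atTop (𝓝 (J0 + 0 - a N)) :=
    ((tendsto_const_nhds (x := J0)).add hκlim).sub tendsto_const_nhds
  have hfin := le_of_tendsto_of_tendsto hl1 hl2 (by
    filter_upwards [eventually_ge_atTop (2 * N + 1)] with n hn using hbound n hn)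
  linarith

end Vale.Agent.P078
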