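import Mathlib
import Vale.Agent.P078.Tame

/-!
# P078: a nonzero tame vector yields a normal conditional expectation in a corner
-/

set_option linter.unusedSectionVars false

namespace Vale.Agent.P078

open scoped ComplexOrder InnerProductSpace
open ContinuousLinearMap Filter Topology

variable {H : Type*} [NormedAddCommGroup H] [InnerProductSpace ℂ H] [CompleteSpace H]
variable {A : StarSubalgebra ℂ (H →L[ℂ] H)} {M : VonNeumannAlgebra H}

lemma le_norm_smul_one {T : H →L[ℂ] H} (hT : IsSelfAdjoint T) : T ≤ ‖T‖ • (1 : H →L[ℂ] H) := by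
  have := hT.le_algebraMap_norm_self
  rwa [Algebra.algebraMap_eq_smul_one] at this

/-- For `0 ≤ b`: `‖b ξ‖² ≤ ‖b‖ ⟨b ξ, ξ⟩`. -/
lemma sq_norm_le_norm_mul_inner {b : H →L[ℂ] H} (hb : 0 ≤ b) (ξ : H) :
    ‖b ξ‖ ^ 2 ≤ ‖b‖ * (⟪b ξ, ξ⟫_ℂ).re := by
  rcases eq_or_ne b 0 with rfl | hne
  · simp
  · have hn : 0 < ‖b‖ := norm_pos_iff.2 hne
    set T : H →L[ℂ] H := (‖b‖⁻¹ : ℝ) • b with hT
    have h0 : 0 ≤ T := smul_nonneg (by positivity) hb
    have h1 : T ≤ 1 := by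
      have := smul_le_smul_of_nonneg_left (le_norm_smul_one (IsSelfAdjoint.of_nonneg hb))
        (show (0 : ℝ) ≤ ‖b‖⁻¹ by positivity)
      rwa [smul_smul, inv_mul_cancel₀ hn.ne', one_smul] at this
    have h2 := sq_norm_le_inner h0 h1 ξ
    rw [hT, smul_apply, norm_smul, norm_inv, norm_norm] at h2
    rw [show (‖b‖⁻¹ • b ξ : H) = ((‖b‖⁻¹ : ℝ) : ℂ) • b ξ from (Complex.coe_smul _ _).symm,
      inner_smul_left, Complex.conj_ofReal, Complex.re_ofReal_mul, mul_pow] at h2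
    have h3 := mul_le_mul_of_nonneg_left h2 (show (0 : ℝ) ≤ ‖b‖ ^ 2 by positivity)
    have e1 : ‖b‖ ^ 2 * (‖b‖⁻¹ ^ 2 * ‖b ξ‖ ^ 2) = ‖b ξ‖ ^ 2 := by field_simp
    have e2 : ‖b‖ ^ 2 * (‖b‖⁻¹ * (⟪b ξ, ξ⟫_ℂ).re) = ‖b‖ * (⟪b ξ, ξ⟫_ℂ).re := by
      field_simp
    rwa [e1, e2] at h3

lemma sa_of_le {S T : H →L[ℂ] H} (h : S ≤ T) (hS : IsSelfAdjoint S) : IsSelfAdjoint T := by
  have h1 : IsSelfAdjoint (T - S) := IsSelfAdjoint.of_nonneg (sub_nonneg.2 h)
  have := h1.add hS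
  rwa [sub_add_cancel] at this

lemma le_of_re_inner {S T : H →L[ℂ] H} (hS : IsSelfAdjoint S) (hT : IsSelfAdjoint T)
    (h : ∀ ξ : H, (⟪S ξ, ξ⟫_ℂ).re ≤ (⟪T ξ, ξ⟫_ℂ).re) : S ≤ T := by
  rw [← sub_nonneg]
  apply nonneg_of_inner (hT.sub hS)
  intro ξ
  rw [sub_apply, inner_sub_left, Complex.sub_re]
  linarith [h ξ]

lemma norm_le_of_nonneg_of_le {S T : H →L[ℂ] H} (h0 : 0 ≤ S) (h : S ≤ T) : ‖S‖ ≤ ‖T‖ :=
  CStarAlgebra.norm_le_norm_of_nonneg_of_le h0 h

/-- Suprema of directed sets are weak limits. -/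
lemma lub_approx {D : Set (H →L[ℂ] H)} {b : H →L[ℂ] H} (hsa : ∀ x ∈ D, IsSelfAdjoint x)
    (hdir : DirectedOn (· ≤ ·) D) (hlub : IsLUB D b) {y : H →L[ℂ] H} (hy : y ∈ D)
    (F : Finset H) {ε : ℝ} (hε : 0 < ε) :
    ∃ x ∈ D, y ≤ x ∧ ∀ ζ ∈ F, (⟪(b - x) ζ, ζ⟫_ℂ).re < ε := by
  classical
  -- one vector
  have one : ∀ (y : H →L[ℂ] H), y ∈ D → ∀ ζ : H, ∃ x ∈ D, y ≤ x ∧
      (⟪(b - x) ζ, ζ⟫_ℂ).re < ε := by
    intro y hy ζ
    let I := {x : H →L[ℂ] H // x ∈ D ∧ y ≤ x}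
    have : Nonempty I := ⟨⟨y, hy, le_rfl⟩⟩
    have hI : IsDirectedOrder I := by
      refine ⟨fun x z => ?_⟩
      obtain ⟨w, hw, h1, h2⟩ := hdir x.1 x.2.1 z.1 z.2.1
      exact ⟨⟨w, hw, x.2.2.trans h1⟩, h1, h2⟩
    have hne : (atTop : Filter I).NeBot := atTop_neBot
    set V := Ultrafilter.of (atTop : Filter I) with hV
    have hVle : (V : Filter I) ≤ atTop := Ultrafilter.of_le _
    have hbd : ∀ x : I, ‖(x : H →L[ℂ] H)‖ ≤ ‖b - y‖ + ‖y‖ := by
      intro x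
      have h1 : 0 ≤ (x : H →L[ℂ] H) - y := sub_nonneg.2 x.2.2
      have h2 : (x : H →L[ℂ] H) - y ≤ b - y := by
        gcongr; exact hlub.1 x.2.1
      calc ‖(x : H →L[ℂ] H)‖ = ‖((x : H →L[ℂ] H) - y) + y‖ := by rw [sub_add_cancel]
        _ ≤ ‖(x : H →L[ℂ] H) - y‖ + ‖y‖ := norm_add_le _ _
        _ ≤ ‖b - y‖ + ‖y‖ := by gcongr; exact norm_le_of_nonneg_of_le h1 h2
    obtain ⟨S, hS, -⟩ := exists_wot_limit V (fun x : I => (x : H →L[ℂ] H)) (by positivity) hbd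
    have hSre : ∀ ξ : H, Tendsto (fun x : I => (⟪(x : H →L[ℂ] H) ξ, ξ⟫_ℂ).re) V
        (𝓝 (⟪S ξ, ξ⟫_ℂ).re) := fun ξ => (Complex.continuous_re.tendsto _).comp (hS ξ ξ)
    have hSsa : IsSelfAdjoint S := by
      rw [isSelfAdjoint_iff]
      apply ext_inner2
      intro ξ η
      rw [star_eq_adjoint, adjoint_inner_left, ← inner_conj_symm ξ]
      have h1 := ((Complex.continuous_conj.tendsto _).comp (hS η ξ))
      refine tendsto_nhds_unique h1 ?_
      refine (hS ξ η).congr fun x => ?_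
      simp only [Function.comp]
      rw [inner_conj_symm, ← inner_sa (hsa _ x.2.1)]
    have hSub : S ∈ upperBounds D := by
      intro z hz
      apply le_of_re_inner (hsa z hz) hSsa
      intro ξ
      apply ge_of_tendsto (hSre ξ)
      obtain ⟨w, hw, h1, h2⟩ := hdir z hz y hy
      have : ∀ᶠ x : I in V, (⟨w, hw, h2⟩ : I) ≤ x := hVle (mem_atTop _)
      filter_upwards [this] with x hx
      exact re_inner_mono (h1.trans hx) ξ
    have hbS : b ≤ S := hlub.2 hSub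
    have h1 := re_inner_mono hbS ζ
    have h2 : ∀ᶠ x : I in V, (⟪b ζ, ζ⟫_ℂ).re - ε < (⟪(x : H →L[ℂ] H) ζ, ζ⟫_ℂ).re :=
      (hSre ζ).eventually (lt_mem_nhds (by linarith))
    obtain ⟨x, hx⟩ := h2.exists
    refine ⟨x.1, x.2.1, x.2.2, ?_⟩
    rw [sub_apply, inner_sub_left, Complex.sub_re]
    linarith
  induction F using Finset.induction_on with
  | empty => exact ⟨y, hy, le_rfl, by simp⟩
  | insert a s _ ih =>
    obtain ⟨x, hx, hyx, hxs⟩ := ih
    obtain ⟨z, hz, hxz, hza⟩ := one x hx a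
    refine ⟨z, hz, hyx.trans hxz, ?_⟩
    intro ζ hζ
    rcases Finset.mem_insert.1 hζ with rfl | hζ
    · exact hza
    · refine lt_of_le_of_lt (re_inner_mono ?_ ζ) (hxs ζ hζ)
      gcongr

lemma Part.inner_pinch (g : Part A) (T : H →L[ℂ] H) (ξ : H) :
    (⟪g.pinch T ξ, ξ⟫_ℂ).re = ∑ s, (⟪T (g.f s ξ), g.f s ξ⟫_ℂ).re := by
  rw [g.pinch_def, _root_.sum_apply, sum_inner, Complex.re_sum]
  refine Finset.sum_congr rfl fun s _ => ?_
  rw [mul_apply_eq_comp, mul_apply_eq_comp, inner_sa (g.f_sa s)]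

/-- The support projection in `A` of a vector. -/
lemma IsMASA.exists_support (hA : IsMASA A M) {η : H} (hη : η ≠ 0) :
    ∃ p ∈ A, IsStarProjection p ∧ p ≠ 0 ∧ p η = η ∧
      (∀ ζ : H, ∀ ε : ℝ, 0 < ε → ∃ w : H →L[ℂ] H, (∀ a ∈ A, Commute w a) ∧
        ‖p ζ - w η‖ < ε) := by
  let K0 : Submodule ℂ H :=
    { carrier := {v | ∃ w : H →L[ℂ] H, (∀ a ∈ A, Commute w a) ∧ v = w η}
      add_mem' := by
        rintro _ _ ⟨w, hw, rfl⟩ ⟨w', hw', rfl⟩
        exact ⟨w + w', fun a ha => (hw a ha).add_left (hw' a ha), rfl⟩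
      zero_mem' := ⟨0, fun a _ => Commute.zero_left a, by simp⟩
      smul_mem' := by
        rintro c _ ⟨w, hw, rfl⟩
        exact ⟨c • w, fun a ha => (hw a ha).smul_left c, rfl⟩ }
  set K := K0.topologicalClosure with hK
  have hKc : IsClosed (K : Set H) := K0.isClosed_topologicalClosure
  have : CompleteSpace K := hKc.completeSpace_coe
  set p := K.starProjection with hp
  have hηK0 : η ∈ K0 := ⟨1, fun a _ => Commute.one_left a, by simp⟩
  have hηK : η ∈ K := K0.le_topologicalClosure hηK0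
  have hpη : p η = η := Submodule.starProjection_eq_self_iff.2 hηK
  have hinv : ∀ w : H →L[ℂ] H, (∀ a ∈ A, Commute w a) → ∀ x ∈ K, w x ∈ K := by
    intro w hw x hx
    have h1 : (K0 : Set H) ⊆ w ⁻¹' (K : Set H) := by
      rintro _ ⟨w', hw', rfl⟩
      apply K0.le_topologicalClosure
      exact ⟨w * w', fun a ha => (hw a ha).mul_left (hw' a ha), rfl⟩
    have h2 : closure (K0 : Set H) ⊆ w ⁻¹' (K : Set H) :=
      closure_minimal h1 (hKc.preimage w.continuous)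
    exact h2 (by rw [hK] at hx; exact hx)
  have hstar : ∀ w : H →L[ℂ] H, (∀ a ∈ A, Commute w a) → ∀ a ∈ A, Commute (star w) a := by
    intro w hw a ha
    have := (hw (star a) (star_mem ha)).star_star
    rwa [_root_.star_star] at this
  have hpA : p ∈ A := by
    apply hA.mem_of_bicommute
    intro w hw
    exact commute_starProjection K w (hinv w hw) (hinv _ (hstar w hw))
  refine ⟨p, hpA, isStarProjection_starProjection, ?_, hpη, ?_⟩
  · intro h0
    rw [h0] at hpη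
    exact hη (by simpa using hpη.symm)
  · intro ζ ε hε
    have h1 : p ζ ∈ K := Submodule.starProjection_apply_mem _ _
    have h2 : p ζ ∈ closure (K0 : Set H) := by rw [hK] at h1; exact h1
    rw [Metric.mem_closure_iff] at h2
    obtain ⟨v, ⟨w, hw, rfl⟩, hv⟩ := h2 ε hε
    exact ⟨w, hw, by rwa [dist_eq_norm] at hv⟩

/-- The functional `x ↦ ⟨Φ(x) η, η⟩` is normal when `η` is tame. -/
lemma normal_of_tame (hA : IsMASA A M) {U : Ultrafilter (Part A)} {η : H} (hη : Tame A M η)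
    {D : Set (H →L[ℂ] H)} {b : H →L[ℂ] H} (hDM : ∀ x ∈ D, x ∈ M) (hbM : b ∈ M)
    (hsa : ∀ x ∈ D, IsSelfAdjoint x)
    (hdir : DirectedOn (· ≤ ·) D) (hlub : IsLUB D b) {y : H →L[ℂ] H} (hy : y ∈ D)
    {c : ℝ} (hc : 0 < c) :
    ∃ x ∈ D, y ≤ x ∧ (⟪Phi U (b - x) η, η⟫_ℂ).re < c := by
  classical
  by_contra hcon
  push Not at hcon
  -- one step
  have hstep : ∀ x : {x : H →L[ℂ] H // x ∈ D ∧ y ≤ x}, ∃ (f : Part A)
      (x' : {x : H →L[ℂ] H // x ∈ D ∧ y ≤ x}), x.1 ≤ x'.1 ∧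
      c / 4 ≤ (⟪f.pinch (x'.1 - x.1) η, η⟫_ℂ).re := by
    rintro ⟨x, hx, hyx⟩
    have h1 := hcon x hx hyx
    have h2 : ∀ᶠ g : Part A in U, c / 2 < (⟪g.pinch (b - x) η, η⟫_ℂ).re :=
      (Phi_tendsto_re U (b - x) η η).eventually (lt_mem_nhds (by linarith))
    obtain ⟨f, hf⟩ := h2.exists
    have hcard : (0 : ℝ) < Fintype.card f.ι + 1 := by positivity
    obtain ⟨x', hx', hxx', hζ⟩ := lub_approx hsa hdir hlub hx
      (Finset.univ.image fun s => f.f s η) (show 0 < c / 4 / (Fintype.card f.ι + 1) by positivity)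
    refine ⟨f, ⟨x', hx', hyx.trans hxx'⟩, hxx', ?_⟩
    have h3 : (⟪f.pinch (b - x') η, η⟫_ℂ).re ≤ c / 4 := by
      rw [Part.inner_pinch]
      calc ∑ s, (⟪(b - x') (f.f s η), f.f s η⟫_ℂ).re
          ≤ ∑ _s : f.ι, c / 4 / (Fintype.card f.ι + 1) := by
            apply Finset.sum_le_sum
            intro s _
            exact (hζ _ (Finset.mem_image_of_mem _ (Finset.mem_univ s))).le
        _ = Fintype.card f.ι * (c / 4 / (Fintype.card f.ι + 1)) := by
            rw [Finset.sum_const, Finset.card_univ, nsmul_eq_mul]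
        _ ≤ (Fintype.card f.ι + 1) * (c / 4 / (Fintype.card f.ι + 1)) := by gcongr; linarith
        _ = c / 4 := by field_simp
    have e : x' - x = (b - x) - (b - x') := by abel
    simp only
    rw [e, Part.pinch_sub, sub_apply, inner_sub_left, Complex.sub_re]
    linarith
  choose f nxt hle hbig using hstep
  let x : ℕ → {x : H →L[ℂ] H // x ∈ D ∧ y ≤ x} := fun n => nxt^[n] ⟨y, hy, le_rfl⟩
  have hxs : ∀ n, x (n + 1) = nxt (x n) := fun n => Function.iterate_succ_apply' _ _ _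
  have hx0 : (x 0).1 = y := rfl
  have hmono : ∀ n, (x n).1 ≤ (x (n + 1)).1 := by
    intro n; rw [hxs]; exact hle _
  set B : ℝ := ‖b - y‖ + 1 with hB
  have hBpos : 0 < B := by positivity
  have hyb : IsSelfAdjoint (b - y) :=
    IsSelfAdjoint.of_nonneg (sub_nonneg.2 (hlub.1 hy))
  have hbyB : b - y ≤ B • (1 : H →L[ℂ] H) :=
    (le_norm_smul_one hyb).trans (smul_one_mono (by rw [hB]; linarith))
  have hdle : ∀ n, (x (n + 1)).1 - (x n).1 ≤ B • (1 : H →L[ℂ] H) := by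
    intro n
    refine le_trans ?_ hbyB
    exact sub_le_sub (hlub.1 (x (n + 1)).2.1) (x n).2.2
  -- use tameness
  obtain ⟨κ, hκ, hκZ⟩ := hη (c / (8 * B)) (by positivity)
  obtain ⟨N, hN⟩ := exists_nat_gt (1 / κ)
  have hNpos : (0 : ℝ) < N := lt_trans (by positivity) hN
  have hN' : 1 / (N : ℝ) ≤ κ := by
    rw [div_le_iff₀ hNpos]
    rw [div_lt_iff₀ hκ] at hN
    linarith
  set Z : H →L[ℂ] H := (1 / (N * B) : ℝ) •
    ∑ k ∈ Finset.range N, (f (x k)).pinch ((x (k + 1)).1 - (x k).1) with hZ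
  have hterm0 : ∀ k, 0 ≤ (f (x k)).pinch ((x (k + 1)).1 - (x k).1) := fun k =>
    (f (x k)).pinch_nonneg (sub_nonneg.2 (hmono k))
  have hZ0 : 0 ≤ Z := smul_nonneg (by positivity) (Finset.sum_nonneg fun k _ => hterm0 k)
  have hZM : Z ∈ M := by
    apply M.toStarSubalgebra.smul_mem
    apply sum_mem
    intro k _
    exact Part.pinch_mem M hA.subset _ (sub_mem (hDM _ (x (k + 1)).2.1) (hDM _ (x k).2.1))
  have hZ1 : Z ≤ 1 := by
    have h1 : ∑ k ∈ Finset.range N, (f (x k)).pinch ((x (k + 1)).1 - (x k).1) ≤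
        ∑ _k ∈ Finset.range N, B • (1 : H →L[ℂ] H) := by
      apply Finset.sum_le_sum
      intro k _
      have := (f (x k)).pinch_mono (hdle k)
      rwa [Part.pinch_smul_one] at this
    have h2 := smul_le_smul_of_nonneg_left h1 (show (0 : ℝ) ≤ 1 / (N * B) by positivity)
    refine h2.trans (le_of_eq ?_)
    rw [Finset.sum_const, Finset.card_range, ← Nat.cast_smul_eq_nsmul ℝ, smul_smul, smul_smul]
    rw [show 1 / ((N : ℝ) * B) * N * B = 1 by field_simp, one_smul]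
  have hZD : Z ∈ DK A M κ := by
    refine ⟨hZM, hZ0, ?_⟩
    obtain ⟨g, hg⟩ := Part.exists_le_finset hA.isComm (Finset.range N) (fun k => f (x k))
    refine ⟨g, ?_⟩
    have h1 : g.pinch Z = (1 / (N * B) : ℝ) • g.pinch ((x N).1 - (x 0).1) := by
      rw [hZ, Part.pinch_smul_real, Part.pinch_sum]
      congr 1
      rw [← Finset.sum_range_sub (fun k => (x k).1) N, Part.pinch_sum]
      refine Finset.sum_congr rfl fun k hk => ?_
      rw [Part.pinch_pinch hA.isComm (hg k hk)]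
    have h2 : g.pinch ((x N).1 - (x 0).1) ≤ B • (1 : H →L[ℂ] H) := by
      have h3 : (x N).1 - (x 0).1 ≤ B • (1 : H →L[ℂ] H) := by
        refine le_trans ?_ hbyB
        rw [hx0]
        gcongr
        exact hlub.1 (x N).2.1
      have := g.pinch_mono h3
      rwa [Part.pinch_smul_one] at this
    rw [h1]
    calc (1 / (N * B) : ℝ) • g.pinch ((x N).1 - (x 0).1)
        ≤ (1 / (N * B) : ℝ) • (B • (1 : H →L[ℂ] H)) :=
          smul_le_smul_of_nonneg_left h2 (by positivity)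
      _ = (1 / (N : ℝ)) • (1 : H →L[ℂ] H) := by
          rw [smul_smul]; congr 1; field_simp
      _ ≤ κ • (1 : H →L[ℂ] H) := smul_one_mono hN'
  have h1 := hκZ Z hZD hZ1
  have h2 : c / (4 * B) ≤ (⟪Z η, η⟫_ℂ).re := by
    rw [hZ, smul_apply, show ((1 / (N * B) : ℝ) • (∑ k ∈ Finset.range N,
      (f (x k)).pinch ((x (k + 1)).1 - (x k).1)) η : H) = (((1 / (N * B) : ℝ)) : ℂ) •
      (∑ k ∈ Finset.range N, (f (x k)).pinch ((x (k + 1)).1 - (x k).1)) η
      from (Complex.coe_smul _ _).symm, inner_smul_left, Complex.conj_ofReal,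
      Complex.re_ofReal_mul, _root_.sum_apply, sum_inner, Complex.re_sum]
    have h3 : (N : ℝ) * (c / 4) ≤ ∑ k ∈ Finset.range N,
        (⟪((f (x k)).pinch ((x (k + 1)).1 - (x k).1)) η, η⟫_ℂ).re := by
      calc (N : ℝ) * (c / 4) = ∑ _k ∈ Finset.range N, c / 4 := by
            rw [Finset.sum_const, Finset.card_range, nsmul_eq_mul]
        _ ≤ _ := by
            apply Finset.sum_le_sum
            intro k _
            rw [hxs]
            exact hbig (x k)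
    calc c / (4 * B) = 1 / (N * B) * (N * (c / 4)) := by field_simp
      _ ≤ _ := by gcongr
  have h3 : c / (8 * B) < c / (4 * B) := by
    apply div_lt_div_of_pos_left hc (by positivity)
    linarith
  linarith

/-- A nonzero tame vector gives a normal conditional expectation on a corner. -/
lemma exists_condExp_of_tame (hA : IsMASA A M) {η : H} (hη0 : η ≠ 0) (hη : Tame A M η) :
    ∃ p ∈ A, IsStarProjection p ∧ p ≠ 0 ∧
      ∃ E : (H →L[ℂ] H) →ₗ[ℂ] (H →L[ℂ] H), IsNormalCondExp A M p E := by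
  obtain ⟨U, hU⟩ := exists_cofinal hA.isComm
  obtain ⟨p, hpA, hp, hp0, hpη, happ⟩ := hA.exists_support hη0
  refine ⟨p, hpA, hp, hp0, Phi U, ?_, ?_, ?_, ?_, ?_⟩
  · rintro x ⟨hxM, hx⟩
    refine ⟨hA.Phi_mem hU hxM, ?_⟩
    rw [← Phi_mul_left hA.isComm U hpA, ← Phi_mul_right hA.isComm U hpA, hx]
  · rintro a ⟨ha, -⟩
    exact Phi_of_mem hA.isComm U ha
  · rintro a ⟨ha, -⟩ b ⟨hb, -⟩ x -
    rw [Phi_mul_right hA.isComm U hb, Phi_mul_left hA.isComm U ha]
  · intro x _ hx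
    exact Phi_nonneg U hx
  · intro D b hD hsa hne hdir hb hlub
    have hDM : ∀ x ∈ D, x ∈ M := fun x hx => (hD hx).1
    constructor
    · rintro _ ⟨x, hx, rfl⟩
      exact Phi_mono U (hlub.1 hx)
    · intro u hu
      obtain ⟨y, hy⟩ := hne
      have hysa := hsa y hy
      have hbsa : IsSelfAdjoint b := sa_of_le (hlub.1 hy) hysa
      have husa : IsSelfAdjoint u := sa_of_le (hu ⟨y, hy, rfl⟩) (Phi_sa U hysa)
      apply le_of_re_inner (Phi_sa U hbsa) husa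
      intro ζ
      apply le_of_forall_pos_le_add
      intro ε hε
      -- find `x ∈ D` with `Phi (b - x) ζ` small
      set B : ℝ := ‖b - y‖ + 1 with hB
      have hBpos : 0 < B := by positivity
      obtain ⟨w, hw, hwζ⟩ := happ ζ (ε / (2 * B * (‖ζ‖ + 1))) (by positivity)
      -- choose `x`
      set c : ℝ := (ε / (2 * (‖w‖ + 1) * (‖ζ‖ + 1))) ^ 2 / B with hc
      have hcpos : 0 < c := by positivity
      obtain ⟨x, hx, hyx, hxc⟩ := normal_of_tame hA (U := U) hη hDM hb.1 hsa hdir hlub hy hcpos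
      have hxb : x ≤ b := hlub.1 hx
      set T := Phi U (b - x) with hT
      have hT0 : 0 ≤ T := Phi_nonneg U (sub_nonneg.2 hxb)
      have hTn : ‖T‖ ≤ B := by
        calc ‖T‖ ≤ ‖b - x‖ := norm_Phi_le U _
          _ ≤ ‖b - y‖ := norm_le_of_nonneg_of_le (sub_nonneg.2 hxb) (by gcongr)
          _ ≤ B := by rw [hB]; linarith
      have hTA : T ∈ A := hA.Phi_mem hU (sub_mem hb.1 (hDM x hx))
      have hTη : ‖T η‖ ≤ ε / (2 * (‖w‖ + 1) * (‖ζ‖ + 1)) := by
        have h1 := sq_norm_le_norm_mul_inner hT0 η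
        have h2 : ‖T η‖ ^ 2 ≤ (ε / (2 * (‖w‖ + 1) * (‖ζ‖ + 1))) ^ 2 := by
          calc ‖T η‖ ^ 2 ≤ ‖T‖ * (⟪T η, η⟫_ℂ).re := h1
            _ ≤ B * (⟪T η, η⟫_ℂ).re := by
                gcongr; exact inner_nonneg_re hT0 η
            _ ≤ B * c := by gcongr
            _ = _ := by rw [hc]; field_simp
        exact le_of_sq_le_sq h2 (by positivity)
      have hTp : T = T * p := by
        have h1 : (b - x) * p = b - x := by
          have hbp : b * p = b := by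
            conv_lhs => rw [← hb.2]
            rw [mul_assoc, hp.isIdempotentElem.eq, hb.2]
          have hxp : x * p = x := by
            conv_lhs => rw [← (hD hx).2]
            rw [mul_assoc, hp.isIdempotentElem.eq, (hD hx).2]
          rw [sub_mul, hbp, hxp]
        rw [hT, ← Phi_mul_right hA.isComm U hpA, h1]
      have hTζ : ‖T ζ‖ ≤ ε / (‖ζ‖ + 1) := by
        have e : T ζ = T (p ζ - w η) + w (T η) := by
          have h1 : T ζ = T (p ζ) := by
            conv_lhs => rw [hTp]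
            rfl
          have h2 : T (w η) = w (T η) := by
            have := congrArg (fun S : H →L[ℂ] H => S η) (hw T hTA).eq
            simpa only [mul_apply_eq_comp] using this.symm
          rw [map_sub, h2, h1]
          abel
        rw [e]
        calc ‖T (p ζ - w η) + w (T η)‖ ≤ ‖T (p ζ - w η)‖ + ‖w (T η)‖ := norm_add_le _ _
          _ ≤ ‖T‖ * ‖p ζ - w η‖ + ‖w‖ * ‖T η‖ := add_le_add (le_opNorm _ _) (le_opNorm _ _)
          _ ≤ B * (ε / (2 * B * (‖ζ‖ + 1))) +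
              (‖w‖ + 1) * (ε / (2 * (‖w‖ + 1) * (‖ζ‖ + 1))) := by
              gcongr
              linarith
          _ = ε / (‖ζ‖ + 1) := by field_simp; ring
      have h1 : (⟪Phi U b ζ, ζ⟫_ℂ).re = (⟪Phi U x ζ, ζ⟫_ℂ).re + (⟪T ζ, ζ⟫_ℂ).re := by
        rw [hT, map_sub, sub_apply, inner_sub_left, Complex.sub_re]
        ring
      have h2 : (⟪T ζ, ζ⟫_ℂ).re ≤ ε := by
        calc (⟪T ζ, ζ⟫_ℂ).re ≤ ‖⟪T ζ, ζ⟫_ℂ‖ := Complex.re_le_norm _
          _ ≤ ‖T ζ‖ * ‖ζ‖ := norm_inner_le_norm _ _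
          _ ≤ ε / (‖ζ‖ + 1) * (‖ζ‖ + 1) := by
              gcongr
              linarith
          _ = ε := by field_simp
      have h3 : (⟪Phi U x ζ, ζ⟫_ℂ).re ≤ (⟪u ζ, ζ⟫_ℂ).re :=
        re_inner_mono (hu ⟨x, hx, rfl⟩) ζ
      linarith

end Vale.Agent.P078
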