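import Mathlib

/-!
# P078: second moment of random colourings
-/

set_option linter.unusedSectionVars false

namespace Vale.Agent.P078

open scoped InnerProductSpace

variable {H : Type*} [NormedAddCommGroup H] [InnerProductSpace ℂ H]
variable {Λ : Type*} [Fintype Λ] [DecidableEq Λ]

/-- Centred indicator that `τ` and `τ'` get the same colour. -/
noncomputable def theta (r : ℕ) (c : Λ → Fin r) (a : Λ × Λ) : ℝ :=
  if a.1 = a.2 then 0 else (if c a.1 = c a.2 then 1 else 0) - 1 / r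

lemma theta_swap (r : ℕ) (c : Λ → Fin r) (a : Λ × Λ) : theta r c a.swap = theta r c a := by
  unfold theta
  simp only [Prod.fst_swap, Prod.snd_swap, eq_comm (a := a.2), eq_comm (a := c a.2)]

lemma abs_theta_le {r : ℕ} (c : Λ → Fin r) (a : Λ × Λ) : |theta r c a| ≤ 1 := by
  unfold theta
  have hr : (0 : ℝ) ≤ 1 / r := by positivity
  have hr1 : (1 : ℝ) / r ≤ 1 := by
    rcases Nat.eq_zero_or_pos r with h | h
    · rw [h]; simp
    · rw [div_le_one (by exact_mod_cast h)]; exact_mod_cast h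
  split_ifs
  · simp
  · rw [abs_le]; constructor <;> linarith
  · rw [abs_le]; constructor <;> linarith

lemma sum_theta_mul_eq_zero_aux {r : ℕ} (hr : 0 < r) {a b : Λ × Λ} (ha : a.1 ≠ a.2)
    (h1 : a.1 ≠ b.1) (h2 : a.1 ≠ b.2) :
    ∑ c : Λ → Fin r, theta r c a * theta r c b = 0 := by
  rw [← Equiv.sum_comp (Equiv.funSplitAt a.1 (Fin r)).symm, Fintype.sum_prod_type_right]
  apply Finset.sum_eq_zero
  intro c' _
  have hb : ∀ i : Fin r, theta r ((Equiv.funSplitAt a.1 (Fin r)).symm (i, c')) b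
      = theta r ((Equiv.funSplitAt a.1 (Fin r)).symm (⟨0, hr⟩, c')) b := by
    intro i
    unfold theta
    simp only [Equiv.funSplitAt_symm_apply, dif_neg h1.symm, dif_neg h2.symm]
  have ha' : ∀ i : Fin r, theta r ((Equiv.funSplitAt a.1 (Fin r)).symm (i, c')) a
      = (if i = c' ⟨a.2, ha.symm⟩ then 1 else 0) - 1 / (r : ℝ) := by
    intro i
    unfold theta
    simp [Equiv.funSplitAt_symm_apply, ha, ha.symm]
  simp only [hb, ha', ← Finset.sum_mul]
  rw [Finset.sum_sub_distrib]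
  have hr' : (r : ℝ) ≠ 0 := by exact_mod_cast hr.ne'
  simp [hr']

lemma sum_theta_mul_eq_zero {r : ℕ} (hr : 0 < r) {a b : Λ × Λ} (h1 : b ≠ a) (h2 : b ≠ a.swap) :
    ∑ c : Λ → Fin r, theta r c a * theta r c b = 0 := by
  by_cases ha : a.1 = a.2
  · apply Finset.sum_eq_zero
    intro c _
    simp [theta, ha]
  by_cases hb : b.1 = b.2
  · apply Finset.sum_eq_zero
    intro c _
    have : theta r c b = 0 := by simp [theta, hb]
    rw [this, mul_zero]
  by_cases h3 : a.1 = b.1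
  · -- then `a.2 ∉ {b.1, b.2}`
    have h4 : a.2 ≠ b.1 := by rw [← h3]; exact fun h => ha h.symm
    have h5 : a.2 ≠ b.2 := by
      intro h
      exact h1 (Prod.ext h3.symm h.symm)
    have := sum_theta_mul_eq_zero_aux hr (a := a.swap) (b := b)
      (by simpa using fun h : a.2 = a.1 => ha h.symm) (by simpa using h4) (by simpa using h5)
    simpa only [theta_swap] using this
  by_cases h4 : a.1 = b.2
  · have h5 : a.2 ≠ b.1 := by
      intro h
      exact h2 (Prod.ext h.symm h4.symm)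
    have h6 : a.2 ≠ b.2 := by rw [← h4]; exact fun h => ha h.symm
    have := sum_theta_mul_eq_zero_aux hr (a := a.swap) (b := b)
      (by simpa using fun h : a.2 = a.1 => ha h.symm) (by simpa using h5) (by simpa using h6)
    simpa only [theta_swap] using this
  · exact sum_theta_mul_eq_zero_aux hr ha h3 h4

/-- Second moment bound for random colourings. -/
theorem moment_bound {r : ℕ} (hr : 0 < r) (v : Λ × Λ → H) :
    ∑ c : Λ → Fin r, ‖∑ a, (theta r c a : ℂ) • v a‖ ^ 2 ≤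
      (Fintype.card (Λ → Fin r) : ℝ) * (2 * ∑ a, ‖v a‖ ^ 2) := by
  have hsq : ∀ x : H, (⟪x, x⟫_ℂ).re = ‖x‖ ^ 2 := by
    intro x
    rw [inner_self_eq_norm_sq_to_K]
    norm_cast
  have hexp : ∀ c : Λ → Fin r, ‖∑ a, (theta r c a : ℂ) • v a‖ ^ 2
      = ∑ a, ∑ b, (theta r c a * theta r c b) * (⟪v a, v b⟫_ℂ).re := by
    intro c
    rw [← hsq, sum_inner, Complex.re_sum]
    refine Finset.sum_congr rfl fun a _ => ?_
    rw [inner_sum, Complex.re_sum]
    refine Finset.sum_congr rfl fun b _ => ?_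
    rw [inner_smul_left, inner_smul_right, Complex.conj_ofReal, Complex.re_ofReal_mul,
      Complex.re_ofReal_mul]
    ring
  simp only [hexp]
  rw [Finset.sum_comm]
  have hcomm : ∀ a : Λ × Λ, ∑ c : Λ → Fin r, ∑ b, (theta r c a * theta r c b) *
      (⟪v a, v b⟫_ℂ).re = ∑ b, (∑ c : Λ → Fin r, theta r c a * theta r c b) *
      (⟪v a, v b⟫_ℂ).re := by
    intro a
    rw [Finset.sum_comm]
    refine Finset.sum_congr rfl fun b _ => ?_
    rw [Finset.sum_mul]
  simp only [hcomm]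
  set C : ℝ := (Fintype.card (Λ → Fin r) : ℝ) with hC
  have hG : ∀ a b : Λ × Λ, |∑ c : Λ → Fin r, theta r c a * theta r c b| ≤ C := by
    intro a b
    calc |∑ c : Λ → Fin r, theta r c a * theta r c b|
        ≤ ∑ c : Λ → Fin r, |theta r c a * theta r c b| := Finset.abs_sum_le_sum_abs _ _
      _ ≤ ∑ _c : Λ → Fin r, (1 : ℝ) := by
          apply Finset.sum_le_sum
          intro c _
          rw [abs_mul]
          have h1 := abs_theta_le c a
          have h2 := abs_theta_le c b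
          calc |theta r c a| * |theta r c b| ≤ 1 * 1 := by gcongr
            _ = 1 := one_mul 1
      _ = C := by simp [hC]
  have hC0 : 0 ≤ C := by positivity
  have hterm : ∀ a b : Λ × Λ, (∑ c : Λ → Fin r, theta r c a * theta r c b) *
      (⟪v a, v b⟫_ℂ).re ≤ C * (((if b = a then 1 else 0) + (if b = a.swap then 1 else 0)) *
        ((‖v a‖ ^ 2 + ‖v b‖ ^ 2) / 2)) := by
    intro a b
    by_cases h : b = a ∨ b = a.swap
    · have h1 : (1 : ℝ) ≤ (if b = a then 1 else 0) + (if b = a.swap then 1 else 0) := by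
        rcases h with h | h
        · rw [if_pos h]; split_ifs <;> norm_num
        · rw [if_pos h]; split_ifs <;> norm_num
      have h2 : |(⟪v a, v b⟫_ℂ).re| ≤ (‖v a‖ ^ 2 + ‖v b‖ ^ 2) / 2 := by
        calc |(⟪v a, v b⟫_ℂ).re| ≤ ‖⟪v a, v b⟫_ℂ‖ := Complex.abs_re_le_norm _
          _ ≤ ‖v a‖ * ‖v b‖ := norm_inner_le_norm _ _
          _ ≤ (‖v a‖ ^ 2 + ‖v b‖ ^ 2) / 2 := by nlinarith [sq_nonneg (‖v a‖ - ‖v b‖)]
      calc (∑ c : Λ → Fin r, theta r c a * theta r c b) * (⟪v a, v b⟫_ℂ).re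
          ≤ |(∑ c : Λ → Fin r, theta r c a * theta r c b) * (⟪v a, v b⟫_ℂ).re| := le_abs_self _
        _ = |∑ c : Λ → Fin r, theta r c a * theta r c b| * |(⟪v a, v b⟫_ℂ).re| := abs_mul _ _
        _ ≤ C * ((‖v a‖ ^ 2 + ‖v b‖ ^ 2) / 2) := by
            gcongr
            exact hG a b
        _ = C * (1 * ((‖v a‖ ^ 2 + ‖v b‖ ^ 2) / 2)) := by rw [one_mul]
        _ ≤ _ := by gcongr
    · push Not at h
      rw [sum_theta_mul_eq_zero hr h.1 h.2, zero_mul, if_neg h.1, if_neg h.2]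
      simp
  calc ∑ a, ∑ b, (∑ c : Λ → Fin r, theta r c a * theta r c b) * (⟪v a, v b⟫_ℂ).re
      ≤ ∑ a, ∑ b, C * (((if b = a then 1 else 0) + (if b = a.swap then 1 else 0)) *
        ((‖v a‖ ^ 2 + ‖v b‖ ^ 2) / 2)) :=
        Finset.sum_le_sum fun a _ => Finset.sum_le_sum fun b _ => hterm a b
    _ = C * ∑ a : Λ × Λ, ((‖v a‖ ^ 2) + ((‖v a‖ ^ 2 + ‖v a.swap‖ ^ 2) / 2)) := by
        rw [Finset.mul_sum]
        refine Finset.sum_congr rfl fun a _ => ?_
        rw [← Finset.mul_sum]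
        congr 1
        simp only [add_mul, Finset.sum_add_distrib, ite_mul, one_mul, zero_mul]
        rw [Finset.sum_ite_eq' Finset.univ a, Finset.sum_ite_eq' Finset.univ a.swap]
        simp
    _ = C * (2 * ∑ a, ‖v a‖ ^ 2) := by
        congr 1
        rw [Finset.sum_add_distrib, ← Finset.sum_div, Finset.sum_add_distrib]
        have : ∑ a : Λ × Λ, ‖v a.swap‖ ^ 2 = ∑ a : Λ × Λ, ‖v a‖ ^ 2 :=
          Equiv.sum_comp (Equiv.prodComm Λ Λ) (fun a => ‖v a‖ ^ 2)
        rw [this]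
        ring

end Vale.Agent.P078
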