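import Mathlib
import Vale.Agent.P078.CondExp

/-!
# P078: the spread lemma
-/

set_option linter.unusedSectionVars false

namespace Vale.Agent.P078

open scoped ComplexOrder InnerProductSpace
open ContinuousLinearMap Filter Topology

variable {H : Type*} [NormedAddCommGroup H] [InnerProductSpace ℂ H] [CompleteSpace H]
variable {A : StarSubalgebra ℂ (H →L[ℂ] H)} {M : VonNeumannAlgebra H}

/-- From a positive contraction near `1` with small pinching to a projection. -/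
lemma exists_proj_of_pos {y : H →L[ℂ] H} (hyM : y ∈ M) (h0 : 0 ≤ y) (h1 : y ≤ 1) :
    ∃ q ∈ M, IsStarProjection q ∧ q ≤ (2 : ℝ) • y ∧
      ∀ ξ : H, ‖(1 - q) ξ‖ ^ 2 ≤ 4 * (⟪(1 - y) ξ, ξ⟫_ℂ).re := by
  have hysa : IsSelfAdjoint y := IsSelfAdjoint.of_nonneg h0
  set T : H →L[ℂ] H := 1 - y with hT
  have hTsa : IsSelfAdjoint T := (IsSelfAdjoint.one _).sub hysa
  have hT0 : 0 ≤ T := sub_nonneg.2 h1
  have hT1 : T ≤ 1 := by rw [hT]; exact sub_le_self _ h0
  obtain ⟨q, z, hq, hcomm, hsmall, hbig, -, -⟩ := spectral_cut hTsa (show (0 : ℝ) < 1 / 2 by norm_num)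
  have hqM : q ∈ M := by
    apply mem_of_commute
    intro w hw
    apply hcomm
    exact (Commute.one_right w).sub_right (hw y hyM)
  have hqsa := hq.isSelfAdjoint
  have hqT : Commute T q := hcomm T (Commute.refl T)
  have hqy : Commute y q := by
    have : y = 1 - T := by rw [hT]; abel
    rw [this]
    exact (Commute.one_left q).sub_left hqT
  refine ⟨q, hqM, hq, ?_, ?_⟩
  · -- `q ≤ 2 y`
    have hqyq : (1 / 2 : ℝ) • q ≤ q * y * q := by
      apply le_of_re_inner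
      · rw [isSelfAdjoint_iff, star_smul, hqsa.star_eq]; simp
      · rw [isSelfAdjoint_iff, star_mul, star_mul, hqsa.star_eq, hysa.star_eq, mul_assoc]
      intro ξ
      set ζ := q ξ with hζ
      have hqζ : q ζ = ζ := by
        rw [hζ, ← mul_apply_eq_comp, hq.isIdempotentElem.eq]
      have e1 : (⟪((1 / 2 : ℝ) • q) ξ, ξ⟫_ℂ).re = (1 / 2) * ‖ζ‖ ^ 2 := by
        rw [smul_apply, show ((1 / 2 : ℝ) • q ξ : H) = ((1 / 2 : ℝ) : ℂ) • q ξ
          from (Complex.coe_smul _ _).symm, inner_smul_left, Complex.conj_ofReal,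
          Complex.re_ofReal_mul, ← inner_self_re]
        congr 2
        rw [← hζ]
        conv_lhs => rw [← hqζ]
        rw [inner_sa hqsa, ← hζ]
      have e2 : (⟪(q * y * q) ξ, ξ⟫_ℂ).re = ‖ζ‖ ^ 2 - (⟪T ζ, ζ⟫_ℂ).re := by
        rw [mul_apply_eq_comp, mul_apply_eq_comp, inner_sa hqsa, ← hζ, hT, sub_apply,
          one_apply_eq_self, inner_sub_left, Complex.sub_re, inner_self_re]
        ring
      rw [e1, e2]
      have h2 : (⟪T ζ, ζ⟫_ℂ).re ≤ 1 / 2 * ‖ζ‖ ^ 2 := by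
        calc (⟪T ζ, ζ⟫_ℂ).re ≤ ‖⟪T ζ, ζ⟫_ℂ‖ := Complex.re_le_norm _
          _ ≤ ‖T ζ‖ * ‖ζ‖ := norm_inner_le_norm _ _
          _ ≤ (1 / 2 * ‖ζ‖) * ‖ζ‖ := by gcongr; exact hsmall ζ hqζ
          _ = 1 / 2 * ‖ζ‖ ^ 2 := by ring
      linarith
    have hqyq' : q * y * q ≤ y := by
      have h3 : y - q * y * q = (1 - q) * y * (1 - q) := by
        have hc := hqy.eq
        have hi := hq.isIdempotentElem.eq
        have h4 : q * y = y * q := hc.symm
        calc y - q * y * q = y - y * q := by rw [h4, mul_assoc, hi]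
          _ = (1 - q) * y * (1 - q) := by
              simp only [sub_mul, mul_sub, one_mul, mul_one, h4, mul_assoc, hi]
              abel
      rw [← sub_nonneg, h3]
      exact IsSelfAdjoint.conjugate_nonneg h0 ((IsSelfAdjoint.one _).sub hqsa)
    have h5 := smul_le_smul_of_nonneg_left (hqyq.trans hqyq') (show (0 : ℝ) ≤ 2 by norm_num)
    rw [smul_smul] at h5
    norm_num at h5
    exact h5
  · intro ξ
    have h2 := hbig ξ
    have h3 := sq_norm_le_inner hT0 hT1 ξ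
    have h4 : ‖(1 - q) ξ‖ ≤ 2 * ‖T ξ‖ := by linarith
    calc ‖(1 - q) ξ‖ ^ 2 ≤ (2 * ‖T ξ‖) ^ 2 := pow_le_pow_left₀ (norm_nonneg _) h4 2
      _ = 4 * ‖T ξ‖ ^ 2 := by ring
      _ ≤ 4 * (⟪T ξ, ξ⟫_ℂ).re := by gcongr

/-- Spread lemma: if `A` is nowhere expected, there are projections of `M` near `1` with
arbitrarily small pinchings. -/
theorem exists_spread (hA : IsMASA A M) (hne : NowhereExpected A M) (F : Finset H) {δ κ : ℝ}
    (hδ : 0 < δ) (hκ : 0 < κ) :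
    ∃ q ∈ M, IsStarProjection q ∧ (∀ ξ ∈ F, ‖(1 - q) ξ‖ < δ) ∧
      ∃ f : Part A, f.pinch q ≤ κ • (1 : H →L[ℂ] H) := by
  have hex : ∃ Y ∈ DK A M (κ / 2), JF F Y < δ ^ 2 / 8 := by
    by_contra hcon
    push Not at hcon
    obtain ⟨η, hη0, hη⟩ := exists_tame hA.isComm F (show 0 < δ ^ 2 / 8 by positivity)
      (show 0 < κ / 2 by positivity) hcon
    obtain ⟨p, hpA, hp, hp0, hE⟩ := exists_condExp_of_tame hA hη0 hη
    exact hne p hpA hp hp0 hE
  obtain ⟨Y, ⟨hYM, hY0, f, hf⟩, hJ⟩ := hex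
  have hR0 := Res_nonneg hY0
  have hR1 := Res_le_one hY0
  obtain ⟨q, hqM, hq, hq2, hqξ⟩ := exists_proj_of_pos (M := M) (y := 1 - Res Y)
    (sub_mem (one_mem _) (Res_mem hY0 hYM)) (sub_nonneg.2 hR1) (sub_le_self _ hR0)
  refine ⟨q, hqM, hq, ?_, f, ?_⟩
  · intro ξ hξ
    have h1 := hqξ ξ
    rw [sub_sub_cancel] at h1
    have h2 : (⟪Res Y ξ, ξ⟫_ℂ).re ≤ JF F Y :=
      Finset.single_le_sum (f := fun ζ => (⟪Res Y ζ, ζ⟫_ℂ).re)
        (fun ζ _ => inner_nonneg_re hR0 ζ) hξ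
    have h3 : ‖(1 - q) ξ‖ ^ 2 < δ ^ 2 := by nlinarith
    exact lt_of_pow_lt_pow_left₀ 2 hδ.le h3
  · have h1 := f.pinch_mono hq2
    have h2 := f.pinch_mono (one_sub_Res hY0)
    rw [Part.pinch_smul_real] at h1
    have h3 : (2 : ℝ) • f.pinch (1 - Res Y) ≤ (2 : ℝ) • ((κ / 2) • (1 : H →L[ℂ] H)) :=
      smul_le_smul_of_nonneg_left (h2.trans hf) (by norm_num)
    rw [smul_smul, show (2 : ℝ) * (κ / 2) = κ by ring] at h3
    exact h1.trans h3

lemma Part.f_apply_self (f : Part A) (s : f.ι) (w : H) : f.f s (f.f s w) = f.f s w := by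
  rw [← mul_apply_eq_comp, f.f_idem]

lemma Part.f_apply_ne (f : Part A) {s t : f.ι} (h : t ≠ s) (w : H) : f.f t (f.f s w) = 0 := by
  rw [← mul_apply_eq_comp, f.isPart.orth t s h, zero_apply]

/-- The basic estimate for spread projections. -/
lemma spread_bound {f : Part A} {q : H →L[ℂ] H} (hq : IsStarProjection q) {κ : ℝ}
    (hf : f.pinch q ≤ κ • (1 : H →L[ℂ] H)) (s : f.ι) (w : H) :
    ‖q (f.f s w)‖ ^ 2 ≤ κ * ‖f.f s w‖ ^ 2 := by
  have h1 := re_inner_mono hf (f.f s w)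
  rw [Part.inner_pinch] at h1
  have h2 : ∑ t, (⟪q (f.f t (f.f s w)), f.f t (f.f s w)⟫_ℂ).re
      = (⟪q (f.f s w), f.f s w⟫_ℂ).re := by
    rw [Finset.sum_eq_single s]
    · rw [f.f_apply_self]
    · intro t _ hts
      rw [f.f_apply_ne hts]
      simp
    · simp
  rw [h2, smul_apply, one_apply_eq_self, show (κ • f.f s w : H) = ((κ : ℝ) : ℂ) • f.f s w
    from (Complex.coe_smul _ _).symm, inner_smul_left, Complex.conj_ofReal, Complex.re_ofReal_mul,
    inner_self_re] at h1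
  have h3 : ‖q (f.f s w)‖ ^ 2 = (⟪q (f.f s w), f.f s w⟫_ℂ).re := by
    rw [← inner_self_re, inner_sa hq.isSelfAdjoint, ← mul_apply_eq_comp,
      hq.isIdempotentElem.eq, ← inner_sa hq.isSelfAdjoint]
  rw [h3]
  exact h1

end Vale.Agent.P078
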