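import Mathlib
import Vale.Agent.P078.Spread
import Vale.Agent.P078.Moment

/-!
# P078: diagonal and off-diagonal estimates
-/

set_option linter.unusedSectionVars false

namespace Vale.Agent.P078

open scoped ComplexOrder InnerProductSpace
open ContinuousLinearMap Filter Topology

variable {H : Type*} [NormedAddCommGroup H] [InnerProductSpace ℂ H] [CompleteSpace H]
variable {A : StarSubalgebra ℂ (H →L[ℂ] H)} {M : VonNeumannAlgebra H}

lemma norm_proj_apply_le {p : H →L[ℂ] H} (hp : IsStarProjection p) (ξ : H) : ‖p ξ‖ ≤ ‖ξ‖ := by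
  calc ‖p ξ‖ ≤ ‖p‖ * ‖ξ‖ := le_opNorm _ _
    _ ≤ 1 * ‖ξ‖ := by gcongr; exact hp.norm_le
    _ = ‖ξ‖ := one_mul _

lemma Part.sigma_pinch (hA : IsComm A) (f : Part A) (g : f.ι → Part A) (x : H →L[ℂ] H) :
    (Part.sigma hA f g).pinch x = ∑ s, f.f s * (g s).pinch x * f.f s := by
  rw [Part.pinch_def]
  change ∑ st : (Σ s : f.ι, (g s).ι), (f.f st.1 * (g st.1).f st.2) * x *
    (f.f st.1 * (g st.1).f st.2) = _
  rw [Fintype.sum_sigma]
  refine Finset.sum_congr rfl fun s _ => ?_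
  rw [Part.pinch_def, Finset.mul_sum, Finset.sum_mul]
  refine Finset.sum_congr rfl fun t _ => ?_
  have h := Part.mul_f_comm hA f (g s) s t
  calc f.f s * (g s).f t * x * (f.f s * (g s).f t)
      = f.f s * (g s).f t * x * ((g s).f t * f.f s) := by rw [h]
    _ = f.f s * ((g s).f t * x * (g s).f t) * f.f s := by simp only [mul_assoc]

/-- Diagonal estimate: some fine pinching of `x` is strongly close to `Φ(x)` after compression
by a spread projection `q`. -/
theorem diag_estimate (hA : IsMASA A M) {U : Ultrafilter (Part A)} (hU : Cofinal A U)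
    {q : H →L[ℂ] H} (hq : IsStarProjection q) {f : Part A} {κ : ℝ} (hκ : 0 ≤ κ)
    (hf : f.pinch q ≤ κ • (1 : H →L[ℂ] H)) {x : H →L[ℂ] H} (hx : x ∈ M) (F : Finset H)
    {ε : ℝ} (hε : 0 < ε) :
    ∃ e : Part A, f ≤ e ∧ ∀ ξ ∈ F,
      ‖(q * (e.pinch x - Phi U x) * q) ξ‖ ^ 2 ≤ 4 * κ * ‖x‖ ^ 2 * ‖ξ‖ ^ 2 + ε := by
  classical
  have hΦA : Phi U x ∈ A := hA.Phi_mem hU hx
  set ε' : ℝ := ε / (Fintype.card f.ι + 1) with hε'
  have hε'pos : 0 < ε' := by positivity
  -- the block terms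
  set B : f.ι → Part A → (H →L[ℂ] H) := fun s g =>
    q * f.f s * (g.pinch x - Phi U x) * f.f s * q with hB
  have hblock : ∀ s (g : Part A) (ξ : H), ‖B s g ξ‖ ^ 2 ≤ 4 * κ * ‖x‖ ^ 2 * ‖f.f s (q ξ)‖ ^ 2 := by
    intro s g ξ
    have e1 : B s g ξ = q (f.f s ((g.pinch x - Phi U x) (f.f s (q ξ)))) := by
      simp only [hB, mul_apply_eq_comp]
    rw [e1]
    have h1 := spread_bound hq hf s ((g.pinch x - Phi U x) (f.f s (q ξ)))
    have h2 : ‖f.f s ((g.pinch x - Phi U x) (f.f s (q ξ)))‖ ≤ 2 * ‖x‖ * ‖f.f s (q ξ)‖ := by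
      calc ‖f.f s ((g.pinch x - Phi U x) (f.f s (q ξ)))‖
          ≤ ‖(g.pinch x - Phi U x) (f.f s (q ξ))‖ := norm_proj_apply_le (f.isPart.proj s) _
        _ ≤ ‖g.pinch x - Phi U x‖ * ‖f.f s (q ξ)‖ := le_opNorm _ _
        _ ≤ (‖g.pinch x‖ + ‖Phi U x‖) * ‖f.f s (q ξ)‖ := by gcongr; exact norm_sub_le _ _
        _ ≤ (‖x‖ + ‖x‖) * ‖f.f s (q ξ)‖ := by
            gcongr
            · exact g.norm_pinch_le x
            · exact norm_Phi_le U x
        _ = 2 * ‖x‖ * ‖f.f s (q ξ)‖ := by ring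
    calc ‖q (f.f s ((g.pinch x - Phi U x) (f.f s (q ξ))))‖ ^ 2
        ≤ κ * ‖f.f s ((g.pinch x - Phi U x) (f.f s (q ξ)))‖ ^ 2 := h1
      _ ≤ κ * (2 * ‖x‖ * ‖f.f s (q ξ)‖) ^ 2 := by gcongr
      _ = 4 * κ * ‖x‖ ^ 2 * ‖f.f s (q ξ)‖ ^ 2 := by ring
  have hind : ∀ T : Finset f.ι, ∃ g : f.ι → Part A, ∀ ξ ∈ F,
      ‖(∑ s ∈ T, B s (g s)) ξ‖ ^ 2 ≤ ∑ s ∈ T, (4 * κ * ‖x‖ ^ 2 * ‖f.f s (q ξ)‖ ^ 2 + ε') := by
    intro T
    induction T using Finset.induction_on with
    | empty => exact ⟨fun _ => Part.one A, fun ξ _ => by simp⟩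
    | insert k T hk ih =>
      obtain ⟨g, hg⟩ := ih
      set v : H → H := fun ξ => (∑ s ∈ T, B s (g s)) ξ with hv
      have hev : ∀ᶠ g' : Part A in U, ∀ ξ ∈ F, ‖⟪B k g' ξ, v ξ⟫_ℂ‖ < ε' / 2 := by
        rw [Filter.eventually_all_finset]
        intro ξ _
        have h1 : Tendsto (fun g' : Part A => ⟪B k g' ξ, v ξ⟫_ℂ) U (𝓝 0) := by
          have h2 := (Phi_tendsto U x (f.f k (q ξ)) (f.f k (q (v ξ)))).sub
            (tendsto_const_nhds (x := ⟪Phi U x (f.f k (q ξ)), f.f k (q (v ξ))⟫_ℂ))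
          rw [sub_self] at h2
          refine h2.congr fun g' => ?_
          simp only [hB, mul_apply_eq_comp]
          rw [inner_sa hq.isSelfAdjoint, inner_sa (f.f_sa k), sub_apply, inner_sub_left]
        have h3 := h1.norm
        rw [norm_zero] at h3
        exact h3.eventually (gt_mem_nhds (by positivity))
      obtain ⟨g', hg'⟩ := hev.exists
      refine ⟨Function.update g k g', fun ξ hξ => ?_⟩
      rw [Finset.sum_insert hk, Finset.sum_insert hk]
      have e1 : ∑ s ∈ T, B s (Function.update g k g' s) = ∑ s ∈ T, B s (g s) := by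
        refine Finset.sum_congr rfl fun s hs => ?_
        rw [Function.update_of_ne]
        rintro rfl; exact hk hs
      rw [e1, Function.update_self]
      change ‖(B k g' + ∑ s ∈ T, B s (g s)) ξ‖ ^ 2 ≤ _
      rw [add_apply]
      have h1 : ‖B k g' ξ + v ξ‖ ^ 2 = ‖B k g' ξ‖ ^ 2 + 2 * (⟪B k g' ξ, v ξ⟫_ℂ).re + ‖v ξ‖ ^ 2 := by
        have := norm_add_sq (𝕜 := ℂ) (B k g' ξ) (v ξ)
        simpa using this
      have h2 : (⟪B k g' ξ, v ξ⟫_ℂ).re ≤ ε' / 2 :=
        (Complex.re_le_norm _).trans (hg' ξ hξ).le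
      have h3 := hblock k g' ξ
      have h4 := hg ξ hξ
      change ‖B k g' ξ + v ξ‖ ^ 2 ≤ _
      rw [h1]
      change ‖v ξ‖ ^ 2 ≤ _ at h4
      linarith
  obtain ⟨g, hg⟩ := hind Finset.univ
  refine ⟨Part.sigma hA.isComm f g, Part.le_sigma hA.isComm f g, fun ξ hξ => ?_⟩
  have e1 : q * ((Part.sigma hA.isComm f g).pinch x - Phi U x) * q = ∑ s, B s (g s) := by
    have e2 : Phi U x = ∑ s, f.f s * Phi U x * f.f s := by
      conv_lhs => rw [← f.pinch_of_mem hA.isComm hΦA]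
      rw [Part.pinch_def]
    rw [Part.sigma_pinch]
    conv_lhs => rw [e2]
    rw [← Finset.sum_sub_distrib, Finset.mul_sum, Finset.sum_mul]
    refine Finset.sum_congr rfl fun s _ => ?_
    simp only [hB, mul_sub, sub_mul, mul_assoc]
  rw [e1]
  refine (hg ξ hξ).trans ?_
  rw [Finset.sum_add_distrib, ← Finset.mul_sum, f.sum_norm_sq, Finset.sum_const, Finset.card_univ,
    nsmul_eq_mul]
  have h1 : ‖q ξ‖ ≤ ‖ξ‖ := norm_proj_apply_le hq ξ
  have h2 : (Fintype.card f.ι : ℝ) * ε' ≤ ε := by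
    rw [hε', mul_div_assoc']
    rw [div_le_iff₀ (by positivity)]
    nlinarith
  have h3 : 4 * κ * ‖x‖ ^ 2 * ‖q ξ‖ ^ 2 ≤ 4 * κ * ‖x‖ ^ 2 * ‖ξ‖ ^ 2 := by gcongr
  linarith

/-- The partition obtained by merging the pieces of `e` with the same colour. -/
noncomputable def colour (e : Part A) {r : ℕ} (c : e.ι → Fin r) (i : Fin r) : H →L[ℂ] H :=
  ∑ τ, if c τ = i then e.f τ else 0

lemma colour_isPartition (e : Part A) {r : ℕ} (c : e.ι → Fin r) :
    IsPartition A (colour e c) := by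
  classical
  have hmul : ∀ i j, colour e c i * colour e c j = ∑ τ, if c τ = i ∧ c τ = j then e.f τ else 0 := by
    intro i j
    unfold colour
    rw [Finset.sum_mul_sum]
    refine Finset.sum_congr rfl fun τ _ => ?_
    rw [Finset.sum_eq_single τ]
    · by_cases h1 : c τ = i <;> by_cases h2 : c τ = j <;> simp [h1, h2, e.f_idem]
    · intro τ' _ hne
      by_cases h1 : c τ = i <;> by_cases h2 : c τ' = j <;>
        simp [h1, h2, e.isPart.orth τ τ' (Ne.symm hne)]
    · simp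
  constructor
  · intro i
    unfold colour
    apply sum_mem
    intro τ _
    split_ifs
    · exact e.isPart.mem τ
    · exact zero_mem A
  · intro i
    constructor
    · change colour e c i * colour e c i = colour e c i
      rw [hmul]
      unfold colour
      simp
    · rw [isSelfAdjoint_iff]
      unfold colour
      rw [star_sum]
      refine Finset.sum_congr rfl fun τ _ => ?_
      split_ifs
      · exact (e.f_sa τ).star_eq
      · simp
  · intro i j hij
    rw [hmul]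
    apply Finset.sum_eq_zero
    intro τ _
    rw [if_neg]
    rintro ⟨h1, h2⟩
    exact hij (h1.symm.trans h2)
  · unfold colour
    rw [Finset.sum_comm]
    simp [e.isPart.sum_eq]

end Vale.Agent.P078
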