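import Mathlib
import Vale.Agent.P078.Diag

/-!
# P078: the upper bound for the paving number
-/

set_option linter.unusedSectionVars false

namespace Vale.Agent.P078

open scoped ComplexOrder InnerProductSpace
open ContinuousLinearMap Filter Topology

variable {H : Type*} [NormedAddCommGroup H] [InnerProductSpace ℂ H] [CompleteSpace H]
variable {A : StarSubalgebra ℂ (H →L[ℂ] H)} {M : VonNeumannAlgebra H}

/-- The random off-diagonal part. -/
noncomputable def offDiag (e : Part A) (x : H →L[ℂ] H) {r : ℕ} [DecidableEq e.ι]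
    (c : e.ι → Fin r) : H →L[ℂ] H :=
  ∑ a : e.ι × e.ι, (theta r c a : ℂ) • (e.f a.1 * x * e.f a.2)

lemma Part.sum_blocks (e : Part A) (x : H →L[ℂ] H) :
    ∑ a : e.ι × e.ι, e.f a.1 * x * e.f a.2 = x := by
  rw [Fintype.sum_prod_type]
  simp only [← Finset.mul_sum, e.isPart.sum_eq, mul_one]
  rw [← Finset.sum_mul, e.isPart.sum_eq, one_mul]

lemma Part.pinch_blocks (e : Part A) [DecidableEq e.ι] (x : H →L[ℂ] H) :
    ∑ a : e.ι × e.ι, (if a.1 = a.2 then (1 : ℂ) else 0) • (e.f a.1 * x * e.f a.2) = e.pinch x := by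
  rw [Fintype.sum_prod_type, Part.pinch_def]
  refine Finset.sum_congr rfl fun s _ => ?_
  rw [Finset.sum_eq_single s]
  · simp
  · intro t _ hts
    simp [Ne.symm hts]
  · simp

lemma pinching_colour (e : Part A) [DecidableEq e.ι] (x : H →L[ℂ] H) {r : ℕ}
    (c : e.ι → Fin r) :
    pinching (colour e c) x =
      ∑ a : e.ι × e.ι, (if c a.1 = c a.2 then (1 : ℂ) else 0) • (e.f a.1 * x * e.f a.2) := by
  unfold pinching colour
  have h1 : ∀ i : Fin r, (∑ τ, if c τ = i then e.f τ else 0) * x *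
      (∑ τ, if c τ = i then e.f τ else 0)
      = ∑ a : e.ι × e.ι, (if c a.1 = i ∧ c a.2 = i then (1 : ℂ) else 0) •
        (e.f a.1 * x * e.f a.2) := by
    intro i
    rw [Finset.sum_mul, Finset.sum_mul_sum, Fintype.sum_prod_type]
    refine Finset.sum_congr rfl fun s _ => Finset.sum_congr rfl fun t _ => ?_
    by_cases hs : c s = i <;> by_cases ht : c t = i <;> simp [hs, ht]
  simp only [h1]
  rw [Finset.sum_comm]
  refine Finset.sum_congr rfl fun a _ => ?_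
  rw [← Finset.sum_smul]
  congr 1
  by_cases h : c a.1 = c a.2
  · rw [if_pos h]
    rw [Finset.sum_eq_single (c a.1)]
    · simp [h]
    · intro i _ hi
      rw [if_neg]
      rintro ⟨h1, -⟩
      exact hi h1.symm
    · simp
  · rw [if_neg h]
    apply Finset.sum_eq_zero
    intro i _
    rw [if_neg]
    rintro ⟨h1, h2⟩
    exact h (h1.trans h2.symm)

/-- Decomposition of the pinching by a colouring. -/
lemma pinching_colour_eq (e : Part A) [DecidableEq e.ι] (x : H →L[ℂ] H) {r : ℕ}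
    (c : e.ι → Fin r) :
    pinching (colour e c) x = ((1 / r : ℝ) : ℂ) • x + ((1 - 1 / r : ℝ) : ℂ) • e.pinch x
      + offDiag e x c := by
  rw [pinching_colour]
  conv_rhs => enter [1, 1, 2]; rw [← e.sum_blocks x]
  rw [← e.pinch_blocks x, offDiag, Finset.smul_sum, Finset.smul_sum, ← Finset.sum_add_distrib,
    ← Finset.sum_add_distrib]
  refine Finset.sum_congr rfl fun a _ => ?_
  rw [smul_smul, ← add_smul, ← add_smul]
  congr 1
  unfold theta
  by_cases h1 : a.1 = a.2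
  · simp [h1]
  · by_cases h2 : c a.1 = c a.2
    · simp [h1, h2]
    · simp [h1, h2]

/-- Random colourings make the compressed off-diagonal part strongly small. -/
theorem exists_colouring {e : Part A} [DecidableEq e.ι] {q : H →L[ℂ] H} (hq : IsStarProjection q)
    {κ : ℝ} (hκ : 0 ≤ κ) (he : e.pinch q ≤ κ • (1 : H →L[ℂ] H)) (x : H →L[ℂ] H) {r : ℕ}
    (hr : 0 < r) (F : Finset H) :
    ∃ c : e.ι → Fin r, ∀ ξ ∈ F,
      ‖(q * offDiag e x c * q) ξ‖ ^ 2 ≤ 2 * κ * ‖x‖ ^ 2 * ∑ ζ ∈ F, ‖ζ‖ ^ 2 := by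
  classical
  have : Nonempty (Fin r) := ⟨⟨0, hr⟩⟩
  have hone : ∀ ξ : H, ∑ c : e.ι → Fin r, ‖(q * offDiag e x c * q) ξ‖ ^ 2 ≤
      (Fintype.card (e.ι → Fin r) : ℝ) * (2 * κ * ‖x‖ ^ 2 * ‖ξ‖ ^ 2) := by
    intro ξ
    have h1 := moment_bound hr (fun a : e.ι × e.ι => q (e.f a.1 (x (e.f a.2 (q ξ)))))
    have h2 : ∀ c : e.ι → Fin r, (q * offDiag e x c * q) ξ
        = ∑ a, (theta r c a : ℂ) • q (e.f a.1 (x (e.f a.2 (q ξ)))) := by
      intro c
      unfold offDiag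
      simp only [mul_apply_eq_comp, _root_.sum_apply, map_sum, smul_apply, map_smul]
    simp only [h2]
    refine h1.trans ?_
    have h3 : ∑ a : e.ι × e.ι, ‖q (e.f a.1 (x (e.f a.2 (q ξ))))‖ ^ 2 ≤ κ * ‖x‖ ^ 2 * ‖ξ‖ ^ 2 := by
      rw [Fintype.sum_prod_type_right]
      calc ∑ t, ∑ s, ‖q (e.f s (x (e.f t (q ξ))))‖ ^ 2
          ≤ ∑ t, ∑ s, κ * ‖e.f s (x (e.f t (q ξ)))‖ ^ 2 :=
            Finset.sum_le_sum fun t _ => Finset.sum_le_sum fun s _ =>
              spread_bound hq he s _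
        _ = ∑ t, κ * ‖x (e.f t (q ξ))‖ ^ 2 := by
            refine Finset.sum_congr rfl fun t _ => ?_
            rw [← Finset.mul_sum, e.sum_norm_sq]
        _ ≤ ∑ t, κ * (‖x‖ * ‖e.f t (q ξ)‖) ^ 2 := by
            apply Finset.sum_le_sum
            intro t _
            gcongr
            exact le_opNorm _ _
        _ = κ * ‖x‖ ^ 2 * ‖q ξ‖ ^ 2 := by
            rw [← e.sum_norm_sq (q ξ), Finset.mul_sum]
            exact Finset.sum_congr rfl fun t _ => by ring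
        _ ≤ κ * ‖x‖ ^ 2 * ‖ξ‖ ^ 2 := by
            gcongr
            exact norm_proj_apply_le hq ξ
    calc (Fintype.card (e.ι → Fin r) : ℝ) *
          (2 * ∑ a : e.ι × e.ι, ‖q (e.f a.1 (x (e.f a.2 (q ξ))))‖ ^ 2)
        ≤ (Fintype.card (e.ι → Fin r) : ℝ) * (2 * (κ * ‖x‖ ^ 2 * ‖ξ‖ ^ 2)) := by gcongr
      _ = _ := by ring
  have hsum : ∑ c : e.ι → Fin r, ∑ ξ ∈ F, ‖(q * offDiag e x c * q) ξ‖ ^ 2 ≤
      ∑ _c : e.ι → Fin r, 2 * κ * ‖x‖ ^ 2 * ∑ ζ ∈ F, ‖ζ‖ ^ 2 := by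
    rw [Finset.sum_comm, Finset.sum_const, Finset.card_univ, nsmul_eq_mul, Finset.mul_sum,
      Finset.mul_sum]
    apply Finset.sum_le_sum
    intro ξ _
    exact hone ξ
  obtain ⟨c, -, hc⟩ := Finset.exists_le_of_sum_le Finset.univ_nonempty hsum
  refine ⟨c, fun ξ hξ => le_trans ?_ hc⟩
  exact Finset.single_le_sum (f := fun ξ => ‖(q * offDiag e x c * q) ξ‖ ^ 2)
    (fun _ _ => sq_nonneg _) hξ

/-- Final spectral cut. -/
lemma final_cut {q X R : H →L[ℂ] H} (hqM : q ∈ M) (hq : IsStarProjection q)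
    (hRM : R ∈ M) (hR : IsSelfAdjoint R) {F : Finset H} {μ η C : ℝ}
    (hη : 0 < η) (hC : ‖X‖ ≤ C) (hμ : ∀ ξ ∈ F, ‖(q * R * q) ξ‖ ≤ μ) :
    ∃ q' ∈ M, IsStarProjection q' ∧ q * q' = q' ∧ ‖q' * (X + R) * q'‖ ≤ C + η ∧
      ∀ ξ ∈ F, ‖(1 - q') ξ‖ ≤ ‖(1 - q) ξ‖ + μ / η := by
  have hqsa := hq.isSelfAdjoint
  have hqi := hq.isIdempotentElem.eq
  set y : H →L[ℂ] H := q * R * q with hy
  have hysa : IsSelfAdjoint y := by
    rw [isSelfAdjoint_iff, hy, star_mul, star_mul, hqsa.star_eq, hR.star_eq, mul_assoc]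
  have hyM : y ∈ M := mul_mem (mul_mem hqM hRM) hqM
  obtain ⟨q2, z, hq2, hcomm, hsmall, hbig, -, -⟩ := spectral_cut hysa hη
  have hq2M : q2 ∈ M := by
    apply mem_of_commute
    intro w hw
    exact hcomm w (hw y hyM)
  have hqy : q * y = y := by
    rw [hy]
    rw [← mul_assoc, ← mul_assoc, hqi]
  have hyq : y * q = y := by
    rw [hy, mul_assoc, hqi]
  have hc : Commute q q2 := by
    apply hcomm
    rw [commute_iff_eq, hqy, hyq]
  have hq' : IsStarProjection (q * q2) := hq.mul hq2 hc.eq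
  refine ⟨q * q2, mul_mem hqM hq2M, hq', by rw [← mul_assoc, hqi], ?_, ?_⟩
  · have e1 : q * q2 * (X + R) * (q * q2) = q * q2 * X * (q * q2) + q2 * y * q2 := by
      rw [mul_add, add_mul]
      congr 1
      calc q * q2 * R * (q * q2) = (q2 * q) * R * (q * q2) := by rw [hc.eq]
        _ = q2 * y * q2 := by rw [hy]; simp only [mul_assoc]
    rw [e1]
    have h1 : ‖q * q2 * X * (q * q2)‖ ≤ C := by
      have hn := hq'.norm_le
      calc ‖q * q2 * X * (q * q2)‖ ≤ ‖q * q2 * X‖ * ‖q * q2‖ := norm_mul_le _ _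
        _ ≤ (‖q * q2‖ * ‖X‖) * ‖q * q2‖ := by gcongr; exact norm_mul_le _ _
        _ ≤ (1 * ‖X‖) * 1 := by gcongr
        _ = ‖X‖ := by ring
        _ ≤ C := hC
    have h2 : ‖q2 * y * q2‖ ≤ η := by
      apply opNorm_le_bound _ hη.le
      intro ζ
      have h3 : q2 (q2 ζ) = q2 ζ := by rw [← mul_apply_eq_comp, hq2.isIdempotentElem.eq]
      calc ‖(q2 * y * q2) ζ‖ = ‖q2 (y (q2 ζ))‖ := by simp only [mul_apply_eq_comp]
        _ ≤ ‖y (q2 ζ)‖ := norm_proj_apply_le hq2 _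
        _ ≤ η * ‖q2 ζ‖ := hsmall _ h3
        _ ≤ η * ‖ζ‖ := by gcongr; exact norm_proj_apply_le hq2 _
    exact (norm_add_le _ _).trans (add_le_add h1 h2)
  · intro ξ hξ
    have e1 : (1 - q * q2) ξ = (1 - q) ξ + q ((1 - q2) ξ) := by
      simp only [sub_apply, one_apply_eq_self, mul_apply_eq_comp, map_sub]
      abel
    rw [e1]
    have h1 := hbig ξ
    have h2 := hμ ξ hξ
    have h3 : ‖(1 - q2) ξ‖ ≤ μ / η := by
      rw [le_div_iff₀ hη]
      linarith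
    calc ‖(1 - q) ξ + q ((1 - q2) ξ)‖ ≤ ‖(1 - q) ξ‖ + ‖q ((1 - q2) ξ)‖ := norm_add_le _ _
      _ ≤ ‖(1 - q) ξ‖ + ‖(1 - q2) ξ‖ := by gcongr; exact norm_proj_apply_le hq _
      _ ≤ ‖(1 - q) ξ‖ + μ / η := by gcongr

lemma offDiag_sa (e : Part A) {x : H →L[ℂ] H} (hx : IsSelfAdjoint x) {r : ℕ} [DecidableEq e.ι]
    (c : e.ι → Fin r) : IsSelfAdjoint (offDiag e x c) := by
  rw [isSelfAdjoint_iff]
  unfold offDiag
  rw [star_sum, ← Equiv.sum_comp (Equiv.prodComm e.ι e.ι)]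
  refine Finset.sum_congr rfl fun a _ => ?_
  rw [star_smul, star_mul, star_mul, (e.f_sa _).star_eq, (e.f_sa _).star_eq, hx.star_eq]
  simp only [Equiv.prodComm_apply, Prod.fst_swap, Prod.snd_swap]
  rw [theta_swap, Complex.star_def, Complex.conj_ofReal, mul_assoc]

lemma offDiag_mem (hAM : ∀ a ∈ A, a ∈ M) (e : Part A) {x : H →L[ℂ] H} (hx : x ∈ M) {r : ℕ}
    [DecidableEq e.ι] (c : e.ι → Fin r) : offDiag e x c ∈ M := by
  unfold offDiag
  apply sum_mem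
  intro a _
  apply M.toStarSubalgebra.smul_mem
  exact mul_mem (mul_mem (hAM _ (e.isPart.mem _)) hx) (hAM _ (e.isPart.mem _))

/-- The upper bound: `1 / r < ε` implies `(ε, r)` so-pavability. -/
theorem soPavable_of_lt (hA : IsMASA A M) (hne : NowhereExpected A M) {r : ℕ} (hr : 0 < r)
    {ε : ℝ} (hε : 1 / (r : ℝ) < ε) {x : H →L[ℂ] H} (hx : x ∈ M) (hsa : IsSelfAdjoint x) :
    SoPavable A M ε r x := by
  classical
  intro F δ hδ
  obtain ⟨U, hU⟩ := exists_cofinal hA.isComm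
  by_cases hx0 : x = 0
  · subst hx0
    refine ⟨colour (Part.one A) (fun _ => (⟨0, hr⟩ : Fin r)), 0, 1, colour_isPartition _ _,
      ⟨zero_mem A, IsSelfAdjoint.zero _, by simp⟩, ⟨one_mem _, IsStarProjection.one _⟩, ?_, ?_⟩
    · intro ξ _; simpa using hδ
    · simp [pinching]
  have hxn : 0 < ‖x‖ := norm_pos_iff.2 hx0
  set S : ℝ := ∑ ξ ∈ F, ‖ξ‖ ^ 2 + 1 with hS
  have hSpos : 0 < S := by positivity
  have hFS : ∀ ξ ∈ F, ‖ξ‖ ^ 2 ≤ S := by
    intro ξ hξ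
    have := Finset.single_le_sum (f := fun ξ : H => ‖ξ‖ ^ 2) (fun _ _ => sq_nonneg _) hξ
    linarith
  set η : ℝ := (ε - 1 / r) * ‖x‖ with hη
  have hηpos : 0 < η := mul_pos (by linarith) hxn
  set m : ℝ := η * δ / 8 with hm
  have hmpos : 0 < m := by positivity
  set κ : ℝ := m ^ 2 / (8 * ‖x‖ ^ 2 * S) with hκ
  have hκpos : 0 < κ := by positivity
  have hκeq : 8 * κ * ‖x‖ ^ 2 * S = m ^ 2 := by
    rw [hκ]; field_simp
  obtain ⟨q, hqM, hq, hqF, f, hf⟩ := exists_spread hA hne F (show 0 < δ / 2 by positivity) hκpos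
  obtain ⟨e, hfe, he⟩ := diag_estimate hA hU hq hκpos.le hf hx F
    (show 0 < m ^ 2 / 2 by positivity)
  have heq : e.pinch q ≤ κ • (1 : H →L[ℂ] H) := Part.pinch_le_of_le hA.isComm hfe hf
  obtain ⟨c, hc⟩ := exists_colouring hq hκpos.le heq x hr F
  set a0 := Phi U x with ha0
  have ha0A : a0 ∈ A := hA.Phi_mem hU hx
  have ha0sa : IsSelfAdjoint a0 := Phi_sa U hsa
  have ha0n : ‖a0‖ ≤ ‖x‖ := norm_Phi_le U x
  have hr0 : (0 : ℝ) < r := by exact_mod_cast hr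
  have hr1 : (1 : ℝ) / r ≤ 1 := by
    rw [div_le_one hr0]; exact_mod_cast hr
  have hr2 : (0 : ℝ) ≤ 1 / r := by positivity
  set s : ℝ := 1 - 1 / r with hs
  have hs0 : 0 ≤ s := by rw [hs]; linarith
  have hs1 : s ≤ 1 := by rw [hs]; linarith
  set a : H →L[ℂ] H := (s : ℂ) • a0 with ha
  have haA : a ∈ A := A.smul_mem ha0A _
  have hasa : IsSelfAdjoint a := by
    rw [isSelfAdjoint_iff, ha, star_smul, ha0sa.star_eq, Complex.star_def, Complex.conj_ofReal]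
  have han : ‖a‖ ≤ ‖x‖ := by
    rw [ha, norm_smul, Complex.norm_real, Real.norm_eq_abs, abs_of_nonneg hs0]
    calc s * ‖a0‖ ≤ 1 * ‖x‖ := by gcongr
      _ = ‖x‖ := one_mul _
  set X : H →L[ℂ] H := ((1 / r : ℝ) : ℂ) • x with hX
  set R : H →L[ℂ] H := (s : ℂ) • (e.pinch x - a0) + offDiag e x c with hR
  have hT : pinching (colour e c) x - a = X + R := by
    rw [pinching_colour_eq, hR, ha, hX, hs, smul_sub]
    abel
  have hRM : R ∈ M := by
    apply add_mem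
    · apply M.toStarSubalgebra.smul_mem
      exact sub_mem (Part.pinch_mem M hA.subset _ hx) (hA.subset _ ha0A)
    · exact offDiag_mem hA.subset e hx c
  have hRsa : IsSelfAdjoint R := by
    apply IsSelfAdjoint.add
    · rw [isSelfAdjoint_iff, star_smul, Complex.star_def, Complex.conj_ofReal,
        ((e.pinch_sa hsa).sub ha0sa).star_eq]
    · exact offDiag_sa e hsa c
  have hXn : ‖X‖ ≤ 1 / r * ‖x‖ := by
    rw [hX, norm_smul, Complex.norm_real, Real.norm_eq_abs, abs_of_nonneg hr2]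
  have hμ : ∀ ξ ∈ F, ‖(q * R * q) ξ‖ ≤ 2 * m := by
    intro ξ hξ
    have e1 : (q * R * q) ξ = (s : ℂ) • (q * (e.pinch x - a0) * q) ξ
        + (q * offDiag e x c * q) ξ := by
      rw [hR]
      simp only [mul_add, add_mul, add_apply, mul_smul_comm, smul_mul_assoc, smul_apply]
    rw [e1]
    have h1 : ‖(q * (e.pinch x - a0) * q) ξ‖ ≤ m := by
      have h2 := he ξ hξ
      have h3 : 4 * κ * ‖x‖ ^ 2 * ‖ξ‖ ^ 2 ≤ 4 * κ * ‖x‖ ^ 2 * S := by
        gcongr; exact hFS ξ hξ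
      have h4 : ‖(q * (e.pinch x - a0) * q) ξ‖ ^ 2 ≤ m ^ 2 := by
        calc _ ≤ _ := h2
          _ ≤ m ^ 2 := by nlinarith
      exact le_of_sq_le_sq h4 hmpos.le
    have h2 : ‖(q * offDiag e x c * q) ξ‖ ≤ m := by
      have h3 := hc ξ hξ
      have h4 : 2 * κ * ‖x‖ ^ 2 * ∑ ζ ∈ F, ‖ζ‖ ^ 2 ≤ 2 * κ * ‖x‖ ^ 2 * S := by
        gcongr; rw [hS]; linarith
      have h5 : ‖(q * offDiag e x c * q) ξ‖ ^ 2 ≤ m ^ 2 := by
        calc _ ≤ _ := h3
          _ ≤ m ^ 2 := by nlinarith [sq_nonneg m]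
      exact le_of_sq_le_sq h5 hmpos.le
    calc ‖(s : ℂ) • (q * (e.pinch x - a0) * q) ξ + (q * offDiag e x c * q) ξ‖
        ≤ ‖(s : ℂ) • (q * (e.pinch x - a0) * q) ξ‖ + ‖(q * offDiag e x c * q) ξ‖ :=
          norm_add_le _ _
      _ ≤ 1 * m + m := by
          gcongr
          rw [norm_smul, Complex.norm_real, Real.norm_eq_abs, abs_of_nonneg hs0]
          gcongr
      _ = 2 * m := by ring
  obtain ⟨q', hq'M, hq', -, hq'n, hq'F⟩ := final_cut hqM hq hRM hRsa hηpos hXn hμ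
  refine ⟨colour e c, a, q', colour_isPartition e c, ⟨haA, hasa, han⟩, ⟨hq'M, hq'⟩, ?_, ?_⟩
  · intro ξ hξ
    have h1 := hq'F ξ hξ
    have h2 := hqF ξ hξ
    have h3 : 2 * m / η = δ / 4 := by
      rw [hm]; field_simp; ring
    rw [h3] at h1
    linarith
  · rw [hT]
    refine hq'n.trans (le_of_eq ?_)
    rw [hη]; ring

end Vale.Agent.P078
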