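import Mathlib
import Vale.Agent.P078.Upper

/-!
# P078: the lower bound for the paving number
-/

set_option linter.unusedSectionVars false

namespace Vale.Agent.P078

open scoped ComplexOrder InnerProductSpace
open ContinuousLinearMap Filter Topology

variable {H : Type*} [NormedAddCommGroup H] [InnerProductSpace ℂ H] [CompleteSpace H]
variable {A : StarSubalgebra ℂ (H →L[ℂ] H)} {M : VonNeumannAlgebra H}

lemma Part.pinch_comm (hA : IsComm A) (f g : Part A) (x : H →L[ℂ] H) :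
    f.pinch (g.pinch x) = g.pinch (f.pinch x) := by
  simp only [Part.pinch_def, Finset.mul_sum, Finset.sum_mul]
  rw [Finset.sum_comm]
  refine Finset.sum_congr rfl fun t _ => Finset.sum_congr rfl fun s _ => ?_
  have h := Part.mul_f_comm hA f g s t
  calc f.f s * (g.f t * x * g.f t) * f.f s = (f.f s * g.f t) * x * (g.f t * f.f s) := by
        simp only [mul_assoc]
    _ = (g.f t * f.f s) * x * (f.f s * g.f t) := by rw [h]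
    _ = g.f t * (f.f s * x * f.f s) * g.f t := by simp only [mul_assoc]

lemma re_inner_proj {q : H →L[ℂ] H} (hq : IsStarProjection q) (ζ : H) :
    (⟪q ζ, ζ⟫_ℂ).re = ‖q ζ‖ ^ 2 := by
  have h : q (q ζ) = q ζ := by rw [← mul_apply_eq_comp, hq.isIdempotentElem.eq]
  rw [← inner_self_re, inner_sa hq.isSelfAdjoint, inner_sa hq.isSelfAdjoint, h]

/-- Control of a quadratic form by its compression to an almost invariant projection. -/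
lemma re_inner_compress {T e : H →L[ℂ] H} (he : IsStarProjection e) {C ε δ : ℝ}
    (hC : ‖T‖ ≤ C) (hε : ‖e * T * e‖ ≤ ε) {ζ : H} (hζ : ‖(1 - e) ζ‖ ≤ δ) :
    |(⟪T ζ, ζ⟫_ℂ).re| ≤ ε * ‖ζ‖ ^ 2 + 2 * C * δ * ‖ζ‖ := by
  have hC0 : 0 ≤ C := (norm_nonneg _).trans hC
  have e1 : ⟪T ζ, ζ⟫_ℂ = ⟪(e * T * e) ζ, ζ⟫_ℂ + ⟪T ((1 - e) ζ), ζ⟫_ℂ
      + ⟪T (e ζ), (1 - e) ζ⟫_ℂ := by
    have h1 : ⟪(e * T * e) ζ, ζ⟫_ℂ = ⟪T (e ζ), e ζ⟫_ℂ := by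
      rw [mul_apply_eq_comp, mul_apply_eq_comp, inner_sa he.isSelfAdjoint]
    rw [h1]
    simp only [sub_apply, one_apply_eq_self, map_sub, inner_sub_left, inner_sub_right]
    ring
  have h1 : ‖⟪(e * T * e) ζ, ζ⟫_ℂ‖ ≤ ε * ‖ζ‖ ^ 2 := by
    calc ‖⟪(e * T * e) ζ, ζ⟫_ℂ‖ ≤ ‖(e * T * e) ζ‖ * ‖ζ‖ := norm_inner_le_norm _ _
      _ ≤ (‖e * T * e‖ * ‖ζ‖) * ‖ζ‖ := by gcongr; exact le_opNorm _ _
      _ ≤ (ε * ‖ζ‖) * ‖ζ‖ := by gcongr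
      _ = ε * ‖ζ‖ ^ 2 := by ring
  have h2 : ‖⟪T ((1 - e) ζ), ζ⟫_ℂ‖ ≤ C * δ * ‖ζ‖ := by
    calc ‖⟪T ((1 - e) ζ), ζ⟫_ℂ‖ ≤ ‖T ((1 - e) ζ)‖ * ‖ζ‖ := norm_inner_le_norm _ _
      _ ≤ (‖T‖ * ‖(1 - e) ζ‖) * ‖ζ‖ := by gcongr; exact le_opNorm _ _
      _ ≤ (C * δ) * ‖ζ‖ := by gcongr
  have h3 : ‖⟪T (e ζ), (1 - e) ζ⟫_ℂ‖ ≤ C * δ * ‖ζ‖ := by
    calc ‖⟪T (e ζ), (1 - e) ζ⟫_ℂ‖ ≤ ‖T (e ζ)‖ * ‖(1 - e) ζ‖ := norm_inner_le_norm _ _
      _ ≤ (‖T‖ * ‖e ζ‖) * ‖(1 - e) ζ‖ := by gcongr; exact le_opNorm _ _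
      _ ≤ (C * ‖ζ‖) * δ := by gcongr; exact norm_proj_apply_le he _
      _ = C * δ * ‖ζ‖ := by ring
  calc |(⟪T ζ, ζ⟫_ℂ).re| ≤ ‖⟪T ζ, ζ⟫_ℂ‖ := Complex.abs_re_le_norm _
    _ = ‖⟪(e * T * e) ζ, ζ⟫_ℂ + ⟪T ((1 - e) ζ), ζ⟫_ℂ + ⟪T (e ζ), (1 - e) ζ⟫_ℂ‖ := by rw [e1]
    _ ≤ ‖⟪(e * T * e) ζ, ζ⟫_ℂ‖ + ‖⟪T ((1 - e) ζ), ζ⟫_ℂ‖ + ‖⟪T (e ζ), (1 - e) ζ⟫_ℂ‖ :=
        norm_add₃_le
    _ ≤ _ := by linarith

lemma norm_two_smul_sub_one_le {q : H →L[ℂ] H} (hq : IsStarProjection q) :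
    ‖(2 : ℝ) • q - 1‖ ≤ 1 := by
  apply opNorm_le_bound _ zero_le_one
  intro ξ
  have hsa := hq.isSelfAdjoint
  have h1 : ‖((2 : ℝ) • q - 1) ξ‖ ^ 2 = ‖ξ‖ ^ 2 := by
    have hx : IsSelfAdjoint ((2 : ℝ) • q - 1 : H →L[ℂ] H) := by
      apply IsSelfAdjoint.sub _ (IsSelfAdjoint.one _)
      rw [isSelfAdjoint_iff, star_smul, hsa.star_eq]; simp
    have hxx : ((2 : ℝ) • q - 1) * ((2 : ℝ) • q - 1 : H →L[ℂ] H) = 1 := by
      rw [sub_mul, mul_sub, mul_sub, smul_mul_smul_comm, hq.isIdempotentElem.eq]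
      simp only [mul_one, one_mul]
      module
    rw [← inner_self_re, inner_sa hx, ← mul_apply_eq_comp, hxx, one_apply_eq_self, inner_self_re]
  rw [one_mul]
  exact le_of_sq_le_sq h1.le (norm_nonneg _)

/-- The lower bound: uniform `(ε, r)` so-pavability forces `1 / r ≤ ε`. -/
theorem le_of_soPavable [Nontrivial H] (hA : IsMASA A M) (hne : NowhereExpected A M) {r : ℕ}
    (hr : 0 < r) {ε : ℝ} (hε : 0 < ε)
    (hpav : ∀ x ∈ M, IsSelfAdjoint x → SoPavable A M ε r x) : 1 / (r : ℝ) ≤ ε := by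
  classical
  by_contra hcon
  push Not at hcon
  have hr0 : (0 : ℝ) < r := by exact_mod_cast hr
  set γ : ℝ := 1 / r - ε with hγ
  have hγpos : 0 < γ := by rw [hγ]; linarith
  obtain ⟨Ω, hΩ⟩ : ∃ Ω : H, ‖Ω‖ = 1 := by
    obtain ⟨v, hv⟩ := exists_ne (0 : H)
    refine ⟨(‖v‖⁻¹ : ℂ) • v, ?_⟩
    rw [norm_smul, norm_inv, Complex.norm_real, norm_norm, inv_mul_cancel₀ (norm_ne_zero_iff.2 hv)]
  obtain ⟨q, hqM, hq, hqF, f, hf⟩ := exists_spread hA hne {Ω} (show 0 < γ / 8 by positivity)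
    (show 0 < γ / 4 by positivity)
  have hqΩ : ‖(1 - q) Ω‖ < γ / 8 := hqF Ω (by simp)
  set x : H →L[ℂ] H := (2 : ℝ) • q - 1 with hx
  have hxM : x ∈ M := by
    apply sub_mem _ (one_mem _)
    exact M.toStarSubalgebra.smul_mem hqM (2 : ℂ)
  have hxsa : IsSelfAdjoint x := by
    apply IsSelfAdjoint.sub _ (IsSelfAdjoint.one _)
    rw [isSelfAdjoint_iff, star_smul, hq.isSelfAdjoint.star_eq]; simp
  have hxn : ‖x‖ ≤ 1 := norm_two_smul_sub_one_le hq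
  set K : ℝ := (Fintype.card f.ι : ℝ) with hK
  have hK0 : 0 ≤ K := by positivity
  set δ2 : ℝ := γ / (8 * (K + 1)) with hδ2
  have hδ2pos : 0 < δ2 := by positivity
  obtain ⟨p, a, e, hp, ⟨haA, hasa, han⟩, ⟨heM, he⟩, heF, hbd⟩ := hpav x hxM hxsa
    (insert Ω (Finset.univ.image fun s => f.f s Ω)) δ2 hδ2pos
  set P : Part A := ⟨Fin r, p, hp⟩ with hP
  have hPx : pinching p x = P.pinch x := rfl
  set T : H →L[ℂ] H := pinching p x - a with hT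
  have hTn : ‖T‖ ≤ 2 := by
    calc ‖T‖ ≤ ‖pinching p x‖ + ‖a‖ := norm_sub_le _ _
      _ ≤ ‖x‖ + ‖x‖ := add_le_add (P.norm_pinch_le x) han
      _ ≤ 2 := by linarith
  have hTe : ‖e * T * e‖ ≤ ε := by
    calc ‖e * T * e‖ ≤ ε * ‖x‖ := hbd
      _ ≤ ε * 1 := by gcongr
      _ = ε := mul_one _
  -- (i)
  have h1 : (⟪T Ω, Ω⟫_ℂ).re ≤ ε + 4 * δ2 := by
    have h2 := re_inner_compress he hTn hTe (heF Ω (Finset.mem_insert_self _ _)).le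
    rw [hΩ] at h2
    have := le_abs_self (⟪T Ω, Ω⟫_ℂ).re
    linarith
  -- (ii)
  have h2 : -(ε + 4 * δ2 * K) ≤ (⟪f.pinch T Ω, Ω⟫_ℂ).re := by
    rw [Part.inner_pinch]
    have h3 : ∀ s, -(ε * ‖f.f s Ω‖ ^ 2 + 4 * δ2) ≤ (⟪T (f.f s Ω), f.f s Ω⟫_ℂ).re := by
      intro s
      have h4 := re_inner_compress he hTn hTe
        (heF (f.f s Ω) (Finset.mem_insert_of_mem (Finset.mem_image_of_mem _ (Finset.mem_univ s)))).le
      have h5 : ‖f.f s Ω‖ ≤ 1 := by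
        have := norm_proj_apply_le (f.isPart.proj s) Ω
        rwa [hΩ] at this
      have h6 := neg_abs_le (⟪T (f.f s Ω), f.f s Ω⟫_ℂ).re
      have h7 : 2 * 2 * δ2 * ‖f.f s Ω‖ ≤ 4 * δ2 := by nlinarith
      linarith
    calc -(ε + 4 * δ2 * K) = ∑ s, -(ε * ‖f.f s Ω‖ ^ 2 + 4 * δ2) := by
          rw [Finset.sum_neg_distrib, Finset.sum_add_distrib, ← Finset.mul_sum, f.sum_norm_sq, hΩ,
            Finset.sum_const, Finset.card_univ, nsmul_eq_mul]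
          ring
      _ ≤ _ := Finset.sum_le_sum fun s _ => h3 s
  have h3 : f.pinch T = P.pinch (f.pinch x) - a := by
    rw [hT, Part.pinch_sub, hPx, Part.pinch_comm hA.isComm, f.pinch_of_mem hA.isComm haA]
  have h4 : P.pinch (f.pinch x) ≤ (γ / 2 - 1) • (1 : H →L[ℂ] H) := by
    have h5 : f.pinch x ≤ (γ / 2 - 1) • (1 : H →L[ℂ] H) := by
      rw [hx, Part.pinch_sub, Part.pinch_smul_real, Part.pinch_one]
      have h6 := smul_le_smul_of_nonneg_left hf (show (0 : ℝ) ≤ 2 by norm_num)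
      rw [smul_smul, show (2 : ℝ) * (γ / 4) = γ / 2 by ring] at h6
      rw [sub_smul, one_smul]
      exact sub_le_sub_right h6 1
    have := P.pinch_mono h5
    rwa [Part.pinch_smul_one] at this
  have h5 : (⟪f.pinch T Ω, Ω⟫_ℂ).re ≤ (γ / 2 - 1) - (⟪a Ω, Ω⟫_ℂ).re := by
    rw [h3, sub_apply, inner_sub_left, Complex.sub_re]
    have h6 := re_inner_mono h4 Ω
    rw [smul_apply, one_apply_eq_self, show ((γ / 2 - 1) • Ω : H) = ((γ / 2 - 1 : ℝ) : ℂ) • Ω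
      from (Complex.coe_smul _ _).symm, inner_smul_left, Complex.conj_ofReal,
      Complex.re_ofReal_mul, inner_self_re, hΩ] at h6
    linarith
  have h6 : (⟪T Ω, Ω⟫_ℂ).re = 2 * (⟪P.pinch q Ω, Ω⟫_ℂ).re - 1 - (⟪a Ω, Ω⟫_ℂ).re := by
    rw [hT, hPx, hx, Part.pinch_sub, Part.pinch_smul_real, Part.pinch_one]
    simp only [sub_apply, inner_sub_left, Complex.sub_re, smul_apply, one_apply_eq_self]
    rw [show ((2 : ℝ) • P.pinch q Ω : H) = ((2 : ℝ) : ℂ) • P.pinch q Ω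
      from (Complex.coe_smul _ _).symm, inner_smul_left, Complex.conj_ofReal,
      Complex.re_ofReal_mul, inner_self_re, hΩ]
    ring
  have h7 : (1 - γ / 8) ^ 2 ≤ r * (⟪P.pinch q Ω, Ω⟫_ℂ).re := by
    have h8 : (⟪P.pinch q Ω, Ω⟫_ℂ).re = ∑ i, ‖q (p i Ω)‖ ^ 2 := by
      rw [Part.inner_pinch]
      exact Finset.sum_congr rfl fun i _ => re_inner_proj hq _
    have h9 : q Ω = ∑ i, q (p i Ω) := by
      rw [← map_sum, ← _root_.sum_apply, hp.sum_eq, one_apply_eq_self]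
    have h10 : ‖q Ω‖ ^ 2 ≤ r * ∑ i, ‖q (p i Ω)‖ ^ 2 := by
      calc ‖q Ω‖ ^ 2 = ‖∑ i, q (p i Ω)‖ ^ 2 := by rw [h9]
        _ ≤ (∑ i, ‖q (p i Ω)‖) ^ 2 := by gcongr; exact norm_sum_le _ _
        _ ≤ (Finset.univ : Finset (Fin r)).card * ∑ i, ‖q (p i Ω)‖ ^ 2 :=
            sq_sum_le_card_mul_sum_sq
        _ = r * ∑ i, ‖q (p i Ω)‖ ^ 2 := by simp
    have h11 : 1 - γ / 8 ≤ ‖q Ω‖ := by
      have h12 : ‖Ω‖ ≤ ‖q Ω‖ + ‖(1 - q) Ω‖ := by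
        calc ‖Ω‖ = ‖q Ω + (1 - q) Ω‖ := by
              congr 1
              simp
          _ ≤ _ := norm_add_le _ _
      rw [hΩ] at h12
      linarith
    have hγ1 : γ ≤ 1 := by
      have : (1 : ℝ) / r ≤ 1 := by
        rw [div_le_one hr0]; exact_mod_cast hr
      rw [hγ]; linarith
    rw [h8]
    refine le_trans ?_ h10
    have h13 : (0 : ℝ) ≤ 1 - γ / 8 := by linarith
    exact pow_le_pow_left₀ h13 h11 2
  -- conclude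
  have h8 : (⟪P.pinch q Ω, Ω⟫_ℂ).re ≤ ε + γ / 4 + 2 * δ2 * (K + 1) := by linarith
  have h9 : 2 * δ2 * (K + 1) = γ / 4 := by
    rw [hδ2]; field_simp; ring
  have h10 : (1 - γ / 8) ^ 2 ≤ r * (ε + γ / 4 + γ / 4) := by
    calc (1 - γ / 8) ^ 2 ≤ r * (⟪P.pinch q Ω, Ω⟫_ℂ).re := h7
      _ ≤ r * (ε + γ / 4 + γ / 4) := by
          gcongr
          linarith
  have h11 : (r : ℝ) * (ε + γ) = 1 := by
    rw [hγ]; field_simp; ring
  have hr1 : (1 : ℝ) ≤ r := by exact_mod_cast hr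
  nlinarith [sq_nonneg γ, mul_pos hr0 hγpos]

end Vale.Agent.P078
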