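import Mathlib
import Vale.Agent.P078.Lower

/-!
# P078: random signs
-/

set_option linter.unusedSectionVars false

namespace Vale.Agent.P078

open scoped ComplexOrder InnerProductSpace
open ContinuousLinearMap Filter Topology

section Abstract

variable {H : Type*} [NormedAddCommGroup H] [InnerProductSpace ℂ H]
variable {Λ : Type*} [Fintype Λ] [DecidableEq Λ]

/-- The sign attached to a colour. -/
def sgn (i : Fin 2) : ℝ := if i = 0 then 1 else -1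

lemma sgn_mul_self (i : Fin 2) : sgn i * sgn i = 1 := by
  unfold sgn; split_ifs <;> norm_num

lemma abs_sgn (i : Fin 2) : |sgn i| = 1 := by
  unfold sgn; split_ifs <;> norm_num

lemma sgn_mul (c : Λ → Fin 2) (a : Λ × Λ) :
    sgn (c a.1) * sgn (c a.2) = (if a.1 = a.2 then 1 else 0) + 2 * theta 2 c a := by
  unfold theta
  by_cases h : a.1 = a.2
  · simp [h, sgn_mul_self]
  · have h2 : ∀ i j : Fin 2, sgn i * sgn j = 2 * ((if i = j then 1 else 0) - 1 / (2 : ℝ)) := by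
      intro i j
      fin_cases i <;> fin_cases j <;> norm_num [sgn]
    simp only [h, if_false, zero_add]
    rw [h2]
    norm_num

lemma sum_sgn_mul_eq_zero {τ τ' : Λ} (h : τ ≠ τ') :
    ∑ c : Λ → Fin 2, sgn (c τ) * sgn (c τ') = 0 := by
  rw [← Equiv.sum_comp (Equiv.funSplitAt τ (Fin 2)).symm, Fintype.sum_prod_type_right]
  apply Finset.sum_eq_zero
  intro c' _
  have h1 : ∀ i : Fin 2, sgn ((Equiv.funSplitAt τ (Fin 2)).symm (i, c') τ) *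
      sgn ((Equiv.funSplitAt τ (Fin 2)).symm (i, c') τ') = sgn i * sgn (c' ⟨τ', h.symm⟩) := by
    intro i
    simp [Equiv.funSplitAt_symm_apply, h.symm]
  simp only [h1, ← Finset.sum_mul]
  simp [sgn, Fin.sum_univ_two]

/-- Second moment of random signs. -/
theorem sign_moment (v : Λ → H) :
    ∑ c : Λ → Fin 2, ‖∑ τ, (sgn (c τ) : ℂ) • v τ‖ ^ 2 =
      (Fintype.card (Λ → Fin 2) : ℝ) * ∑ τ, ‖v τ‖ ^ 2 := by
  have hsq : ∀ x : H, (⟪x, x⟫_ℂ).re = ‖x‖ ^ 2 := by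
    intro x
    rw [inner_self_eq_norm_sq_to_K]
    norm_cast
  have hexp : ∀ c : Λ → Fin 2, ‖∑ τ, (sgn (c τ) : ℂ) • v τ‖ ^ 2
      = ∑ τ, ∑ τ', (sgn (c τ) * sgn (c τ')) * (⟪v τ, v τ'⟫_ℂ).re := by
    intro c
    rw [← hsq, sum_inner, Complex.re_sum]
    refine Finset.sum_congr rfl fun a _ => ?_
    rw [inner_sum, Complex.re_sum]
    refine Finset.sum_congr rfl fun b _ => ?_
    rw [inner_smul_left, inner_smul_right, Complex.conj_ofReal, Complex.re_ofReal_mul,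
      Complex.re_ofReal_mul]
    ring
  simp only [hexp]
  rw [Finset.sum_comm, Finset.mul_sum]
  refine Finset.sum_congr rfl fun τ _ => ?_
  rw [Finset.sum_comm, Finset.sum_eq_single τ]
  · simp only [sgn_mul_self, one_mul, hsq]
    simp
  · intro τ' _ hne
    rw [← Finset.sum_mul, sum_sgn_mul_eq_zero (Ne.symm hne), zero_mul]
  · simp

end Abstract

variable {H : Type*} [NormedAddCommGroup H] [InnerProductSpace ℂ H] [CompleteSpace H]
variable {A : StarSubalgebra ℂ (H →L[ℂ] H)} {M : VonNeumannAlgebra H}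

/-- The symmetry `∑ ± e_τ`. -/
noncomputable def symm (e : Part A) (c : e.ι → Fin 2) : H →L[ℂ] H :=
  ∑ τ, (sgn (c τ) : ℂ) • e.f τ

lemma symm_mem (e : Part A) (c : e.ι → Fin 2) : symm e c ∈ A := by
  unfold symm
  exact sum_mem fun τ _ => A.smul_mem (e.isPart.mem τ) _

lemma symm_sa (e : Part A) (c : e.ι → Fin 2) : IsSelfAdjoint (symm e c) := by
  rw [isSelfAdjoint_iff]
  unfold symm
  rw [star_sum]
  refine Finset.sum_congr rfl fun τ _ => ?_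
  rw [star_smul, (e.f_sa τ).star_eq, Complex.star_def, Complex.conj_ofReal]

/-- `w T w` is the pinching of `T` plus an off-diagonal part. -/
lemma symm_conj (e : Part A) [DecidableEq e.ι] (c : e.ι → Fin 2) (T : H →L[ℂ] H) :
    symm e c * T * symm e c = e.pinch T + (2 : ℂ) • offDiag e T c := by
  have h1 : symm e c * T * symm e c
      = ∑ a : e.ι × e.ι, ((sgn (c a.1) * sgn (c a.2) : ℝ) : ℂ) • (e.f a.1 * T * e.f a.2) := by
    unfold symm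
    rw [Finset.sum_mul, Finset.sum_mul_sum, Fintype.sum_prod_type]
    refine Finset.sum_congr rfl fun s _ => Finset.sum_congr rfl fun t _ => ?_
    simp only [smul_mul_assoc, mul_smul_comm, smul_smul, Complex.ofReal_mul]
    rw [mul_comm (sgn (c t) : ℂ)]
  rw [h1, ← e.pinch_blocks T]
  unfold offDiag
  rw [Finset.smul_sum, ← Finset.sum_add_distrib]
  refine Finset.sum_congr rfl fun a _ => ?_
  rw [smul_smul, ← add_smul, sgn_mul]
  congr 1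
  push_cast
  split_ifs <;> simp

lemma symm_sq (e : Part A) (c : e.ι → Fin 2) : symm e c * symm e c = 1 := by
  classical
  unfold symm
  rw [Finset.sum_mul_sum, ← e.isPart.sum_eq]
  refine Finset.sum_congr rfl fun s _ => ?_
  rw [Finset.sum_eq_single s]
  · rw [smul_mul_smul_comm, e.f_idem, ← Complex.ofReal_mul, sgn_mul_self]
    simp
  · intro t _ hts
    rw [smul_mul_smul_comm, e.isPart.orth s t (Ne.symm hts), smul_zero]
  · simp

lemma Part.norm_f_apply_sq_sum (e : Part A) (ξ : H) : ∑ τ, ‖e.f τ ξ‖ ^ 2 = ‖ξ‖ ^ 2 :=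
  e.sum_norm_sq ξ

lemma sum_offDiag_le {e : Part A} [DecidableEq e.ι] {q : H →L[ℂ] H} (hq : IsStarProjection q)
    {κ : ℝ} (hκ : 0 ≤ κ) (he : e.pinch q ≤ κ • (1 : H →L[ℂ] H)) (x : H →L[ℂ] H) {r : ℕ}
    (hr : 0 < r) (ξ : H) :
    ∑ c : e.ι → Fin r, ‖(q * offDiag e x c * q) ξ‖ ^ 2 ≤
      (Fintype.card (e.ι → Fin r) : ℝ) * (2 * κ * ‖x‖ ^ 2 * ‖ξ‖ ^ 2) := by
  have h1 := moment_bound hr (fun a : e.ι × e.ι => q (e.f a.1 (x (e.f a.2 (q ξ)))))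
  have h2 : ∀ c : e.ι → Fin r, (q * offDiag e x c * q) ξ
      = ∑ a, (theta r c a : ℂ) • q (e.f a.1 (x (e.f a.2 (q ξ)))) := by
    intro c
    unfold offDiag
    simp only [mul_apply_eq_comp, _root_.sum_apply, map_sum, smul_apply, map_smul]
  simp only [h2]
  refine h1.trans ?_
  have h3 : ∑ a : e.ι × e.ι, ‖q (e.f a.1 (x (e.f a.2 (q ξ))))‖ ^ 2 ≤ κ * ‖x‖ ^ 2 * ‖ξ‖ ^ 2 := by
    rw [Fintype.sum_prod_type_right]
    calc ∑ t, ∑ s, ‖q (e.f s (x (e.f t (q ξ))))‖ ^ 2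
        ≤ ∑ t, ∑ s, κ * ‖e.f s (x (e.f t (q ξ)))‖ ^ 2 :=
          Finset.sum_le_sum fun t _ => Finset.sum_le_sum fun s _ =>
            spread_bound hq he s _
      _ = ∑ t, κ * ‖x (e.f t (q ξ))‖ ^ 2 := by
          refine Finset.sum_congr rfl fun t _ => ?_
          rw [← Finset.mul_sum, e.sum_norm_sq]
      _ ≤ ∑ t, κ * (‖x‖ * ‖e.f t (q ξ)‖) ^ 2 := by
          apply Finset.sum_le_sum
          intro t _
          gcongr
          exact le_opNorm _ _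
      _ = κ * ‖x‖ ^ 2 * ‖q ξ‖ ^ 2 := by
          rw [← e.sum_norm_sq (q ξ), Finset.mul_sum]
          exact Finset.sum_congr rfl fun t _ => by ring
      _ ≤ κ * ‖x‖ ^ 2 * ‖ξ‖ ^ 2 := by
          gcongr
          exact norm_proj_apply_le hq ξ
  calc (Fintype.card (e.ι → Fin r) : ℝ) *
        (2 * ∑ a : e.ι × e.ι, ‖q (e.f a.1 (x (e.f a.2 (q ξ))))‖ ^ 2)
      ≤ (Fintype.card (e.ι → Fin r) : ℝ) * (2 * (κ * ‖x‖ ^ 2 * ‖ξ‖ ^ 2)) := by gcongr
    _ = _ := by ring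

/-- Random signs: all error terms are simultaneously small. -/
theorem exists_signs {e : Part A} [DecidableEq e.ι] {q : H →L[ℂ] H} (hq : IsStarProjection q)
    {κ κT : ℝ} (hκ : 0 ≤ κ) (he : e.pinch q ≤ κ • (1 : H →L[ℂ] H)) (T : H →L[ℂ] H)
    (hκT : 0 ≤ κT) (hT : ∀ τ w, ‖q (T (e.f τ w))‖ ^ 2 ≤ κT * ‖e.f τ w‖ ^ 2) (F : Finset H) :
    ∃ c : e.ι → Fin 2, ∀ ξ ∈ F,
      ‖(q * offDiag e T c * q) ξ‖ ^ 2 ≤
        (3 * κ * ‖T‖ ^ 2 + κT) * ∑ ζ ∈ F, ‖ζ‖ ^ 2 ∧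
      ‖(q * (T * symm e c) * q) ξ‖ ^ 2 ≤
        (3 * κ * ‖T‖ ^ 2 + κT) * ∑ ζ ∈ F, ‖ζ‖ ^ 2 ∧
      ‖(q * (symm e c * T) * q) ξ‖ ^ 2 ≤
        (3 * κ * ‖T‖ ^ 2 + κT) * ∑ ζ ∈ F, ‖ζ‖ ^ 2 := by
  classical
  set N : ℝ := (Fintype.card (e.ι → Fin 2) : ℝ) with hN
  have h1 := fun ξ => sum_offDiag_le hq hκ he T (show 0 < 2 by norm_num) ξ
  have h2 : ∀ ξ : H, ∑ c : e.ι → Fin 2, ‖(q * (T * symm e c) * q) ξ‖ ^ 2 ≤
      N * (κT * ‖ξ‖ ^ 2) := by
    intro ξ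
    have e1 : ∀ c : e.ι → Fin 2, (q * (T * symm e c) * q) ξ
        = ∑ τ, (sgn (c τ) : ℂ) • q (T (e.f τ (q ξ))) := by
      intro c
      unfold symm
      simp only [mul_apply_eq_comp, _root_.sum_apply, map_sum, smul_apply, map_smul]
    simp only [e1]
    rw [sign_moment (fun τ => q (T (e.f τ (q ξ))))]
    apply mul_le_mul_of_nonneg_left _ (by positivity)
    calc ∑ τ, ‖q (T (e.f τ (q ξ)))‖ ^ 2 ≤ ∑ τ, κT * ‖e.f τ (q ξ)‖ ^ 2 :=
          Finset.sum_le_sum fun τ _ => hT τ _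
      _ = κT * ‖q ξ‖ ^ 2 := by rw [← Finset.mul_sum, e.sum_norm_sq]
      _ ≤ κT * ‖ξ‖ ^ 2 := by gcongr; exact norm_proj_apply_le hq ξ
  have h3 : ∀ ξ : H, ∑ c : e.ι → Fin 2, ‖(q * (symm e c * T) * q) ξ‖ ^ 2 ≤
      N * (κ * ‖T‖ ^ 2 * ‖ξ‖ ^ 2) := by
    intro ξ
    have e1 : ∀ c : e.ι → Fin 2, (q * (symm e c * T) * q) ξ
        = ∑ τ, (sgn (c τ) : ℂ) • q (e.f τ (T (q ξ))) := by
      intro c
      unfold symm
      simp only [mul_apply_eq_comp, _root_.sum_apply, map_sum, smul_apply, map_smul]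
    simp only [e1]
    rw [sign_moment (fun τ => q (e.f τ (T (q ξ))))]
    apply mul_le_mul_of_nonneg_left _ (by positivity)
    calc ∑ τ, ‖q (e.f τ (T (q ξ)))‖ ^ 2 ≤ ∑ τ, κ * ‖e.f τ (T (q ξ))‖ ^ 2 :=
          Finset.sum_le_sum fun τ _ => spread_bound hq he τ _
      _ = κ * ‖T (q ξ)‖ ^ 2 := by rw [← Finset.mul_sum, e.sum_norm_sq]
      _ ≤ κ * (‖T‖ * ‖ξ‖) ^ 2 := by
          gcongr
          exact (le_opNorm _ _).trans (by gcongr; exact norm_proj_apply_le hq ξ)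
      _ = κ * ‖T‖ ^ 2 * ‖ξ‖ ^ 2 := by ring
  set S : ℝ := ∑ ζ ∈ F, ‖ζ‖ ^ 2 with hS
  have hsum : ∑ c : e.ι → Fin 2, (∑ ξ ∈ F, (‖(q * offDiag e T c * q) ξ‖ ^ 2 +
      ‖(q * (T * symm e c) * q) ξ‖ ^ 2 + ‖(q * (symm e c * T) * q) ξ‖ ^ 2)) ≤
      ∑ _c : e.ι → Fin 2, (3 * κ * ‖T‖ ^ 2 + κT) * S := by
    rw [Finset.sum_comm, Finset.sum_const, Finset.card_univ, nsmul_eq_mul, hS, Finset.mul_sum,
      Finset.mul_sum]
    apply Finset.sum_le_sum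
    intro ξ _
    rw [Finset.sum_add_distrib, Finset.sum_add_distrib]
    have := h1 ξ
    have := h2 ξ
    have := h3 ξ
    calc _ ≤ N * (2 * κ * ‖T‖ ^ 2 * ‖ξ‖ ^ 2) + N * (κT * ‖ξ‖ ^ 2) +
          N * (κ * ‖T‖ ^ 2 * ‖ξ‖ ^ 2) := by linarith
      _ = _ := by ring
  obtain ⟨c, -, hc⟩ := Finset.exists_le_of_sum_le Finset.univ_nonempty hsum
  refine ⟨c, fun ξ hξ => ?_⟩
  have h4 := Finset.single_le_sum (f := fun ξ => (‖(q * offDiag e T c * q) ξ‖ ^ 2 +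
      ‖(q * (T * symm e c) * q) ξ‖ ^ 2 + ‖(q * (symm e c * T) * q) ξ‖ ^ 2))
    (fun _ _ => by positivity) hξ
  have h5 := sq_nonneg ‖(q * offDiag e T c * q) ξ‖
  have h6 := sq_nonneg ‖(q * (T * symm e c) * q) ξ‖
  have h7 := sq_nonneg ‖(q * (symm e c * T) * q) ξ‖
  refine ⟨by linarith, by linarith, by linarith⟩

end Vale.Agent.P078
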