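import Mathlib
import Vale.Agent.P078.Signs

/-!
# P078: the exact upper bound `(1 / r, r)`
-/

set_option linter.unusedSectionVars false

namespace Vale.Agent.P078

open scoped ComplexOrder InnerProductSpace
open ContinuousLinearMap Filter Topology

variable {H : Type*} [NormedAddCommGroup H] [InnerProductSpace ℂ H] [CompleteSpace H]
variable {A : StarSubalgebra ℂ (H →L[ℂ] H)} {M : VonNeumannAlgebra H}

lemma proj_sub_apply {q : H →L[ℂ] H} (ζ : H) : ζ = q ζ + (1 - q) ζ := by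
  simp

lemma pinch_le_of_spread {e : Part A} {q : H →L[ℂ] H} (hq : IsStarProjection q) {κ : ℝ}
    (h : ∀ τ w, ‖q (e.f τ w)‖ ^ 2 ≤ κ * ‖e.f τ w‖ ^ 2) :
    e.pinch q ≤ κ • (1 : H →L[ℂ] H) := by
  apply le_of_re_inner (e.pinch_sa hq.isSelfAdjoint)
  · rw [isSelfAdjoint_iff, star_smul]; simp
  · intro ξ
    rw [Part.inner_pinch, smul_apply, one_apply_eq_self, show (κ • ξ : H) = ((κ : ℝ) : ℂ) • ξ
      from (Complex.coe_smul _ _).symm, inner_smul_left, Complex.conj_ofReal,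
      Complex.re_ofReal_mul, inner_self_re]
    calc ∑ s, (⟪q (e.f s ξ), e.f s ξ⟫_ℂ).re = ∑ s, ‖q (e.f s ξ)‖ ^ 2 :=
          Finset.sum_congr rfl fun s _ => re_inner_proj hq _
      _ ≤ ∑ s, κ * ‖e.f s ξ‖ ^ 2 := Finset.sum_le_sum fun s _ => h s ξ
      _ = κ * ‖ξ‖ ^ 2 := by rw [← Finset.mul_sum, e.sum_norm_sq]

lemma norm_le_of_star {T : H →L[ℂ] H} {C : ℝ} (h : ‖T‖ ≤ C) : ‖star T‖ ≤ C := by
  rwa [norm_star]

lemma norm_mul_proj_le {T q : H →L[ℂ] H} (hq : IsStarProjection q) {C : ℝ} (hC : 0 ≤ C)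
    (h : ∀ ζ, q ζ = ζ → ‖T ζ‖ ≤ C * ‖ζ‖) : ‖T * q‖ ≤ C := by
  apply opNorm_le_bound _ hC
  intro ξ
  rw [mul_apply_eq_comp]
  have h1 : q (q ξ) = q ξ := by rw [← mul_apply_eq_comp, hq.isIdempotentElem.eq]
  exact (h _ h1).trans (by gcongr; exact norm_proj_apply_le hq ξ)

/-- Stage one: `T` is, compressed by `q₁`, strongly close to `(1/r)(x - t² a₀)`. -/
lemma stage_one (hA : IsMASA A M) (hne : NowhereExpected A M) {U : Ultrafilter (Part A)}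
    (hU : Cofinal A U) {r : ℕ} (hr : 0 < r) {x : H →L[ℂ] H} (hx : x ∈ M)
    (F : Finset H) {δ m : ℝ} (hδ : 0 < δ) (hm : 0 < m) :
    ∃ (q : H →L[ℂ] H) (e : Part A) (c : e.ι → Fin r), q ∈ M ∧ IsStarProjection q ∧
      (∀ ξ ∈ F, ‖(1 - q) ξ‖ < δ) ∧
      ∀ ξ ∈ F, ‖(q * (pinching (colour e c) x - ((1 / r : ℝ) : ℂ) • x
        - ((1 - 1 / r : ℝ) : ℂ) • Phi U x) * q) ξ‖ ≤ m := by
  classical
  set S : ℝ := ∑ ξ ∈ F, ‖ξ‖ ^ 2 + 1 with hS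
  have hSpos : 0 < S := by positivity
  have hFS : ∀ ξ ∈ F, ‖ξ‖ ^ 2 ≤ S := by
    intro ξ hξ
    have := Finset.single_le_sum (f := fun ξ : H => ‖ξ‖ ^ 2) (fun _ _ => sq_nonneg _) hξ
    linarith
  set κ : ℝ := m ^ 2 / (64 * (‖x‖ + 1) ^ 2 * S) with hκ
  have hκpos : 0 < κ := by positivity
  have hκeq : 64 * κ * (‖x‖ + 1) ^ 2 * S = m ^ 2 := by
    rw [hκ]; field_simp
  have hxx : ‖x‖ ^ 2 ≤ (‖x‖ + 1) ^ 2 := by nlinarith [norm_nonneg x]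
  have hκx : 64 * κ * ‖x‖ ^ 2 * S ≤ m ^ 2 := by
    rw [← hκeq]; gcongr
  obtain ⟨q, hqM, hq, hqF, f, hf⟩ := exists_spread hA hne F hδ hκpos
  obtain ⟨e, hfe, he⟩ := diag_estimate hA hU hq hκpos.le hf hx F
    (show 0 < m ^ 2 / 16 by positivity)
  have heq : e.pinch q ≤ κ • (1 : H →L[ℂ] H) := Part.pinch_le_of_le hA.isComm hfe hf
  obtain ⟨c, hc⟩ := exists_colouring hq hκpos.le heq x hr F
  refine ⟨q, e, c, hqM, hq, hqF, ?_⟩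
  intro ξ hξ
  set s : ℝ := 1 - 1 / r with hs
  have hr0 : (0 : ℝ) < r := by exact_mod_cast hr
  have hr1 : (1 : ℝ) / r ≤ 1 := by
    rw [div_le_one hr0]; exact_mod_cast hr
  have hr2 : (0 : ℝ) ≤ 1 / r := by positivity
  have hs0 : 0 ≤ s := by rw [hs]; linarith
  have hs1 : s ≤ 1 := by rw [hs]; linarith
  have e0 : pinching (colour e c) x - ((1 / r : ℝ) : ℂ) • x - (s : ℂ) • Phi U x
      = (s : ℂ) • (e.pinch x - Phi U x) + offDiag e x c := by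
    rw [pinching_colour_eq, hs, smul_sub]
    abel
  rw [e0]
  have e1 : (q * ((s : ℂ) • (e.pinch x - Phi U x) + offDiag e x c) * q) ξ
      = (s : ℂ) • (q * (e.pinch x - Phi U x) * q) ξ + (q * offDiag e x c * q) ξ := by
    simp only [mul_add, add_mul, add_apply, mul_smul_comm, smul_mul_assoc, smul_apply]
  rw [e1]
  have h1 : ‖(q * (e.pinch x - Phi U x) * q) ξ‖ ≤ m / 2 := by
    have h2 := he ξ hξ
    have h3 : 4 * κ * ‖x‖ ^ 2 * ‖ξ‖ ^ 2 ≤ 4 * κ * ‖x‖ ^ 2 * S := by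
      gcongr; exact hFS ξ hξ
    have h4 : ‖(q * (e.pinch x - Phi U x) * q) ξ‖ ^ 2 ≤ (m / 2) ^ 2 := by
      calc _ ≤ _ := h2
        _ ≤ (m / 2) ^ 2 := by nlinarith [sq_nonneg m]
    exact le_of_sq_le_sq h4 (by positivity)
  have h2 : ‖(q * offDiag e x c * q) ξ‖ ≤ m / 2 := by
    have h3 := hc ξ hξ
    have h4 : 2 * κ * ‖x‖ ^ 2 * ∑ ζ ∈ F, ‖ζ‖ ^ 2 ≤ 2 * κ * ‖x‖ ^ 2 * S := by
      gcongr; rw [hS]; linarith
    have h5 : ‖(q * offDiag e x c * q) ξ‖ ^ 2 ≤ (m / 2) ^ 2 := by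
      calc _ ≤ _ := h3
        _ ≤ (m / 2) ^ 2 := by nlinarith [sq_nonneg m]
    exact le_of_sq_le_sq h5 (by positivity)
  calc ‖(s : ℂ) • (q * (e.pinch x - Phi U x) * q) ξ + (q * offDiag e x c * q) ξ‖
      ≤ ‖(s : ℂ) • (q * (e.pinch x - Phi U x) * q) ξ‖ + ‖(q * offDiag e x c * q) ξ‖ :=
        norm_add_le _ _
    _ ≤ 1 * (m / 2) + m / 2 := by
        gcongr
        rw [norm_smul, Complex.norm_real, Real.norm_eq_abs, abs_of_nonneg hs0]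
        gcongr
    _ = m := by ring

/-- Stage two: given an operator `T`, a projection almost below a given one, along which both
`1` and `T` are spread. -/
lemma stage_two (hA : IsMASA A M) (hne : NowhereExpected A M) {T : H →L[ℂ] H} (hTM : T ∈ M)
    (hTsa : IsSelfAdjoint T) {n : ℝ} (hTn : ‖T‖ ≤ 2 * n) (hn : 0 ≤ n) {q1 : H →L[ℂ] H}
    (hq1M : q1 ∈ M) (hq1 : IsStarProjection q1) (F : Finset H)
    {ϑ ρ : ℝ} (hϑ : 0 < ϑ) (hρ : 0 < ρ) (hq1F : ∀ ξ ∈ F, ‖(1 - q1) ξ‖ < ϑ ^ 2 * ρ / 2)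
    (e1 : Part A) :
    ∃ (q2 : H →L[ℂ] H) (f : Part A), q2 ∈ M ∧ IsStarProjection q2 ∧ e1 ≤ f ∧
      (∀ ξ ∈ F, ‖(1 - q2) ξ‖ ≤ ρ) ∧ ‖(1 - q1) * q2‖ ≤ ϑ ∧
      (∀ e : Part A, f ≤ e → ∀ τ w, ‖q2 (e.f τ w)‖ ^ 2 ≤ 4 * ϑ ^ 2 * ‖e.f τ w‖ ^ 2) ∧
      (∀ e : Part A, f ≤ e → ∀ τ w,
        ‖q2 (T (e.f τ w))‖ ^ 2 ≤ ((2 * n + 1) * ϑ) ^ 2 * ‖e.f τ w‖ ^ 2) := by
  classical
  obtain ⟨q0, hq0M, hq0, hq0F, f0, hf0⟩ := exists_spread hA hne (F ∪ F.image T)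
    (show 0 < ϑ ^ 2 * ρ / (2 * (1 + 2 * n)) by positivity) (show 0 < ϑ ^ 2 by positivity)
  obtain ⟨f, hf1, hf2⟩ := Part.exists_le_le hA.isComm e1 f0
  set N : H →L[ℂ] H := (1 - q1) + (1 - q0) + T * (1 - q0) * T with hN
  have h1q1 : IsStarProjection (1 - q1) := hq1.one_sub
  have h1q0 : IsStarProjection (1 - q0) := hq0.one_sub
  have hNsa : IsSelfAdjoint N := by
    apply IsSelfAdjoint.add
    · exact h1q1.isSelfAdjoint.add h1q0.isSelfAdjoint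
    · rw [isSelfAdjoint_iff, star_mul, star_mul, hTsa.star_eq, h1q0.isSelfAdjoint.star_eq,
        mul_assoc]
  have hNM : N ∈ M := by
    apply add_mem (add_mem _ _) _
    · exact sub_mem (one_mem _) hq1M
    · exact sub_mem (one_mem _) hq0M
    · exact mul_mem (mul_mem hTM (sub_mem (one_mem _) hq0M)) hTM
  obtain ⟨q2, z, hq2, hcomm, hsmall, hbig, -, -⟩ := spectral_cut hNsa
    (show 0 < ϑ ^ 2 by positivity)
  have hq2M : q2 ∈ M := by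
    apply mem_of_commute
    intro w hw
    exact hcomm w (hw N hNM)
  -- the three vector estimates
  have hvec : ∀ ζ, q2 ζ = ζ → ‖(1 - q1) ζ‖ ≤ ϑ * ‖ζ‖ ∧ ‖(1 - q0) ζ‖ ≤ ϑ * ‖ζ‖ ∧
      ‖(1 - q0) (T ζ)‖ ≤ ϑ * ‖ζ‖ := by
    intro ζ hζ
    have h1 : (⟪N ζ, ζ⟫_ℂ).re = ‖(1 - q1) ζ‖ ^ 2 + ‖(1 - q0) ζ‖ ^ 2 + ‖(1 - q0) (T ζ)‖ ^ 2 := by
      rw [hN, add_apply, add_apply, inner_add_left, inner_add_left, Complex.add_re,
        Complex.add_re, re_inner_proj h1q1, re_inner_proj h1q0, mul_apply_eq_comp,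
        mul_apply_eq_comp, inner_sa hTsa, re_inner_proj h1q0]
    have h2 : (⟪N ζ, ζ⟫_ℂ).re ≤ (ϑ * ‖ζ‖) ^ 2 := by
      calc (⟪N ζ, ζ⟫_ℂ).re ≤ ‖⟪N ζ, ζ⟫_ℂ‖ := Complex.re_le_norm _
        _ ≤ ‖N ζ‖ * ‖ζ‖ := norm_inner_le_norm _ _
        _ ≤ (ϑ ^ 2 * ‖ζ‖) * ‖ζ‖ := by gcongr; exact hsmall ζ hζ
        _ = (ϑ * ‖ζ‖) ^ 2 := by ring
    rw [h1] at h2
    have h3 := sq_nonneg ‖(1 - q1) ζ‖
    have h4 := sq_nonneg ‖(1 - q0) ζ‖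
    have h5 := sq_nonneg ‖(1 - q0) (T ζ)‖
    refine ⟨le_of_sq_le_sq (by linarith) (by positivity),
      le_of_sq_le_sq (by linarith) (by positivity), le_of_sq_le_sq (by linarith) (by positivity)⟩
  have hn1 : ‖(1 - q1) * q2‖ ≤ ϑ := norm_mul_proj_le hq2 hϑ.le fun ζ hζ => (hvec ζ hζ).1
  have hn2 : ‖(1 - q0) * q2‖ ≤ ϑ := norm_mul_proj_le hq2 hϑ.le fun ζ hζ => (hvec ζ hζ).2.1
  have hn3 : ‖(1 - q0) * T * q2‖ ≤ ϑ :=
    norm_mul_proj_le hq2 hϑ.le fun ζ hζ => by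
      rw [mul_apply_eq_comp]; exact (hvec ζ hζ).2.2
  have hn2' : ‖q2 * (1 - q0)‖ ≤ ϑ := by
    have := norm_le_of_star hn2
    rwa [star_mul, hq2.isSelfAdjoint.star_eq, h1q0.isSelfAdjoint.star_eq] at this
  have hn3' : ‖q2 * (T * (1 - q0))‖ ≤ ϑ := by
    have := norm_le_of_star hn3
    rwa [star_mul, star_mul, hq2.isSelfAdjoint.star_eq, h1q0.isSelfAdjoint.star_eq,
      hTsa.star_eq] at this
  have hq0e : ∀ e : Part A, f ≤ e → ∀ τ w, ‖q0 (e.f τ w)‖ ≤ ϑ * ‖e.f τ w‖ := by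
    intro e he τ w
    have h1 : e.pinch q0 ≤ (ϑ ^ 2) • (1 : H →L[ℂ] H) :=
      Part.pinch_le_of_le hA.isComm (hf2.trans he) hf0
    have h2 := spread_bound hq0 h1 τ w
    apply le_of_sq_le_sq _ (by positivity)
    calc _ ≤ _ := h2
      _ = _ := by ring
  refine ⟨q2, f, hq2M, hq2, hf1, ?_, hn1, ?_, ?_⟩
  · intro ξ hξ
    have h1 := hbig ξ
    have h2 := hq1F ξ hξ
    have h3 := hq0F ξ (Finset.mem_union_left _ hξ)
    have h4 := hq0F (T ξ) (Finset.mem_union_right _ (Finset.mem_image_of_mem _ hξ))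
    set δ0 : ℝ := ϑ ^ 2 * ρ / (2 * (1 + 2 * n)) with hδ0
    have h5 : ‖N ξ‖ ≤ ϑ ^ 2 * ρ := by
      have h6 : ‖T ((1 - q0) (T ξ))‖ ≤ 2 * n * δ0 := by
        calc ‖T ((1 - q0) (T ξ))‖ ≤ ‖T‖ * ‖(1 - q0) (T ξ)‖ := le_opNorm _ _
          _ ≤ 2 * n * δ0 := by gcongr
      calc ‖N ξ‖ = ‖(1 - q1) ξ + (1 - q0) ξ + T ((1 - q0) (T ξ))‖ := by
            rw [hN]; simp only [add_apply, mul_apply_eq_comp]
        _ ≤ ‖(1 - q1) ξ‖ + ‖(1 - q0) ξ‖ + ‖T ((1 - q0) (T ξ))‖ := norm_add₃_le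
        _ ≤ ϑ ^ 2 * ρ / 2 + δ0 + 2 * n * δ0 := by linarith
        _ = ϑ ^ 2 * ρ := by
            rw [hδ0]; field_simp; ring
    have h7 : ϑ ^ 2 * ‖(1 - q2) ξ‖ ≤ ϑ ^ 2 * ρ := h1.trans h5
    exact le_of_mul_le_mul_left h7 (by positivity)
  · intro e he τ w
    set v := e.f τ w with hv
    have h1 : ‖q2 v‖ ≤ 2 * ϑ * ‖v‖ := by
      have e2 : q2 v = q2 (q0 v) + (q2 * (1 - q0)) v := by
        rw [mul_apply_eq_comp, ← map_add, ← proj_sub_apply]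
      rw [e2]
      calc ‖q2 (q0 v) + (q2 * (1 - q0)) v‖ ≤ ‖q2 (q0 v)‖ + ‖(q2 * (1 - q0)) v‖ := norm_add_le _ _
        _ ≤ ‖q0 v‖ + ‖q2 * (1 - q0)‖ * ‖v‖ :=
            add_le_add (norm_proj_apply_le hq2 _) (le_opNorm _ _)
        _ ≤ ϑ * ‖v‖ + ϑ * ‖v‖ := by
            gcongr
            exact hq0e e he τ w
        _ = 2 * ϑ * ‖v‖ := by ring
    calc ‖q2 v‖ ^ 2 ≤ (2 * ϑ * ‖v‖) ^ 2 := by gcongr
      _ = 4 * ϑ ^ 2 * ‖v‖ ^ 2 := by ring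
  · intro e he τ w
    set v := e.f τ w with hv
    have h1 : ‖q2 (T v)‖ ≤ (2 * n + 1) * ϑ * ‖v‖ := by
      have e2 : q2 (T v) = q2 (T (q0 v)) + (q2 * (T * (1 - q0))) v := by
        rw [mul_apply_eq_comp, mul_apply_eq_comp, ← map_add, ← map_add, ← proj_sub_apply]
      rw [e2]
      calc ‖q2 (T (q0 v)) + (q2 * (T * (1 - q0))) v‖
          ≤ ‖q2 (T (q0 v))‖ + ‖(q2 * (T * (1 - q0))) v‖ := norm_add_le _ _
        _ ≤ ‖T (q0 v)‖ + ‖q2 * (T * (1 - q0))‖ * ‖v‖ :=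
            add_le_add (norm_proj_apply_le hq2 _) (le_opNorm _ _)
        _ ≤ ‖T‖ * ‖q0 v‖ + ϑ * ‖v‖ := by
            gcongr
            exact le_opNorm _ _
        _ ≤ (2 * n) * (ϑ * ‖v‖) + ϑ * ‖v‖ := by
            gcongr
            exact hq0e e he τ w
        _ = (2 * n + 1) * ϑ * ‖v‖ := by ring
    calc ‖q2 (T v)‖ ^ 2 ≤ ((2 * n + 1) * ϑ * ‖v‖) ^ 2 := by gcongr
      _ = ((2 * n + 1) * ϑ) ^ 2 * ‖v‖ ^ 2 := by ring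

end Vale.Agent.P078
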