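import Mathlib
import Vale.Agent.P078.Exact

/-!
# P078: the exact upper bound, final assembly
-/

set_option linter.unusedSectionVars false

namespace Vale.Agent.P078

open scoped ComplexOrder InnerProductSpace
open ContinuousLinearMap Filter Topology

variable {H : Type*} [NormedAddCommGroup H] [InnerProductSpace ℂ H] [CompleteSpace H]
variable {A : StarSubalgebra ℂ (H →L[ℂ] H)} {M : VonNeumannAlgebra H}

/-- Pinching by the merged partition and then by a finer one. -/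
lemma pinch_pinching_colour (hA : IsComm A) {e e2 : Part A} (h : e ≤ e2) {r : ℕ}
    (c : e.ι → Fin r) (x : H →L[ℂ] H) :
    e2.pinch (pinching (colour e c) x) = e2.pinch x := by
  classical
  set g : Part A := ⟨Fin r, colour e c, colour_isPartition e c⟩ with hg
  have hge : g ≤ e := by
    rintro (i : Fin r) τ
    change colour e c i * e.f τ = e.f τ ∨ colour e c i * e.f τ = 0
    have h1 : colour e c i * e.f τ = if c τ = i then e.f τ else 0 := by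
      unfold colour
      rw [Finset.sum_mul, Finset.sum_eq_single τ]
      · split_ifs <;> simp [e.f_idem]
      · intro τ' _ hne
        split_ifs
        · exact e.isPart.orth τ' τ hne
        · simp
      · simp
    rw [h1]
    split_ifs
    · left; rfl
    · right; rfl
  exact Part.pinch_pinch hA (hge.trans h) x

/-- Conjugation by a small rotation. -/
lemma rotate_conj {w T : H →L[ℂ] H} (α β : ℂ) :
    (α • (1 : H →L[ℂ] H) - β • w) * T * (α • (1 : H →L[ℂ] H) + β • w)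
      = (α * α) • T + (α * β) • (T * w - w * T) - (β * β) • (w * T * w) := by
  simp only [sub_mul, mul_add, smul_mul_assoc, mul_smul_comm, one_mul, mul_one, smul_smul,
    smul_sub, mul_assoc]
  module

lemma norm_compress_le {q1 q2 R : H →L[ℂ] H} (hq1 : IsStarProjection q1)
    (hq2 : IsStarProjection q2) {ϑ C : ℝ} (hC : ‖R‖ ≤ C) (hϑ : ‖(1 - q1) * q2‖ ≤ ϑ) (ξ : H) :
    ‖(q2 * R * q2) ξ‖ ≤ ‖(q1 * R * q1) ξ‖ + C * ‖(1 - q2) ξ‖ + 2 * (ϑ * C * ‖ξ‖) := by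
  have hC0 : 0 ≤ C := (norm_nonneg _).trans hC
  have hϑ0 : 0 ≤ ϑ := (norm_nonneg _).trans hϑ
  have hϑ' : ‖q2 * (1 - q1)‖ ≤ ϑ := by
    have := norm_le_of_star hϑ
    rwa [star_mul, hq2.isSelfAdjoint.star_eq, hq1.one_sub.isSelfAdjoint.star_eq] at this
  have e1 : (q2 * R * q2) ξ = q2 ((q1 * R * q1) ξ) - q2 (q1 (R (q1 ((1 - q2) ξ))))
      + q2 (q1 (R (((1 - q1) * q2) ξ))) + (q2 * (1 - q1)) (R (q2 ξ)) := by
    simp only [sub_mul, mul_sub, mul_one, one_mul, mul_apply_eq_comp, sub_apply, map_sub,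
      one_apply_eq_self]
    abel
  rw [e1]
  have h1 : ‖q2 ((q1 * R * q1) ξ)‖ ≤ ‖(q1 * R * q1) ξ‖ := norm_proj_apply_le hq2 _
  have h2 : ‖q2 (q1 (R (q1 ((1 - q2) ξ))))‖ ≤ C * ‖(1 - q2) ξ‖ := by
    calc _ ≤ ‖q1 (R (q1 ((1 - q2) ξ)))‖ := norm_proj_apply_le hq2 _
      _ ≤ ‖R (q1 ((1 - q2) ξ))‖ := norm_proj_apply_le hq1 _
      _ ≤ ‖R‖ * ‖q1 ((1 - q2) ξ)‖ := le_opNorm _ _
      _ ≤ C * ‖(1 - q2) ξ‖ := by gcongr; exact norm_proj_apply_le hq1 _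
  have h3 : ‖q2 (q1 (R (((1 - q1) * q2) ξ)))‖ ≤ ϑ * C * ‖ξ‖ := by
    calc _ ≤ ‖q1 (R (((1 - q1) * q2) ξ))‖ := norm_proj_apply_le hq2 _
      _ ≤ ‖R (((1 - q1) * q2) ξ)‖ := norm_proj_apply_le hq1 _
      _ ≤ ‖R‖ * ‖((1 - q1) * q2) ξ‖ := le_opNorm _ _
      _ ≤ C * (ϑ * ‖ξ‖) := by
          gcongr
          exact (le_opNorm _ _).trans (by gcongr)
      _ = ϑ * C * ‖ξ‖ := by ring
  have h4 : ‖(q2 * (1 - q1)) (R (q2 ξ))‖ ≤ ϑ * C * ‖ξ‖ := by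
    calc _ ≤ ‖q2 * (1 - q1)‖ * ‖R (q2 ξ)‖ := le_opNorm _ _
      _ ≤ ϑ * (‖R‖ * ‖q2 ξ‖) := by gcongr; exact le_opNorm _ _
      _ ≤ ϑ * (C * ‖ξ‖) := by gcongr; exact norm_proj_apply_le hq2 _
      _ = ϑ * C * ‖ξ‖ := by ring
  calc _ ≤ ‖q2 ((q1 * R * q1) ξ) - q2 (q1 (R (q1 ((1 - q2) ξ))))
        + q2 (q1 (R (((1 - q1) * q2) ξ)))‖ + ‖(q2 * (1 - q1)) (R (q2 ξ))‖ := norm_add_le _ _
    _ ≤ (‖q2 ((q1 * R * q1) ξ)‖ + ‖q2 (q1 (R (q1 ((1 - q2) ξ))))‖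
        + ‖q2 (q1 (R (((1 - q1) * q2) ξ)))‖) + ‖(q2 * (1 - q1)) (R (q2 ξ))‖ := by
        gcongr
        exact (norm_add_le _ _).trans (by gcongr; exact norm_sub_le _ _)
    _ ≤ _ := by linarith

/-- Small rotations in the algebra generated by a symmetry. -/
lemma exists_rotation {w : H →L[ℂ] H} (hwM : w ∈ M) (hwsa : star w = w) (hww : w * w = 1)
    {t : ℝ} (ht0 : 0 < t) (ht1 : t ≤ 1 / 2) :
    ∃ (u : H →L[ℂ] H) (γ : ℂ), u ∈ M ∧ star u * u = 1 ∧ u * star u = 1 ∧ ‖γ‖ ≤ 1 ∧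
      (∀ ξ, ‖star u ξ - ξ‖ ≤ 2 * (t * ‖ξ‖)) ∧
      ∀ T : H →L[ℂ] H, star u * T * u = ((1 - t ^ 2 : ℝ) : ℂ) • T + γ • (T * w - w * T)
        + ((t ^ 2 : ℝ) : ℂ) • (w * T * w) := by
  set c1 : ℝ := Real.sqrt (1 - t ^ 2) with hc1
  have htt : t ^ 2 ≤ 1 / 4 := by nlinarith
  have htt0 : 0 < t ^ 2 := by positivity
  have hc1sq : c1 ^ 2 = 1 - t ^ 2 := Real.sq_sqrt (by linarith)
  have hc10 : 0 ≤ c1 := Real.sqrt_nonneg _
  have hc11 : c1 ≤ 1 := by nlinarith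
  have hc12 : 1 - c1 ≤ t := by nlinarith
  have hwn : ‖w‖ ≤ 1 := by
    have h1 : ‖w‖ * ‖w‖ = ‖star w * w‖ := (CStarRing.norm_star_mul_self).symm
    rw [hwsa, hww] at h1
    have h2 : ‖(1 : H →L[ℂ] H)‖ ≤ 1 := norm_id_le
    nlinarith [norm_nonneg w]
  set α : ℂ := (c1 : ℂ) with hα
  set β : ℂ := Complex.I * t with hβ
  have hαα : α * α = ((1 - t ^ 2 : ℝ) : ℂ) := by
    rw [hα, ← hc1sq]; push_cast; ring
  have hββ : β * β = -((t ^ 2 : ℝ) : ℂ) := by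
    rw [hβ, show Complex.I * (t : ℂ) * (Complex.I * t) = (Complex.I * Complex.I) * (t * t) by ring,
      Complex.I_mul_I]
    push_cast; ring
  have hαstar : (starRingEnd ℂ) α = α := by rw [hα, Complex.conj_ofReal]
  have hβstar : (starRingEnd ℂ) β = -β := by
    rw [hβ, map_mul, Complex.conj_I, Complex.conj_ofReal]; ring
  have hβn : ‖β‖ = t := by
    rw [hβ, norm_mul, Complex.norm_I, one_mul, Complex.norm_real, Real.norm_eq_abs,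
      abs_of_pos ht0]
  have hαn : ‖α‖ ≤ 1 := by
    rw [hα, Complex.norm_real, Real.norm_eq_abs, abs_of_nonneg hc10]; exact hc11
  set u : H →L[ℂ] H := α • 1 + β • w with hu
  have hustar : star u = α • 1 - β • w := by
    rw [hu, star_add, star_smul, star_smul, Complex.star_def, hαstar, hβstar,
      hwsa, star_one, neg_smul, sub_eq_add_neg]
  have huM : u ∈ M := add_mem (M.toStarSubalgebra.smul_mem (one_mem _) _)
    (M.toStarSubalgebra.smul_mem hwM _)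
  have hαβ1 : α * α - β * β = 1 := by
    rw [hαα, hββ]; push_cast; ring
  refine ⟨u, α * β, huM, ?_, ?_, ?_, ?_, ?_⟩
  · have h1 := rotate_conj (w := w) (T := 1) α β
    rw [hustar, hu]
    rw [mul_one] at h1
    rw [h1, one_mul, mul_one, sub_self, smul_zero, add_zero, hww, ← sub_smul, hαβ1,
      one_smul]
  · have h1 := rotate_conj (w := w) (T := 1) α (-β)
    rw [hustar, hu]
    rw [mul_one, neg_smul, sub_neg_eq_add, ← sub_eq_add_neg] at h1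
    rw [h1, one_mul, mul_one, sub_self, smul_zero, add_zero, hww, ← sub_smul,
      neg_mul_neg, hαβ1, one_smul]
  · rw [norm_mul, hβn]; nlinarith [norm_nonneg α]
  · intro ξ
    have h6 : star u ξ - ξ = ((c1 - 1 : ℝ) : ℂ) • ξ - β • w ξ := by
      rw [hustar, sub_apply, smul_apply, smul_apply, one_apply_eq_self, hα]
      push_cast
      rw [sub_smul, one_smul]
      abel
    rw [h6]
    have h8 : ‖((c1 - 1 : ℝ) : ℂ) • ξ‖ ≤ t * ‖ξ‖ := by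
      calc _ = (1 - c1) * ‖ξ‖ := by
            rw [norm_smul, Complex.norm_real, Real.norm_eq_abs, abs_sub_comm,
              abs_of_nonneg (by linarith)]
        _ ≤ t * ‖ξ‖ := by gcongr
    have h9 : ‖β • w ξ‖ ≤ t * ‖ξ‖ := by
      calc _ = t * ‖w ξ‖ := by rw [norm_smul, hβn]
        _ ≤ t * (‖w‖ * ‖ξ‖) := by gcongr; exact le_opNorm _ _
        _ ≤ t * (1 * ‖ξ‖) := by gcongr
        _ = t * ‖ξ‖ := by rw [one_mul]
    exact (norm_sub_le _ _).trans (by linarith)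
  · intro T
    rw [hustar, hu, rotate_conj, hαα, hββ, neg_smul, sub_neg_eq_add]

/-- The parameters of the construction. -/
lemma exists_params {n δ S r : ℝ} (hn : 0 < n) (hδ : 0 < δ) (hS : 0 < S) (hr : 0 < r) :
    ∃ t m ϑ ρ : ℝ, 0 < t ∧ t ≤ 1 / 2 ∧ t * S ≤ δ / 16 ∧ 0 < m ∧ m = t ^ 2 * n / r * δ / 32 ∧
      0 < ϑ ∧ 16 * (ϑ * (n + 1) * S) = m ∧ 0 < ρ ∧ 4 * n * ρ ≤ m ∧ ρ ≤ δ / 4 := by
  obtain ⟨t, ht0, ht1, ht2⟩ : ∃ t : ℝ, 0 < t ∧ t ≤ 1 / 2 ∧ t * S ≤ δ / 16 := by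
    refine ⟨min (1 / 2) (δ / (16 * S)), by positivity, min_le_left _ _, ?_⟩
    calc min (1 / 2) (δ / (16 * S)) * S ≤ δ / (16 * S) * S := by gcongr; exact min_le_right _ _
      _ = δ / 16 := by field_simp
  have hmpos : 0 < t ^ 2 * n / r * δ / 32 := by positivity
  obtain ⟨m, hm⟩ : ∃ m, m = t ^ 2 * n / r * δ / 32 := ⟨_, rfl⟩
  rw [← hm] at hmpos
  refine ⟨t, m, m / (16 * (n + 1) * S), min (m / (4 * n)) (δ / 4), ht0, ht1, ht2, hmpos, hm,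
    by positivity, by field_simp, by positivity, ?_, min_le_right _ _⟩
  calc 4 * n * min (m / (4 * n)) (δ / 4) ≤ 4 * n * (m / (4 * n)) := by
        gcongr; exact min_le_left _ _
    _ = m := by field_simp

lemma coef_bound {n ϑ S m Tn W2 : ℝ} (hn : 0 < n) (hϑ : 0 < ϑ)
    (hTn0 : 0 ≤ Tn) (hTn : Tn ≤ 2 * n) (hS0 : 0 ≤ W2) (hS1 : W2 + 1 ≤ S)
    (hm : 16 * (ϑ * (n + 1) * S) = m) :
    (3 * (4 * ϑ ^ 2) * Tn ^ 2 + ((2 * n + 1) * ϑ) ^ 2) * W2 ≤ m ^ 2 := by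
  have h0 : Tn ^ 2 ≤ (2 * n) ^ 2 := by gcongr
  have h1 : 3 * (4 * ϑ ^ 2) * Tn ^ 2 + ((2 * n + 1) * ϑ) ^ 2 ≤ 52 * (ϑ * (n + 1)) ^ 2 := by
    calc 3 * (4 * ϑ ^ 2) * Tn ^ 2 + ((2 * n + 1) * ϑ) ^ 2
        ≤ 3 * (4 * ϑ ^ 2) * (2 * n) ^ 2 + ((2 * n + 1) * ϑ) ^ 2 := by gcongr
      _ = ϑ ^ 2 * (52 * n ^ 2 + 4 * n + 1) := by ring
      _ ≤ ϑ ^ 2 * (52 * (n + 1) ^ 2) := by
          gcongr; nlinarith
      _ = _ := by ring
  have h2 : W2 ≤ S ^ 2 := by nlinarith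
  calc _ ≤ (52 * (ϑ * (n + 1)) ^ 2) * S ^ 2 := by gcongr
    _ ≤ 256 * (ϑ * (n + 1)) ^ 2 * S ^ 2 := by
        have : 0 ≤ (ϑ * (n + 1)) ^ 2 * S ^ 2 := by positivity
        linarith
    _ = (16 * (ϑ * (n + 1) * S)) ^ 2 := by ring
    _ = m ^ 2 := by rw [hm]

/-- The cancellation of the `a₀` terms. -/
lemma conj_eq {x pc a0 D O T W K : H →L[ℂ] H} {r t : ℝ} (hr : r ≠ 0) {γ : ℂ}
    (hT : T = pc - ((1 - 1 / r + t ^ 2 * (1 / r) : ℝ) : ℂ) • a0)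
    (hW : W = D - ((1 - 1 / r + t ^ 2 * (1 / r) : ℝ) : ℂ) • a0 + (2 : ℂ) • O) :
    ((1 - t ^ 2 : ℝ) : ℂ) • T + γ • K + ((t ^ 2 : ℝ) : ℂ) • W
      = (((1 - t ^ 2) / r : ℝ) : ℂ) • x + (((1 - t ^ 2 : ℝ) : ℂ) •
          (pc - ((1 / r : ℝ) : ℂ) • x - ((1 - 1 / r : ℝ) : ℂ) • a0)
        + ((t ^ 2 : ℝ) : ℂ) • (D - a0) + ((2 * t ^ 2 : ℝ) : ℂ) • O + γ • K) := by
  rw [hT, hW]
  have hrc : (r : ℂ) ≠ 0 := by exact_mod_cast hr
  push_cast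
  match_scalars <;> field_simp <;> ring

lemma norm_four_le {q2 R1 D O K : H →L[ℂ] H} {t m : ℝ} (ht0 : 0 < t) (ht1 : t ≤ 1 / 2)
    (hm : 0 < m) {γ : ℂ} (hγ : ‖γ‖ ≤ 1) {ξ : H} (h1 : ‖(q2 * R1 * q2) ξ‖ ≤ 5 / 2 * m)
    (h2 : ‖(q2 * D * q2) ξ‖ ≤ m) (h3 : ‖(q2 * O * q2) ξ‖ ≤ m)
    (h4 : ‖(q2 * K * q2) ξ‖ ≤ 2 * m) :
    ‖(q2 * (((1 - t ^ 2 : ℝ) : ℂ) • R1 + ((t ^ 2 : ℝ) : ℂ) • D + ((2 * t ^ 2 : ℝ) : ℂ) • O
      + γ • K) * q2) ξ‖ ≤ 8 * m := by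
  have htt : t ^ 2 ≤ 1 / 4 := by nlinarith
  have htt0 : 0 < t ^ 2 := by positivity
  have e1' : (q2 * (((1 - t ^ 2 : ℝ) : ℂ) • R1 + ((t ^ 2 : ℝ) : ℂ) • D + ((2 * t ^ 2 : ℝ) : ℂ) • O
      + γ • K) * q2) ξ = ((1 - t ^ 2 : ℝ) : ℂ) • (q2 * R1 * q2) ξ
        + ((t ^ 2 : ℝ) : ℂ) • (q2 * D * q2) ξ + ((2 * t ^ 2 : ℝ) : ℂ) • (q2 * O * q2) ξ
        + γ • (q2 * K * q2) ξ := by
    simp only [mul_add, add_mul, add_apply, mul_smul_comm, smul_mul_assoc, smul_apply]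
  rw [e1']
  have hk1 : ‖((1 - t ^ 2 : ℝ) : ℂ) • (q2 * R1 * q2) ξ‖ ≤ 1 * (5 / 2 * m) := by
    rw [norm_smul, Complex.norm_real, Real.norm_eq_abs, abs_of_nonneg (by linarith)]
    gcongr
    linarith
  have hk2 : ‖((t ^ 2 : ℝ) : ℂ) • (q2 * D * q2) ξ‖ ≤ 1 / 4 * m := by
    rw [norm_smul, Complex.norm_real, Real.norm_eq_abs, abs_of_nonneg htt0.le]
    gcongr
  have hk3 : ‖((2 * t ^ 2 : ℝ) : ℂ) • (q2 * O * q2) ξ‖ ≤ 1 / 2 * m := by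
    rw [norm_smul, Complex.norm_real, Real.norm_eq_abs, abs_of_nonneg (by linarith)]
    gcongr
    linarith
  have hk4 : ‖γ • (q2 * K * q2) ξ‖ ≤ 1 * (2 * m) := by
    rw [norm_smul]
    gcongr
  calc _ ≤ ‖((1 - t ^ 2 : ℝ) : ℂ) • (q2 * R1 * q2) ξ
      + ((t ^ 2 : ℝ) : ℂ) • (q2 * D * q2) ξ + ((2 * t ^ 2 : ℝ) : ℂ) • (q2 * O * q2) ξ‖
      + ‖γ • (q2 * K * q2) ξ‖ := norm_add_le _ _
    _ ≤ (‖((1 - t ^ 2 : ℝ) : ℂ) • (q2 * R1 * q2) ξ‖ + ‖((t ^ 2 : ℝ) : ℂ) • (q2 * D * q2) ξ‖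
        + ‖((2 * t ^ 2 : ℝ) : ℂ) • (q2 * O * q2) ξ‖) + _ := by
        gcongr
        exact norm_add₃_le
    _ ≤ 8 * m := by linarith

/-- Transport of the projection by the rotation. -/
lemma rotate_back {u q' T : H →L[ℂ] H} (huM : u ∈ M) (hq'M : q' ∈ M) (hq' : IsStarProjection q')
    (hsuu : star u * u = 1) (huus : u * star u = 1) {t : ℝ}
    (hu : ∀ ξ, ‖star u ξ - ξ‖ ≤ 2 * (t * ‖ξ‖)) :
    ∃ q ∈ M, IsStarProjection q ∧ ‖q * T * q‖ ≤ ‖q' * (star u * T * u) * q'‖ ∧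
      ∀ ξ, ‖(1 - q) ξ‖ ≤ ‖(1 - q') ξ‖ + 2 * (t * ‖ξ‖) := by
  have hun : ‖u‖ ≤ 1 := by
    have h1 : ‖u‖ * ‖u‖ = ‖star u * u‖ := (CStarRing.norm_star_mul_self).symm
    rw [hsuu] at h1
    have h2 : ‖(1 : H →L[ℂ] H)‖ ≤ 1 := norm_id_le
    nlinarith [norm_nonneg u]
  have hsun : ‖star u‖ ≤ 1 := norm_le_of_star hun
  refine ⟨u * q' * star u, mul_mem (mul_mem huM hq'M) (star_mem huM), ?_, ?_, ?_⟩
  · constructor
    · change u * q' * star u * (u * q' * star u) = u * q' * star u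
      calc u * q' * star u * (u * q' * star u) = u * q' * (star u * u) * q' * star u := by
            simp only [mul_assoc]
        _ = u * (q' * q') * star u := by rw [hsuu, mul_one]; simp only [mul_assoc]
        _ = u * q' * star u := by rw [hq'.isIdempotentElem.eq]
    · rw [isSelfAdjoint_iff, star_mul, star_mul, star_star, hq'.isSelfAdjoint.star_eq,
        mul_assoc]
  · have h1 : u * q' * star u * T * (u * q' * star u) = u * (q' * (star u * T * u) * q') * star u := by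
      simp only [mul_assoc]
    rw [h1]
    calc ‖u * (q' * (star u * T * u) * q') * star u‖
        ≤ ‖u * (q' * (star u * T * u) * q')‖ * ‖star u‖ := norm_mul_le _ _
      _ ≤ (‖u‖ * ‖q' * (star u * T * u) * q'‖) * ‖star u‖ := by gcongr; exact norm_mul_le _ _
      _ ≤ (1 * ‖q' * (star u * T * u) * q'‖) * 1 := by gcongr
      _ = ‖q' * (star u * T * u) * q'‖ := by ring
  · intro ξ
    have h5 : (1 : H →L[ℂ] H) - u * q' * star u = u * (1 - q') * star u := by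
      rw [mul_sub, sub_mul, mul_one, huus]
    have h4 : (1 - u * q' * star u) ξ = u ((1 - q') (ξ + (star u ξ - ξ))) := by
      rw [h5]; simp only [mul_apply_eq_comp, add_sub_cancel]
    rw [h4]
    calc ‖u ((1 - q') (ξ + (star u ξ - ξ)))‖ ≤ ‖u‖ * ‖(1 - q') (ξ + (star u ξ - ξ))‖ :=
          le_opNorm _ _
      _ ≤ 1 * (‖(1 - q') ξ‖ + ‖(1 - q') (star u ξ - ξ)‖) := by
          gcongr
          rw [map_add]
          exact norm_add_le _ _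
      _ ≤ 1 * (‖(1 - q') ξ‖ + 2 * (t * ‖ξ‖)) := by
          gcongr
          exact (norm_proj_apply_le hq'.one_sub _).trans (hu ξ)
      _ = _ := one_mul _

lemma norm_real_smul_le {z : H →L[ℂ] H} {s n : ℝ} (hs0 : 0 ≤ s) (hs1 : s ≤ 1) (hz : ‖z‖ ≤ n) :
    ‖(s : ℂ) • z‖ ≤ n := by
  rw [norm_smul, Complex.norm_real, Real.norm_eq_abs, abs_of_nonneg hs0]
  calc s * ‖z‖ ≤ 1 * n := by gcongr
    _ = n := one_mul _

lemma real_smul_sa {z : H →L[ℂ] H} (hz : IsSelfAdjoint z) (s : ℝ) :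
    IsSelfAdjoint ((s : ℂ) • z) := by
  rw [isSelfAdjoint_iff, star_smul, hz.star_eq, Complex.star_def, Complex.conj_ofReal]

/-- The exact upper bound: every self-adjoint element is `(1 / r, r)` so-pavable. -/
theorem soPavable_exact (hA : IsMASA A M) (hne : NowhereExpected A M) {r : ℕ} (hr : 0 < r)
    {x : H →L[ℂ] H} (hx : x ∈ M) (hsa : IsSelfAdjoint x) :
    SoPavable A M (1 / r) r x := by
  classical
  intro F δ hδ
  obtain ⟨U, hU⟩ := exists_cofinal hA.isComm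
  by_cases hx0 : x = 0
  · subst hx0
    refine ⟨colour (Part.one A) (fun _ => (⟨0, hr⟩ : Fin r)), 0, 1, colour_isPartition _ _,
      ⟨zero_mem A, IsSelfAdjoint.zero _, by simp⟩, ⟨one_mem _, IsStarProjection.one _⟩, ?_, ?_⟩
    · intro ξ _; simpa using hδ
    · simp [pinching]
  have hn : 0 < ‖x‖ := norm_pos_iff.2 hx0
  obtain ⟨n, hndef⟩ : ∃ n, n = ‖x‖ := ⟨_, rfl⟩
  have hxn : ‖x‖ ≤ n := hndef.ge
  rw [← hndef] at hn
  obtain ⟨S, hS⟩ : ∃ S, S = ∑ ξ ∈ F, ‖ξ‖ ^ 2 + 1 := ⟨_, rfl⟩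
  have hSpos : 0 < S := by rw [hS]; positivity
  have hFS1 : ∀ ξ ∈ F, ‖ξ‖ ≤ S := by
    intro ξ hξ
    have := Finset.single_le_sum (f := fun ξ : H => ‖ξ‖ ^ 2) (fun _ _ => sq_nonneg _) hξ
    have h2 : ‖ξ‖ ^ 2 + 1 ≤ S := by rw [hS]; linarith
    nlinarith [sq_nonneg (‖ξ‖ - 1)]
  have hr0 : (0 : ℝ) < r := by exact_mod_cast hr
  have hr1 : (1 : ℝ) / r ≤ 1 := by
    rw [div_le_one hr0]; exact_mod_cast hr
  have hr2 : (0 : ℝ) < 1 / r := by positivity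
  obtain ⟨t, m, ϑ, ρ, ht0, ht1, ht2, hmpos, hm, hϑpos, hϑeq, hρ0, hρ1, hρ2⟩ :=
    exists_params hn hδ hSpos hr0
  have htt : t ^ 2 ≤ 1 / 4 := by nlinarith
  have htt0 : 0 < t ^ 2 := by positivity
  have hηpos : 0 < t ^ 2 * n / r := by positivity
  -- the element `a`
  obtain ⟨a0, ha0⟩ : ∃ a0, a0 = Phi U x := ⟨_, rfl⟩
  have ha0A : a0 ∈ A := ha0 ▸ hA.Phi_mem hU hx
  have ha0sa : IsSelfAdjoint a0 := ha0 ▸ Phi_sa U hsa
  have ha0n : ‖a0‖ ≤ n := by rw [ha0, hndef]; exact norm_Phi_le U x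
  have hs0 : 0 ≤ 1 - 1 / (r : ℝ) + t ^ 2 * (1 / r) := by nlinarith
  have hs1 : 1 - 1 / (r : ℝ) + t ^ 2 * (1 / r) ≤ 1 := by nlinarith
  obtain ⟨a, ha⟩ : ∃ a : H →L[ℂ] H,
    a = ((1 - 1 / (r : ℝ) + t ^ 2 * (1 / r) : ℝ) : ℂ) • a0 := ⟨_, rfl⟩
  have haA : a ∈ A := ha ▸ A.smul_mem ha0A _
  have hasa : IsSelfAdjoint a := ha ▸ real_smul_sa ha0sa _
  have han : ‖a‖ ≤ n := ha ▸ norm_real_smul_le hs0 hs1 ha0n
  -- stage one
  obtain ⟨q1, e1, c, hq1M, hq1, hq1F, hR1⟩ := stage_one hA hne hU hr hx F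
    (show 0 < ϑ ^ 2 * ρ / 2 by positivity) hmpos
  have hpcpart := colour_isPartition e1 c
  rw [← ha0] at hR1
  obtain ⟨pc, hpc⟩ : ∃ pc, pc = pinching (colour e1 c) x := ⟨_, rfl⟩
  rw [← hpc] at hR1
  have hpcg : pc = (⟨Fin r, colour e1 c, hpcpart⟩ : Part A).pinch x := hpc
  have hpcn : ‖pc‖ ≤ n := by rw [hpcg, hndef]; exact Part.norm_pinch_le _ x
  have hpcsa : IsSelfAdjoint pc := hpcg ▸ Part.pinch_sa _ hsa
  have hpcM : pc ∈ M := hpcg ▸ Part.pinch_mem M hA.subset _ hx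
  obtain ⟨T, hT⟩ : ∃ T, T = pc - a := ⟨_, rfl⟩
  have hTM : T ∈ M := hT ▸ sub_mem hpcM (hA.subset _ haA)
  have hTsa : IsSelfAdjoint T := hT ▸ hpcsa.sub hasa
  have hTn : ‖T‖ ≤ 2 * n := by
    calc ‖T‖ ≤ ‖pc‖ + ‖a‖ := hT ▸ norm_sub_le _ _
      _ ≤ 2 * n := by linarith
  obtain ⟨R1, hR1def⟩ : ∃ R1, R1 = pc - ((1 / r : ℝ) : ℂ) • x - ((1 - 1 / r : ℝ) : ℂ) • a0 :=
    ⟨_, rfl⟩
  rw [← hR1def] at hR1
  have hR1n : ‖R1‖ ≤ 4 * n := by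
    have h1 : ‖((1 / r : ℝ) : ℂ) • x‖ ≤ n := norm_real_smul_le hr2.le hr1 hxn
    have h2 : ‖((1 - 1 / r : ℝ) : ℂ) • a0‖ ≤ n :=
      norm_real_smul_le (by linarith) (by linarith) ha0n
    calc ‖R1‖ ≤ ‖pc - ((1 / r : ℝ) : ℂ) • x‖ + ‖((1 - 1 / r : ℝ) : ℂ) • a0‖ :=
          hR1def ▸ norm_sub_le _ _
      _ ≤ (‖pc‖ + ‖((1 / r : ℝ) : ℂ) • x‖) + ‖((1 - 1 / r : ℝ) : ℂ) • a0‖ := by
          gcongr; exact norm_sub_le _ _
      _ ≤ 4 * n := by linarith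
  -- stage two
  obtain ⟨q2, f, hq2M, hq2, hef, hq2F, hq12, hspread, hspreadT⟩ :=
    stage_two hA hne hTM hTsa hTn hn.le hq1M hq1 F hϑpos hρ0 hq1F e1
  -- diagonal estimate
  have hκ0 : 0 ≤ 4 * ϑ ^ 2 := by positivity
  have hfsp : f.pinch q2 ≤ (4 * ϑ ^ 2) • (1 : H →L[ℂ] H) :=
    pinch_le_of_spread hq2 (hspread f le_rfl)
  obtain ⟨e2, hfe2, he2⟩ := diag_estimate hA hU hq2 hκ0 hfsp hx F
    (show 0 < m ^ 2 / 4 by positivity)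
  rw [← ha0] at he2
  have hsp2 : e2.pinch q2 ≤ (4 * ϑ ^ 2) • (1 : H →L[ℂ] H) :=
    pinch_le_of_spread hq2 (hspread e2 hfe2)
  -- random signs
  obtain ⟨σ, hσ⟩ := exists_signs hq2 hκ0 hsp2 T
    (show 0 ≤ ((2 * n + 1) * ϑ) ^ 2 by positivity) (hspreadT e2 hfe2) F
  have hcoef : (3 * (4 * ϑ ^ 2) * ‖T‖ ^ 2 + ((2 * n + 1) * ϑ) ^ 2) * ∑ ζ ∈ F, ‖ζ‖ ^ 2
      ≤ m ^ 2 := coef_bound hn hϑpos (norm_nonneg _) hTn (by positivity) hS.ge hϑeq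
  obtain ⟨u, γ, huM, hsuu, huus, hγ, huξ, hconj⟩ := exists_rotation (M := M)
    (hA.subset _ (symm_mem e2 σ)) (symm_sa e2 σ).star_eq (symm_sq e2 σ) ht0 ht1
  have hpT : e2.pinch T = e2.pinch x - a := by
    rw [hT, Part.pinch_sub, hpc, pinch_pinching_colour hA.isComm (hef.trans hfe2),
      Part.pinch_of_mem hA.isComm e2 haA]
  have hwTw := symm_conj e2 σ T
  rw [hpT, ha] at hwTw
  have hT' := hT
  rw [ha] at hT'
  have hconj2 := (hconj T).trans (conj_eq (x := x) (γ := γ)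
    (K := T * symm e2 σ - symm e2 σ * T) hr0.ne' hT' hwTw)
  rw [← hR1def] at hconj2
  obtain ⟨R2, hR2⟩ : ∃ R2, R2 = ((1 - t ^ 2 : ℝ) : ℂ) • R1
    + ((t ^ 2 : ℝ) : ℂ) • (e2.pinch x - a0) + ((2 * t ^ 2 : ℝ) : ℂ) • offDiag e2 T σ
    + γ • (T * symm e2 σ - symm e2 σ * T) := ⟨_, rfl⟩
  obtain ⟨X, hX⟩ : ∃ X, X = (((1 - t ^ 2) / r : ℝ) : ℂ) • x := ⟨_, rfl⟩
  rw [← hR2, ← hX] at hconj2
  have hXM : X ∈ M := hX ▸ M.toStarSubalgebra.smul_mem hx _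
  have hXsa : IsSelfAdjoint X := hX ▸ real_smul_sa hsa _
  have hR2eq : R2 = star u * T * u - X := by rw [hconj2]; abel
  have hR2M : R2 ∈ M := by
    rw [hR2eq]
    exact sub_mem (mul_mem (mul_mem (star_mem huM) hTM) huM) hXM
  have hR2sa : IsSelfAdjoint R2 := by
    rw [hR2eq]
    refine IsSelfAdjoint.sub ?_ hXsa
    rw [isSelfAdjoint_iff, star_mul, star_mul, hTsa.star_eq, star_star, mul_assoc]
  -- estimate of `R2`
  have hR2F : ∀ ξ ∈ F, ‖(q2 * R2 * q2) ξ‖ ≤ 8 * m := by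
    intro ξ hξ
    obtain ⟨h5, h6, h7⟩ := hσ ξ hξ
    rw [hR2]
    refine norm_four_le ht0 ht1 hmpos hγ ?_ ?_ (le_of_sq_le_sq (h5.trans hcoef) hmpos.le) ?_
    · have h1 := norm_compress_le hq1 hq2 hR1n hq12 ξ
      have h2 := hR1 ξ hξ
      have h3 : 4 * n * ‖(1 - q2) ξ‖ ≤ m := by
        calc 4 * n * ‖(1 - q2) ξ‖ ≤ 4 * n * ρ := by gcongr; exact hq2F ξ hξ
          _ ≤ m := hρ1
      have h4 : 2 * (ϑ * (4 * n) * ‖ξ‖) ≤ m / 2 := by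
        calc 2 * (ϑ * (4 * n) * ‖ξ‖) = 8 * (ϑ * n * ‖ξ‖) := by ring
          _ ≤ 8 * (ϑ * (n + 1) * S) := by
              gcongr
              · linarith
              · exact hFS1 ξ hξ
          _ = m / 2 := by linarith
      linarith
    · have h1 := he2 ξ hξ
      apply le_of_sq_le_sq _ hmpos.le
      calc _ ≤ 4 * (4 * ϑ ^ 2) * ‖x‖ ^ 2 * ‖ξ‖ ^ 2 + m ^ 2 / 4 := h1
        _ ≤ 4 * (4 * ϑ ^ 2) * (n + 1) ^ 2 * S ^ 2 + m ^ 2 / 4 := by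
            gcongr
            · linarith
            · exact hFS1 ξ hξ
        _ = (16 * (ϑ * (n + 1) * S)) ^ 2 / 16 + m ^ 2 / 4 := by ring
        _ ≤ m ^ 2 := by rw [hϑeq]; nlinarith
    · have hb4 := le_of_sq_le_sq (h6.trans hcoef) hmpos.le
      have hb5 := le_of_sq_le_sq (h7.trans hcoef) hmpos.le
      rw [mul_sub, sub_mul, sub_apply]
      exact (norm_sub_le _ _).trans (by linarith)
  have hXn : ‖X‖ ≤ (1 - t ^ 2) * n / r := by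
    rw [hX, norm_smul, Complex.norm_real, Real.norm_eq_abs,
      abs_of_nonneg (div_nonneg (by linarith) hr0.le), ← hndef]
    apply le_of_eq; ring
  obtain ⟨q', hq'M, hq', -, hq'n, hq'F⟩ := final_cut hq2M hq2 hR2M hR2sa hηpos hXn hR2F
  obtain ⟨q, hqM, hq, hqn, hqξ⟩ := rotate_back (T := T) huM hq'M hq' hsuu huus huξ
  refine ⟨colour e1 c, a, q, colour_isPartition e1 c, ⟨haA, hasa, hndef ▸ han⟩, ⟨hqM, hq⟩, ?_, ?_⟩
  · intro ξ hξ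
    have h1 := hq'F ξ hξ
    have h2 := hq2F ξ hξ
    have h3 : 8 * m / (t ^ 2 * n / r) = δ / 4 := by
      rw [hm]; field_simp; ring
    rw [h3] at h1
    have h4 := hqξ ξ
    have h10 : t * ‖ξ‖ ≤ t * S := by gcongr; exact hFS1 ξ hξ
    linarith
  · rw [← hpc, ← hT, ← hndef]
    rw [hconj2] at hqn
    calc ‖q * T * q‖ ≤ ‖q' * (X + R2) * q'‖ := hqn
      _ ≤ (1 - t ^ 2) * n / r + t ^ 2 * n / r := hq'n
      _ = 1 / r * n := by ring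

end Vale.Agent.P078
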