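import Mathlib
import Vale.Agent.P078.Rotate

/-!
# P078: the paving number of a nowhere expected MASA
-/

namespace Vale.Agent.P078

open scoped ComplexOrder InnerProductSpace

variable {H : Type*} [NormedAddCommGroup H] [InnerProductSpace ℂ H] [CompleteSpace H]
variable {A : StarSubalgebra ℂ (H →L[ℂ] H)} {M : VonNeumannAlgebra H}

lemma SoPavable.mono {ε ε' : ℝ} (h : ε ≤ ε') {r : ℕ} {x : H →L[ℂ] H}
    (hx : SoPavable A M ε r x) : SoPavable A M ε' r x := by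
  intro F δ hδ
  obtain ⟨p, a, q, hp, ha, hq, hF, hn⟩ := hx F δ hδ
  exact ⟨p, a, q, hp, ha, hq, hF, hn.trans (by gcongr)⟩

lemma soPavable_ceil (hA : IsMASA A M) (hne : NowhereExpected A M) {ε : ℝ} (hε : 0 < ε)
    {x : H →L[ℂ] H} (hx : x ∈ M) (hsa : IsSelfAdjoint x) :
    SoPavable A M ε ⌈1 / ε⌉₊ x := by
  have h1 : 0 < ⌈1 / ε⌉₊ := Nat.ceil_pos.2 (by positivity)
  have h2 : 1 / ε ≤ (⌈1 / ε⌉₊ : ℝ) := Nat.le_ceil _
  refine (soPavable_exact hA hne h1 hx hsa).mono ?_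
  rw [div_le_iff₀ (by exact_mod_cast h1)]
  rw [div_le_iff₀ hε] at h2
  linarith

/-- The paving number of a nowhere expected MASA is `⌈1 / ε⌉`. -/
theorem pavingNumber_eq [Nontrivial H] (hA : IsMASA A M) (hne : NowhereExpected A M) {ε : ℝ}
    (hε : 0 < ε) : pavingNumber A M ε = (⌈1 / ε⌉₊ : ℕ∞) := by
  have h1 : 0 < ⌈1 / ε⌉₊ := Nat.ceil_pos.2 (by positivity)
  apply le_antisymm
  · exact sInf_le ⟨_, h1, rfl, fun x hx hsa => soPavable_ceil hA hne hε hx hsa⟩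
  · apply le_sInf
    rintro n ⟨r, hr, rfl, hpav⟩
    have h3 := le_of_soPavable hA hne hr hε hpav
    have hr0 : (0 : ℝ) < r := by exact_mod_cast hr
    rw [div_le_iff₀ hr0] at h3
    have h4 : 1 / ε ≤ (r : ℝ) := by
      rw [div_le_iff₀ hε]; linarith
    exact_mod_cast Nat.ceil_le.2 h4

end Vale.Agent.P078
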